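import Crest.Agent.R120.Defs

/-! Nested sequences of contractions, null elements, peaks, and the link lemma. -/

set_option autoImplicit false

namespace Crest.Agent.R120

open scoped ComplexOrder InnerProductSpace
open Filter Topology

variable {A : Type*} [CStarAlgebra A]

/-- A nested sequence of selfadjoint contractions. -/
structure Nest (e : ℕ → A) : Prop where
  sa : ∀ n, IsSelfAdjoint (e n)
  le : ∀ n, ‖e n‖ ≤ 1
  mul : ∀ n m, n < m → e m * e n = e m

/-- `e n * x * f n → 0`. -/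
def Null (e f : ℕ → A) (x : A) : Prop := Tendsto (fun n => e n * x * f n) atTop (𝓝 0)

/-- `x` is asymptotically a scalar on the sequence `e`. -/
def PeakAt (e : ℕ → A) (x : A) : Prop := ∃ c : ℂ, Null e e (x - c • 1)

/-- `e` excises a state on `C`. -/
def Peak (e : ℕ → A) (C : StarSubalgebra ℂ A) : Prop := ∀ x ∈ C, PeakAt e x

/-- `e` and `f` are asymptotically orthogonal over `C`. -/
def Orth (e f : ℕ → A) (C : StarSubalgebra ℂ A) : Prop := ∀ x ∈ C, Null e f x

/-- A decreasing sequence of projections starting from `1`. -/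
structure PSeq (P : ℕ → A) : Prop where
  proj : ∀ n, IsStarProjection (P n)
  zero : P 0 = 1
  nest : ∀ n m, n ≤ m → P m * P n = P m

lemma PSeq.toNest {P : ℕ → A} (h : PSeq P) : Nest P :=
  ⟨fun n => (h.proj n).isSelfAdjoint, fun n => (h.proj n).norm_le, fun n m hnm => h.nest n m hnm.le⟩

lemma PSeq.nest' {P : ℕ → A} (h : PSeq P) (n m : ℕ) (hnm : n ≤ m) : P n * P m = P m := by
  have := congrArg star (h.nest n m hnm)
  rwa [star_mul, (h.proj n).isSelfAdjoint.star_eq, (h.proj m).isSelfAdjoint.star_eq] at this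

lemma PSeq.mul_eq_max {P : ℕ → A} (h : PSeq P) (n m : ℕ) : P n * P m = P (max n m) := by
  rcases le_total n m with h1 | h1
  · rw [max_eq_right h1, h.nest' n m h1]
  · rw [max_eq_left h1, h.nest m n h1]

namespace Nest

variable {e f : ℕ → A}

lemma mul' (h : Nest e) (n m : ℕ) (hnm : n < m) : e n * e m = e m := by
  have := congrArg star (h.mul n m hnm)
  rwa [star_mul, (h.sa n).star_eq, (h.sa m).star_eq] at this

lemma norm_mul_le (h : Nest e) (n : ℕ) (x : A) : ‖e n * x‖ ≤ ‖x‖ :=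
  (_root_.norm_mul_le _ _).trans (mul_le_of_le_one_left (norm_nonneg _) (h.le n))

lemma norm_mul_le' (h : Nest e) (n : ℕ) (x : A) : ‖x * e n‖ ≤ ‖x‖ :=
  (_root_.norm_mul_le _ _).trans (mul_le_of_le_one_right (norm_nonneg _) (h.le n))

lemma norm_left_le (h : Nest e) {n m : ℕ} (hnm : n ≤ m) (x : A) : ‖e m * x‖ ≤ ‖e n * x‖ := by
  rcases hnm.eq_or_lt with rfl | hlt
  · exact le_rfl
  · rw [← h.mul n m hlt, mul_assoc]; exact h.norm_mul_le _ _

lemma norm_right_le (h : Nest e) {n m : ℕ} (hnm : n ≤ m) (x : A) : ‖x * e m‖ ≤ ‖x * e n‖ := by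
  rcases hnm.eq_or_lt with rfl | hlt
  · exact le_rfl
  · rw [← h.mul' n m hlt, ← mul_assoc]; exact h.norm_mul_le' _ _

lemma norm_le₂ (he : Nest e) (hf : Nest f) {n m n' m' : ℕ} (hn : n ≤ m) (hn' : n' ≤ m') (x : A) :
    ‖e m * x * f m'‖ ≤ ‖e n * x * f n'‖ := by
  refine (hf.norm_right_le hn' _).trans ?_
  rw [mul_assoc, mul_assoc]; exact he.norm_left_le hn _

lemma norm_conj_le (he : Nest e) (hf : Nest f) (n m : ℕ) (x : A) : ‖e n * x * f m‖ ≤ ‖x‖ :=
  (hf.norm_mul_le' _ _).trans (he.norm_mul_le _ _)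

lemma comp (h : Nest e) {k : ℕ → ℕ} (hk : StrictMono k) : Nest (fun n => e (k n)) :=
  ⟨fun _ => h.sa _, fun _ => h.le _, fun _ _ hnm => h.mul _ _ (hk hnm)⟩

lemma eq_zero_of_le (h : Nest e) {n m : ℕ} (hn : e n = 0) (hnm : n ≤ m) : e m = 0 := by
  rcases hnm.eq_or_lt with rfl | hlt
  · exact hn
  · rw [← h.mul n m hlt, hn, mul_zero]

lemma norm_eq_one (h : Nest e) (h0 : ∀ n, e n ≠ 0) (n : ℕ) : ‖e n‖ = 1 := by
  refine le_antisymm (h.le n) ?_
  have h1 : ‖e (n + 1)‖ ≤ ‖e (n + 1)‖ * ‖e n‖ := by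
    conv_lhs => rw [← h.mul n (n + 1) (Nat.lt_succ_self n)]
    exact _root_.norm_mul_le _ _
  have h2 : 0 < ‖e (n + 1)‖ := norm_pos_iff.2 (h0 _)
  nlinarith

lemma norm_sq_eq_one (h : Nest e) (h0 : ∀ n, e n ≠ 0) (n : ℕ) : ‖e n * e n‖ = 1 := by
  have := CStarRing.norm_star_mul_self (x := e n)
  rw [(h.sa n).star_eq, h.norm_eq_one h0] at this
  simpa using this

end Nest

lemma null_iff {e f : ℕ → A} (he : Nest e) (hf : Nest f) (x : A) :
    Null e f x ↔ ∀ ε : ℝ, 0 < ε → ∃ n m, ‖e n * x * f m‖ < ε := by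
  constructor
  · intro h ε hε
    obtain ⟨n, hn⟩ := (Metric.tendsto_atTop.1 h) ε hε
    exact ⟨n, n, by simpa using hn n le_rfl⟩
  · intro h
    refine Metric.tendsto_atTop.2 fun ε hε => ?_
    obtain ⟨n, m, hnm⟩ := h ε hε
    refine ⟨max n m, fun k hk => ?_⟩
    rw [dist_zero_right]
    exact lt_of_le_of_lt (he.norm_le₂ hf (le_of_max_le_left hk) (le_of_max_le_right hk) x) hnm

namespace Null

variable {e f : ℕ → A}

lemma zero : Null e f 0 := by simp [Null]

lemma add {x y : A} (hx : Null e f x) (hy : Null e f y) : Null e f (x + y) := by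
  simpa [Null, mul_add, add_mul] using Tendsto.add hx hy

lemma smul {x : A} (c : ℂ) (hx : Null e f x) : Null e f (c • x) := by
  simpa [Null] using Tendsto.const_smul hx c

lemma neg {x : A} (hx : Null e f x) : Null e f (-x) := by
  simpa [Null] using Tendsto.neg hx

lemma sub {x y : A} (hx : Null e f x) (hy : Null e f y) : Null e f (x - y) := by
  simpa [Null, mul_sub, sub_mul] using Tendsto.sub hx hy

lemma star {x : A} (he : Nest e) (hf : Nest f) (hx : Null e f x) : Null f e (star x) := by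
  have := Tendsto.star hx
  simpa [Null, (he.sa _).star_eq, (hf.sa _).star_eq, mul_assoc] using this

lemma norm {x : A} (hx : Null e f x) : Tendsto (fun n => ‖e n * x * f n‖) atTop (𝓝 0) := by
  simpa using Tendsto.norm hx

lemma of_left_zero (he : Nest e) {n : ℕ} (hn : e n = 0) (x : A) : Null e f x := by
  refine tendsto_const_nhds.congr' ?_
  filter_upwards [eventually_ge_atTop n] with m hm
  simp [he.eq_zero_of_le hn hm]

lemma of_right_zero (hf : Nest f) {n : ℕ} (hn : f n = 0) (x : A) : Null e f x := by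
  refine tendsto_const_nhds.congr' ?_
  filter_upwards [eventually_ge_atTop n] with m hm
  simp [hf.eq_zero_of_le hn hm]

lemma of_approx (he : Nest e) (hf : Nest f) {x : A}
    (h : ∀ ε : ℝ, 0 < ε → ∃ y, Null e f y ∧ ‖x - y‖ < ε) : Null e f x := by
  refine (null_iff he hf x).2 fun ε hε => ?_
  obtain ⟨y, hy, hxy⟩ := h (ε / 2) (half_pos hε)
  obtain ⟨n, m, hnm⟩ := (null_iff he hf y).1 hy (ε / 2) (half_pos hε)
  refine ⟨n, m, ?_⟩
  have : e n * x * f m = e n * y * f m + e n * (x - y) * f m := by noncomm_ring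
  rw [this]
  have h2 := he.norm_conj_le hf n m (x - y)
  have h3 := norm_add_le (e n * y * f m) (e n * (x - y) * f m)
  linarith

end Null

lemma isClosed_null {e f : ℕ → A} (he : Nest e) (hf : Nest f) : IsClosed {x | Null e f x} := by
  refine isClosed_of_closure_subset fun x hx => Null.of_approx he hf fun ε hε => ?_
  obtain ⟨y, hy, hxy⟩ := Metric.mem_closure_iff.1 hx ε hε
  exact ⟨y, hy, by rwa [← dist_eq_norm]⟩

/-- The null elements as a submodule. -/
def nullSub (e f : ℕ → A) : Submodule ℂ A where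
  carrier := {x | Null e f x}
  add_mem' := Null.add
  zero_mem' := Null.zero
  smul_mem' := fun c _ hx => Null.smul c hx

lemma null_comp_left {e f : ℕ → A} (he : Nest e) (hf : Nest f) {k : ℕ → ℕ} (hk : StrictMono k)
    (x : A) : Null (fun n => e (k n)) f x ↔ Null e f x := by
  rw [null_iff (he.comp hk) hf, null_iff he hf]
  constructor
  · intro h ε hε
    obtain ⟨n, m, h1⟩ := h ε hε
    exact ⟨_, m, h1⟩
  · intro h ε hε
    obtain ⟨n, m, h1⟩ := h ε hε
    exact ⟨n, m, lt_of_le_of_lt (he.norm_le₂ hf (hk.id_le n) le_rfl x) h1⟩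

lemma null_comp_right {e f : ℕ → A} (he : Nest e) (hf : Nest f) {k : ℕ → ℕ} (hk : StrictMono k)
    (x : A) : Null e (fun n => f (k n)) x ↔ Null e f x := by
  rw [null_iff he (hf.comp hk), null_iff he hf]
  constructor
  · intro h ε hε
    obtain ⟨n, m, h1⟩ := h ε hε
    exact ⟨n, _, h1⟩
  · intro h ε hε
    obtain ⟨n, m, h1⟩ := h ε hε
    exact ⟨n, m, lt_of_le_of_lt (he.norm_le₂ hf le_rfl (hk.id_le m) x) h1⟩

lemma tendsto_norm_of_null {e : ℕ → A} (he : Nest e) (h0 : ∀ n, e n ≠ 0) {x : A} {c : ℂ}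
    (h : Null e e (x - c • 1)) : Tendsto (fun n => ‖e n * x * e n‖) atTop (𝓝 ‖c‖) := by
  have h1 := h.norm
  refine tendsto_of_tendsto_of_tendsto_of_le_of_le (g := fun n => ‖c‖ - ‖e n * (x - c • 1) * e n‖)
    (h := fun n => ‖c‖ + ‖e n * (x - c • 1) * e n‖) (by simpa using tendsto_const_nhds.sub h1)
    (by simpa using tendsto_const_nhds.add h1) (fun n => ?_) (fun n => ?_)
  all_goals
    have e1 : e n * x * e n = c • (e n * e n) + e n * (x - c • 1) * e n := by
      simp [mul_sub, sub_mul]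
    have e2 : ‖c • (e n * e n)‖ = ‖c‖ := by rw [norm_smul, he.norm_sq_eq_one h0, mul_one]
    simp only []
    rw [e1, ← e2]
  · have := norm_sub_le (c • (e n * e n) + e n * (x - c • 1) * e n) (e n * (x - c • 1) * e n)
    rw [add_sub_cancel_right] at this
    linarith
  · exact norm_add_le _ _

lemma peakAt_of_approx {e : ℕ → A} (he : Nest e) {x : A}
    (h : ∀ ε : ℝ, 0 < ε → ∃ (c : ℂ) (n : ℕ), ‖e n * (x - c • 1) * e n‖ < ε) : PeakAt e x := by
  by_cases h0 : ∃ n, e n = 0
  · obtain ⟨n, hn⟩ := h0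
    exact ⟨0, Null.of_left_zero he hn _⟩
  push Not at h0
  have h' : ∀ j : ℕ, ∃ (c : ℂ) (n : ℕ), ‖e n * (x - c • 1) * e n‖ < 1 / ((j : ℝ) + 1) :=
    fun j => h _ (by positivity)
  choose c n hc using h'
  have hd : ∀ i j, ‖c i - c j‖ < 1 / ((i : ℝ) + 1) + 1 / ((j : ℝ) + 1) := by
    intro i j
    set N := max (n i) (n j)
    have h1 := lt_of_le_of_lt (he.norm_le₂ he (le_max_left (n i) (n j)) (le_max_left (n i) (n j)) _)
      (hc i)
    have h2 := lt_of_le_of_lt
      (he.norm_le₂ he (le_max_right (n i) (n j)) (le_max_right (n i) (n j)) _) (hc j)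
    have e1 : (c i - c j) • (e N * e N) =
        e N * (x - c j • 1) * e N - e N * (x - c i • 1) * e N := by
      simp [mul_sub, sub_mul, sub_smul]
    have e2 : ‖(c i - c j) • (e N * e N)‖ = ‖c i - c j‖ := by
      rw [norm_smul, he.norm_sq_eq_one h0, mul_one]
    rw [← e2, e1]
    have := norm_sub_le (e N * (x - c j • 1) * e N) (e N * (x - c i • 1) * e N)
    linarith
  have hlim : Tendsto (fun j : ℕ => 1 / ((j : ℝ) + 1)) atTop (𝓝 0) :=
    tendsto_one_div_add_atTop_nhds_zero_nat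
  have hcau : CauchySeq c := by
    refine cauchySeq_of_le_tendsto_0 (fun N : ℕ => 1 / ((N : ℝ) + 1) + 1 / ((N : ℝ) + 1))
      (fun i j N hi hj => ?_) (by simpa using hlim.add hlim)
    rw [dist_eq_norm]
    refine (hd i j).le.trans (add_le_add ?_ ?_) <;> gcongr
  obtain ⟨c₀, hc₀⟩ := cauchySeq_tendsto_of_complete hcau
  refine ⟨c₀, (null_iff he he _).2 fun ε hε => ?_⟩
  have h1 : ∀ᶠ j in atTop, ‖c j - c₀‖ < ε / 2 := by
    have := (tendsto_iff_norm_sub_tendsto_zero.1 hc₀).eventually (gt_mem_nhds (half_pos hε))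
    exact this
  have h2 : ∀ᶠ j : ℕ in atTop, 1 / ((j : ℝ) + 1) < ε / 2 := hlim.eventually (gt_mem_nhds (half_pos hε))
  obtain ⟨j, hj1, hj2⟩ := (h1.and h2).exists
  refine ⟨n j, n j, ?_⟩
  have e1 : e (n j) * (x - c₀ • 1) * e (n j) =
      e (n j) * (x - c j • 1) * e (n j) + (c j - c₀) • (e (n j) * e (n j)) := by
    simp [mul_sub, sub_mul, sub_smul]
  rw [e1]
  have h3 := norm_add_le (e (n j) * (x - c j • 1) * e (n j)) ((c j - c₀) • (e (n j) * e (n j)))
  rw [norm_smul, he.norm_sq_eq_one h0, mul_one] at h3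
  have := hc j
  linarith

lemma isClosed_peakAt {e : ℕ → A} (he : Nest e) : IsClosed {x | PeakAt e x} := by
  refine isClosed_of_closure_subset fun x hx => peakAt_of_approx he fun ε hε => ?_
  obtain ⟨y, ⟨c, hc⟩, hxy⟩ := Metric.mem_closure_iff.1 hx (ε / 2) (half_pos hε)
  obtain ⟨n, hn⟩ := (hc.norm.eventually (gt_mem_nhds (half_pos hε))).exists
  refine ⟨c, n, ?_⟩
  have : e n * (x - c • 1) * e n = e n * (y - c • 1) * e n + e n * (x - y) * e n := by
    noncomm_ring
  rw [this]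
  have h2 := he.norm_conj_le he n n (x - y)
  have h3 := norm_add_le (e n * (y - c • 1) * e n) (e n * (x - y) * e n)
  rw [dist_eq_norm] at hxy
  linarith

/-- The peak elements as a submodule. -/
def peakSub (e : ℕ → A) : Submodule ℂ A where
  carrier := {x | PeakAt e x}
  add_mem' := by
    rintro x y ⟨c, hc⟩ ⟨d, hd⟩
    refine ⟨c + d, ?_⟩
    convert hc.add hd using 1
    rw [add_smul]; abel
  zero_mem' := ⟨0, by simpa using Null.zero⟩
  smul_mem' := by
    rintro a x ⟨c, hc⟩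
    refine ⟨a * c, ?_⟩
    convert hc.smul a using 1
    rw [smul_sub, mul_smul]

lemma Null.peakAt {e : ℕ → A} {x : A} (h : Null e e x) : PeakAt e x := ⟨0, by simpa using h⟩

end Crest.Agent.R120
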