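import Crest.Agent.R120.L2
import Crest.Agent.R120.Null

/-! The conditional expectation onto the closed span of a peaking sequence of projections. -/

set_option autoImplicit false
set_option linter.unusedSectionVars false

namespace Crest.Agent.R120

open scoped ComplexOrder InnerProductSpace
open Filter Topology

variable {A : Type*} [CStarAlgebra A]

/-- Closed span of a sequence. -/
noncomputable def Dsp (P : ℕ → A) : Submodule ℂ A :=
  (Submodule.span ℂ (Set.range P)).topologicalClosure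

/-- Successive differences. -/
def qq (P : ℕ → A) (j : ℕ) : A := P j - P (j + 1)

lemma mem_Dsp (P : ℕ → A) (n : ℕ) : P n ∈ Dsp P :=
  Submodule.le_topologicalClosure _ (Submodule.subset_span ⟨n, rfl⟩)

lemma Dsp_le {P : ℕ → A} {S : Submodule ℂ A} (hS : IsClosed (S : Set A)) (h : ∀ n, P n ∈ S) :
    Dsp P ≤ S :=
  Submodule.topologicalClosure_minimal _ (Submodule.span_le.2 (by rintro _ ⟨n, rfl⟩; exact h n)) hS

lemma isClosed_Dsp (P : ℕ → A) : IsClosed (Dsp P : Set A) := Submodule.isClosed_topologicalClosure _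

lemma mem_of_mem_Dsp {P : ℕ → A} {C : StarSubalgebra ℂ A} (hC : IsClosed (C : Set A))
    (h : ∀ n, P n ∈ C) {d : A} (hd : d ∈ Dsp P) : d ∈ C :=
  Dsp_le (S := C.toSubalgebra.toSubmodule) hC h hd

/-- Induction: a continuous linear map sending all `P n` into a closed submodule sends `Dsp P`
into it. -/
lemma Dsp_map {B : Type*} [NormedAddCommGroup B] [NormedSpace ℂ B] {P : ℕ → A} (f : A →L[ℂ] B)
    {S : Submodule ℂ B} (hS : IsClosed (S : Set B)) (h : ∀ n, f (P n) ∈ S) {d : A}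
    (hd : d ∈ Dsp P) : f d ∈ S :=
  Dsp_le (S := S.comap (f : A →ₗ[ℂ] B)) (hS.preimage f.continuous) h hd

lemma Dsp_eq {B : Type*} [NormedAddCommGroup B] [NormedSpace ℂ B] {P : ℕ → A} (f g : A →L[ℂ] B)
    (h : ∀ n, f (P n) = g (P n)) {d : A} (hd : d ∈ Dsp P) : f d = g d := by
  have := Dsp_map (f - g) (S := ⊥) (by simp) (fun n => by simp [h n]) hd
  simpa [sub_eq_zero] using this

namespace PSeq

variable {P : ℕ → A}

lemma mul_mem_Dsp (h : PSeq P) {d d' : A} (hd : d ∈ Dsp P) (hd' : d' ∈ Dsp P) : d * d' ∈ Dsp P := by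
  have h1 : ∀ n, P n * d' ∈ Dsp P := fun n =>
    Dsp_map (ContinuousLinearMap.mul ℂ A (P n)) (isClosed_Dsp P)
      (fun m => by simpa [h.mul_eq_max] using mem_Dsp P _) hd'
  exact Dsp_map ((ContinuousLinearMap.mul ℂ A).flip d') (isClosed_Dsp P) h1 hd

lemma qq_proj (h : PSeq P) (j : ℕ) : IsStarProjection (qq P j) :=
  (h.proj (j + 1)).sub_of_mul_eq_left (h.proj j) (h.nest _ _ (Nat.le_succ j))

lemma mul_qq (h : PSeq P) {m j : ℕ} (hm : m ≤ j) : P m * qq P j = qq P j := by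
  rw [qq, mul_sub, h.nest' _ _ hm, h.nest' _ _ (hm.trans (Nat.le_succ j))]

lemma qq_mul (h : PSeq P) {m j : ℕ} (hm : m ≤ j) : qq P j * P m = qq P j := by
  rw [qq, sub_mul, h.nest _ _ hm, h.nest _ _ (hm.trans (Nat.le_succ j))]

lemma qq_mul_qq (h : PSeq P) {i j : ℕ} (hij : i ≠ j) : qq P i * qq P j = 0 := by
  rcases lt_or_gt_of_ne hij with h1 | h1
  · rw [qq, sub_mul, h.mul_qq h1.le, h.mul_qq (Nat.succ_le_of_lt h1), sub_self]
  · conv_lhs => enter [2]; rw [qq]
    rw [mul_sub, h.qq_mul h1.le, h.qq_mul (Nat.succ_le_of_lt h1), sub_self]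

lemma sum_qq (h : PSeq P) (N : ℕ) : ∑ j ∈ Finset.range N, qq P j = 1 - P N := by
  rw [← h.zero]; exact Finset.sum_range_sub' P N

lemma norm_sum_qq_le [PartialOrder A] [StarOrderedRing A] (h : PSeq P) (F : Finset ℕ) (a : ℕ → ℂ)
    {K : ℝ} (hK : 0 ≤ K) (ha : ∀ j ∈ F, qq P j ≠ 0 → ‖a j‖ ≤ K) :
    ‖∑ j ∈ F, a j • qq P j‖ ≤ K := by
  set y := ∑ j ∈ F, a j • qq P j with hy
  have hq0 : ∀ j, 0 ≤ qq P j := fun j => (h.qq_proj j).nonneg
  have e1 : star y * y = ∑ j ∈ F, (‖a j‖ ^ 2 : ℝ) • qq P j := by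
    rw [hy, star_sum, Finset.sum_mul_sum]
    refine Finset.sum_congr rfl fun i hi => ?_
    rw [Finset.sum_eq_single i]
    · rw [star_smul, (h.qq_proj i).isSelfAdjoint.star_eq, smul_mul_smul_comm,
        (h.qq_proj i).isIdempotentElem.eq, ← Complex.coe_smul]
      congr 1
      rw [Complex.star_def, Complex.conj_mul']; norm_cast
    · intro j _ hji
      rw [star_smul, (h.qq_proj i).isSelfAdjoint.star_eq, smul_mul_smul_comm,
        h.qq_mul_qq hji.symm, smul_zero]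
    · intro h0; exact absurd hi h0
  obtain ⟨N, hN⟩ := F.exists_nat_subset_range
  have e2 : star y * y ≤ algebraMap ℝ A (K ^ 2) := by
    rw [e1]
    calc ∑ j ∈ F, (‖a j‖ ^ 2 : ℝ) • qq P j ≤ ∑ j ∈ F, (K ^ 2 : ℝ) • qq P j := by
          refine Finset.sum_le_sum fun j hj => ?_
          by_cases h0 : qq P j = 0
          · simp [h0]
          · have := ha j hj h0
            exact smul_le_smul_of_nonneg_right (by gcongr) (hq0 j)
      _ ≤ ∑ j ∈ Finset.range N, (K ^ 2 : ℝ) • qq P j :=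
          Finset.sum_le_sum_of_subset_of_nonneg hN fun j _ _ => smul_nonneg (by positivity) (hq0 j)
      _ = (K ^ 2 : ℝ) • (1 - P N) := by rw [← Finset.smul_sum, h.sum_qq]
      _ ≤ algebraMap ℝ A (K ^ 2) := by
          rw [Algebra.algebraMap_eq_smul_one]
          exact smul_le_smul_of_nonneg_left (sub_le_self _ (h.proj N).nonneg) (by positivity)
  have e3 := (CStarAlgebra.norm_le_iff_le_algebraMap _ (by positivity)
    (star_mul_self_nonneg y)).2 e2
  rw [CStarRing.norm_star_mul_self, ← sq] at e3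
  exact (pow_le_pow_iff_left₀ (norm_nonneg _) hK two_ne_zero).1 e3

end PSeq

variable [PartialOrder A] [StarOrderedRing A] {τ : A →ₚ[ℂ] ℂ}

/-- `τ` as a continuous linear map. -/
noncomputable def trL (τ : A →ₚ[ℂ] ℂ) : A →L[ℂ] ℂ := ⟨τ.toLinearMap, tr_continuous τ⟩

@[simp] lemma trL_apply (x : A) : trL τ x = τ x := rfl

lemma Cen.tr_mul {P : ℕ → A} {x d : A} (hx : Cen τ P x) (hd : d ∈ Dsp P) : τ (d * x) = 0 :=
  Dsp_eq ((trL τ).comp ((ContinuousLinearMap.mul ℂ A).flip x)) 0 (fun n => hx n) hd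

lemma Cen.mul_left {P : ℕ → A} (hP : PSeq P) {x d : A} (hx : Cen τ P x) (hd : d ∈ Dsp P) :
    Cen τ P (d * x) := fun n => by
  rw [← mul_assoc]; exact hx.tr_mul (hP.mul_mem_Dsp (mem_Dsp P n) hd)

lemma Cen.tr_eq_zero {P : ℕ → A} (hP : PSeq P) {x : A} (hx : Cen τ P x) : τ x = 0 := by
  simpa [hP.zero] using hx 0

lemma Cen.tr_qq {P : ℕ → A} {x : A} (hx : Cen τ P x) (j : ℕ) : τ (qq P j * x) = 0 := by
  rw [qq, sub_mul, map_sub, hx, hx, sub_zero]

lemma Cen.add {P : ℕ → A} {x y : A} (hx : Cen τ P x) (hy : Cen τ P y) : Cen τ P (x + y) :=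
  fun n => by rw [mul_add, map_add, hx, hy, add_zero]

lemma IsFT.norm_tr_proj_mul_le (hτ : IsFT τ) {q : A} (hq : IsStarProjection q) (y : A) :
    ‖τ (q * y)‖ ≤ ‖y‖ * ‖τ q‖ := by
  have e : τ (q * y) = τ (star q * (y * q)) := by
    rw [hq.isSelfAdjoint.star_eq, ← mul_assoc, hτ.comm (q * y) q, ← mul_assoc,
      hq.isIdempotentElem.eq]
  rw [e, ← n2_sq_proj hq]
  have h1 := norm_tr_le τ q (y * q)
  have h2 := n2_mul_le τ y q
  have h3 := n2_nonneg τ q
  nlinarith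

lemma IsFT.tr_proj_ne_zero (hτ : IsFT τ) {q : A} (hq : IsStarProjection q) (h0 : q ≠ 0) :
    τ q ≠ 0 := fun h => h0 (hτ.faithful q (by
      rwa [hq.isSelfAdjoint.star_eq, hq.isIdempotentElem.eq]))

lemma n2_tendsto_of_tr {P : ℕ → A} (hP : PSeq P) (hlim : Tendsto (fun n => τ (P n)) atTop (𝓝 0)) :
    Tendsto (fun n => n2 τ (P n)) atTop (𝓝 0) := by
  have h1 : Tendsto (fun n => Real.sqrt ‖τ (P n)‖) atTop (𝓝 0) := by
    simpa using hlim.norm.sqrt
  refine h1.congr fun n => ?_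
  rw [← n2_sq_proj (hP.proj n), Real.sqrt_sq (n2_nonneg _ _)]

lemma cen_of_qq (hτ : IsFT τ) {P : ℕ → A} (hP : PSeq P)
    (hlim : Tendsto (fun n => τ (P n)) atTop (𝓝 0)) {y : A} (hy : ∀ j, τ (qq P j * y) = 0) :
    Cen τ P y := by
  have h1 : ∀ n, τ (P n * y) = τ (P 0 * y) := by
    intro n
    induction n with
    | zero => rfl
    | succ n ih =>
      have := hy n
      rw [qq, sub_mul, map_sub, sub_eq_zero] at this
      rw [← this, ih]
  have h2 : Tendsto (fun n => τ (P n * y)) atTop (𝓝 0) := by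
    refine squeeze_zero_norm (fun n => hτ.norm_tr_proj_mul_le (hP.proj n) y) ?_
    simpa using hlim.norm.const_mul ‖y‖
  simp only [h1] at h2
  have h3 := tendsto_nhds_unique tendsto_const_nhds h2
  intro n
  rw [h1, h3]

theorem decomp (hτ : IsFT τ) {P : ℕ → A} (hP : PSeq P)
    (hlim : Tendsto (fun n => τ (P n)) atTop (𝓝 0)) {x : A} (hx : PeakAt P x) :
    ∃ d ∈ Dsp P, Cen τ P (x - d) ∧
      ∀ K : ℝ, 0 ≤ K → (∀ j, ‖τ (qq P j * x)‖ ≤ K * ‖τ (qq P j)‖) → ‖d‖ ≤ K := by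
  obtain ⟨c, hc⟩ := hx
  set b : ℕ → ℂ := fun j => τ (qq P j * x) / τ (qq P j) with hb
  have hbq : ∀ j, b j * τ (qq P j) = τ (qq P j * x) := by
    intro j
    by_cases h0 : qq P j = 0
    · simp [h0]
    · exact div_mul_cancel₀ _ (hτ.tr_proj_ne_zero (hP.qq_proj j) h0)
  have ha : ∀ m j, m ≤ j → qq P j ≠ 0 → ‖b j - c‖ ≤ ‖P m * (x - c • 1) * P m‖ := by
    intro m j hmj h0
    have h1 := hτ.norm_tr_proj_mul_le (hP.qq_proj j) (P m * (x - c • 1) * P m)
    have h2 : τ (qq P j * (P m * (x - c • 1) * P m)) = (b j - c) * τ (qq P j) := by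
      rw [← mul_assoc, ← mul_assoc, hP.qq_mul hmj, hτ.comm, ← mul_assoc, hP.mul_qq hmj, sub_mul,
        hbq, mul_sub, map_sub, mul_smul_comm, mul_one, map_smul, smul_eq_mul]
    rw [h2, norm_mul] at h1
    exact le_of_mul_le_mul_right h1 (norm_pos_iff.2 (hτ.tr_proj_ne_zero (hP.qq_proj j) h0))
  set s : ℕ → A := fun N => ∑ j ∈ Finset.range N, (b j - c) • qq P j with hs
  have hcau : CauchySeq s := by
    refine cauchySeq_of_le_tendsto_0' (fun N => ‖P N * (x - c • 1) * P N‖) (fun n m hnm => ?_)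
      hc.norm
    rw [dist_comm, dist_eq_norm, hs]
    simp only []
    rw [← Finset.sum_Ico_eq_sub _ hnm]
    exact hP.norm_sum_qq_le _ _ (norm_nonneg _) fun j hj => ha n j (Finset.mem_Ico.1 hj).1
  obtain ⟨s₀, hs₀⟩ := cauchySeq_tendsto_of_complete hcau
  have hsD : ∀ N, s N ∈ Dsp P := fun N => Submodule.sum_mem _ fun j _ =>
    Submodule.smul_mem _ _ (Submodule.sub_mem _ (mem_Dsp P _) (mem_Dsp P _))
  have h1D : (1 : A) ∈ Dsp P := hP.zero ▸ mem_Dsp P 0
  refine ⟨c • 1 + s₀, Submodule.add_mem _ (Submodule.smul_mem _ _ h1D)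
    ((isClosed_Dsp P).mem_of_tendsto hs₀ (Eventually.of_forall hsD)), ?_, ?_⟩
  · refine cen_of_qq hτ hP hlim fun j => ?_
    have h1 : Tendsto (fun N => τ (qq P j * s N)) atTop (𝓝 (τ (qq P j * s₀))) :=
      ((tr_continuous τ).tendsto _).comp (hs₀.const_mul _)
    have h2 : ∀ᶠ N in atTop, τ (qq P j * s N) = (b j - c) * τ (qq P j) := by
      filter_upwards [eventually_gt_atTop j] with N hN
      rw [hs]
      simp only []
      rw [Finset.mul_sum, Finset.sum_eq_single j]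
      · rw [mul_smul_comm, (hP.qq_proj j).isIdempotentElem.eq, map_smul, smul_eq_mul]
      · intro i _ hij
        rw [mul_smul_comm, hP.qq_mul_qq hij.symm, smul_zero]
      · intro h0; exact absurd (Finset.mem_range.2 hN) h0
    have h3 := tendsto_nhds_unique h1 (tendsto_const_nhds.congr' (EventuallyEq.symm h2))
    rw [mul_sub, mul_add, map_sub, map_add, h3, mul_smul_comm, mul_one, map_smul, smul_eq_mul,
      ← hbq]
    ring
  · intro K hK hKj
    refine norm_le_of_n2 hτ.faithful ⊤ (by simp) (by simp) hK fun ζ _ => ?_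
    have h1 : Tendsto (fun N => n2 τ ((c • 1 + s N) * ζ)) atTop (𝓝 (n2 τ ((c • 1 + s₀) * ζ))) :=
      ((n2_continuous hτ.one).tendsto _).comp ((hs₀.const_add _).mul_const _)
    have h2 : Tendsto (fun N => K * n2 τ ζ + ‖c‖ * (n2 τ (P N) * ‖ζ‖)) atTop (𝓝 (K * n2 τ ζ)) := by
      simpa using (((n2_tendsto_of_tr hP hlim).mul_const ‖ζ‖).const_mul ‖c‖).const_add (K * n2 τ ζ)
    refine le_of_tendsto_of_tendsto' h1 h2 fun N => ?_
    have e1 : c • 1 + s N = (∑ j ∈ Finset.range N, b j • qq P j) + c • P N := by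
      rw [hs]
      simp only [sub_smul, Finset.sum_sub_distrib, ← Finset.smul_sum, hP.sum_qq, smul_sub]
      abel
    have e2 : ‖∑ j ∈ Finset.range N, b j • qq P j‖ ≤ K := by
      refine hP.norm_sum_qq_le _ _ hK fun j _ h0 => ?_
      have h3 := hKj j
      rw [← hbq, norm_mul] at h3
      exact le_of_mul_le_mul_right h3 (norm_pos_iff.2 (hτ.tr_proj_ne_zero (hP.qq_proj j) h0))
    rw [e1, add_mul]
    refine (n2_add_le τ _ _).trans (add_le_add ?_ ?_)
    · exact (n2_mul_le τ _ _).trans (mul_le_mul_of_nonneg_right e2 (n2_nonneg _ _))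
    · rw [smul_mul_assoc, n2_smul]
      exact mul_le_mul_of_nonneg_left (hτ.n2_mul_le' _ _) (norm_nonneg _)

end Crest.Agent.R120
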