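import Mathlib
import Crest.Prelude.Def_CStarRep

/-!
# Row 120 (S0160): shared definitions

Blueprint of the proof (see `ideas` table, rid 120).  A tracial C*-algebra is built by a transfinite
sequence of reduced HNN extensions over atomic commutative subalgebras spanned by decreasing
projections `P n` that excise a state.
-/

set_option autoImplicit false

namespace Crest.Agent.R120

open scoped ComplexOrder InnerProductSpace
open Filter Topology

section Basic

variable {A : Type*} [CStarAlgebra A]

/-- The closed star subalgebra generated by a set. -/
noncomputable def gen (S : Set A) : StarSubalgebra ℂ A :=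
  (StarAlgebra.adjoin ℂ S).topologicalClosure

/-- Evaluation of a free group word on a family of unitaries. -/
noncomputable def word {G : Type*} (u : G → unitary A) (g : FreeGroup G) : A :=
  ((FreeGroup.lift u g : unitary A) : A)

/-- `u` for the sign `true`, `star u` for the sign `false`. -/
def sgnU (u : A) (ε : Bool) : A := if ε then u else star u

variable [PartialOrder A] [StarOrderedRing A]

/-- Faithful tracial state. -/
structure IsFT (τ : A →ₚ[ℂ] ℂ) : Prop where
  one : τ 1 = 1
  comm : ∀ a b : A, τ (a * b) = τ (b * a)
  faithful : ∀ a : A, τ (star a * a) = 0 → a = 0

/-- `x` is centred with respect to the sequence of projections `P`. -/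
def Cen (τ : A →ₚ[ℂ] ℂ) (P : ℕ → A) (x : A) : Prop := ∀ n, τ (P n * x) = 0

end Basic

/-- A C*-algebra with a faithful tracial state generated by a family of unitaries. -/
structure Model (G : Type) : Type 1 where
  A : Type
  [inst : CStarAlgebra A]
  [ord : PartialOrder A]
  [sor : StarOrderedRing A]
  τ : A →ₚ[ℂ] ℂ
  ft : IsFT τ
  u : G → unitary A
  gen_eq : gen (Set.range fun i => (u i : A)) = ⊤

attribute [instance] Model.inst Model.ord Model.sor

end Crest.Agent.R120
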