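import Crest.Agent.R120.Red

/-! The basic norm estimate for reduced words. -/

set_option autoImplicit false
set_option linter.unusedSectionVars false

namespace Crest.Agent.R120

open scoped ComplexOrder InnerProductSpace
open Filter Topology

variable {A : Type*} [CStarAlgebra A] [PartialOrder A] [StarOrderedRing A]

/-- Gluing data: two peaking, orthogonal sequences of projections with equal traces. -/
structure Data (τ : A →ₚ[ℂ] ℂ) (C : StarSubalgebra ℂ A) (P : Bool → ℕ → A) : Prop where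
  pseq : ∀ ε, PSeq (P ε)
  mem : ∀ ε n, P ε n ∈ C
  tr_eq : ∀ n, τ (P true n) = τ (P false n)
  lim : ∀ ε, Tendsto (fun n => τ (P ε n)) atTop (𝓝 0)
  peak : ∀ ε, Peak (P ε) C
  orth : Orth (P true) (P false) C

/-- `u` generates a reduced HNN extension of `C` along `P`. -/
structure HNN (τ : A →ₚ[ℂ] ℂ) (C : StarSubalgebra ℂ A) (u : A) (P : Bool → ℕ → A) : Prop where
  closed : IsClosed (C : Set A)
  data : Data τ C P
  unit : u ∈ unitary A
  conj : ∀ n, u * P false n = P true n * u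
  free : Free τ C u P

variable {τ : A →ₚ[ℂ] ℂ} {C : StarSubalgebra ℂ A} {u : A} {P : Bool → ℕ → A}

lemma Data.dec (hτ : IsFT τ) (h : Data τ C P) (ε : Bool) {x : A} (hx : x ∈ C) :
    ∃ d ∈ Dsp (P ε), Cen τ (P ε) (x - d) ∧
      ∀ K : ℝ, 0 ≤ K → (∀ j, ‖τ (qq (P ε) j * x)‖ ≤ K * ‖τ (qq (P ε) j)‖) → ‖d‖ ≤ K :=
  decomp hτ (h.pseq ε) (h.lim ε) (h.peak ε x hx)

lemma Data.orth' (h : Data τ C P) {ε ε' : Bool} (hne : ε ≠ ε') : Orth (P ε) (P ε') C := by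
  intro x hx
  cases ε <;> cases ε'
  · exact absurd rfl hne
  · simpa using (h.orth _ (star_mem hx)).star (h.pseq _).toNest (h.pseq _).toNest
  · exact h.orth x hx
  · exact absurd rfl hne

lemma Data.anti {C' : StarSubalgebra ℂ A} (h : Data τ C P) (hC : C' ≤ C) (hm : ∀ ε n, P ε n ∈ C') :
    Data τ C' P :=
  ⟨h.pseq, hm, h.tr_eq, h.lim, fun ε x hx => h.peak ε x (hC hx), fun x hx => h.orth x (hC hx)⟩

lemma HNN.anti {C' : StarSubalgebra ℂ A} (h : HNN τ C u P) (hC' : IsClosed (C' : Set A))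
    (hC : C' ≤ C) (hm : ∀ ε n, P ε n ∈ C') : HNN τ C' u P :=
  ⟨hC', h.data.anti hC hm, h.unit, h.conj, h.free.anti hC⟩

lemma HNN.pre (hτ : IsFT τ) (h : HNN τ C u P) : Pre τ C u P :=
  ⟨h.closed, h.data.pseq, h.data.mem, h.unit, h.conj, fun a _ b _ => hτ.comm a b,
    fun ε _ hx => let ⟨d, hd, hc, _⟩ := h.data.dec hτ ε hx; ⟨d, hd, hc⟩⟩

/-- Vectors starting with the letter of sign `ε`. -/
noncomputable def VV (τ : A →ₚ[ℂ] ℂ) (C : StarSubalgebra ℂ A) (u : A) (P : Bool → ℕ → A)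
    (ε : Bool) : Submodule ℂ A :=
  Submodule.span ℂ {z | ∃ ε' w c, Red τ C u P ε ε' w ∧ c ∈ C ∧ z = w * c}

/-- The complement of `VV`. -/
noncomputable def WW (τ : A →ₚ[ℂ] ℂ) (C : StarSubalgebra ℂ A) (u : A) (P : Bool → ℕ → A)
    (ε : Bool) : Submodule ℂ A :=
  Submodule.span ℂ {z | z ∈ C ∨ ∃ σ ε' a w c, Red τ C u P σ ε' w ∧ a ∈ C ∧ c ∈ C ∧
    (σ = ε → Cen τ (P ε) a) ∧ z = a * w * c}

lemma mem_VV {ε ε' : Bool} {w c : A} (hw : Red τ C u P ε ε' w) (hc : c ∈ C) :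
    w * c ∈ VV τ C u P ε := Submodule.subset_span ⟨ε', w, c, hw, hc, rfl⟩

lemma mem_WW {σ ε ε' : Bool} {a w c : A} (hw : Red τ C u P σ ε' w) (ha : a ∈ C) (hc : c ∈ C)
    (h : σ = ε → Cen τ (P ε) a) : a * w * c ∈ WW τ C u P ε :=
  Submodule.subset_span (Or.inr ⟨σ, ε', a, w, c, hw, ha, hc, h, rfl⟩)

lemma red_mul_WW {σ₁ σ₂ : Bool} {w₀ z : A} (hw₀ : Red τ C u P σ₁ σ₂ w₀)
    (hz : z ∈ WW τ C u P (!σ₂)) : w₀ * z ∈ VV τ C u P σ₁ := by
  refine (Submodule.span_le (p := (VV τ C u P σ₁).comap (LinearMap.mulLeft ℂ w₀))).2 ?_ hz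
  rintro z (hz | ⟨σ, ε', a, w, c, hw, ha, hc, h, rfl⟩)
  · exact mem_VV hw₀ hz
  · have := mem_VV (hw₀.concat hw ha fun hne => by
      have h2 : σ = !σ₂ := by cases σ <;> cases σ₂ <;> simp_all
      rw [h2]; exact h h2) hc
    change w₀ * (a * w * c) ∈ VV τ C u P σ₁
    simpa only [mul_assoc] using this

lemma cen_mul_VV {ε : Bool} {a z : A} (ha : a ∈ C) (hc : Cen τ (P ε) a)
    (hz : z ∈ VV τ C u P ε) : a * z ∈ WW τ C u P ε := by
  refine (Submodule.span_le (p := (WW τ C u P ε).comap (LinearMap.mulLeft ℂ a))).2 ?_ hz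
  rintro _ ⟨ε', w, c, hw, hc', rfl⟩
  change a * (w * c) ∈ WW τ C u P ε
  simpa only [mul_assoc] using mem_WW hw ha hc' fun _ => hc

lemma Free.tr_mul_VV (hf : Free τ C u P) {ε : Bool} {a z : A} (ha : a ∈ C)
    (hz : z ∈ VV τ C u P ε) : τ (a * z) = 0 := by
  refine (Submodule.span_le (p := LinearMap.ker
    (τ.toLinearMap.comp (LinearMap.mulLeft ℂ a)))).2 ?_ hz
  rintro _ ⟨ε', w, c, hw, hc', rfl⟩
  change τ (a * (w * c)) = 0
  simpa only [mul_assoc] using hf _ _ _ hw a ha c hc'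

lemma Pre.orth_VV_WW (h : Pre τ C u P) (hf : Free τ C u P) {ε : Bool} {v z : A}
    (hv : v ∈ VV τ C u P ε) (hz : z ∈ WW τ C u P ε) : τ (star v * z) = 0 := by
  induction hv using Submodule.span_induction with
  | mem v hv =>
    obtain ⟨ε', w, c, hw, hc, rfl⟩ := hv
    rw [star_mul, mul_assoc]
    exact hf.tr_mul_VV (star_mem hc) (red_mul_WW (h.red_star hw) (by simpa using hz))
  | zero => simp
  | add a b _ _ ha hb => rw [star_add, add_mul, map_add, ha, hb, add_zero]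
  | smul c a _ ha => rw [star_smul, smul_mul_assoc, map_smul, ha, smul_zero]

lemma Pre.SS_le (h : Pre τ C u P) (ε : Bool) : SS τ C u P ≤ VV τ C u P ε ⊔ WW τ C u P ε := by
  refine Submodule.span_le.2 ?_
  rintro z (hz | ⟨σ, σ', w, a, b, hw, ha, hb, rfl⟩)
  · exact Submodule.mem_sup_right (Submodule.subset_span (Or.inl hz))
  · by_cases hσ : σ = ε
    · subst hσ
      obtain ⟨d, hd, hc⟩ := h.dec σ a ha
      obtain ⟨w', c, hw', hc', e⟩ := h.dsp_mul_red hw hd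
      have e2 : a * w * b = w' * (c * b) + (a - d) * w * b := by
        rw [← mul_assoc, ← e]; noncomm_ring
      rw [e2]
      exact Submodule.add_mem_sup (mem_VV hw' (mul_mem hc' hb))
        (mem_WW hw (sub_mem ha (h.dsp_mem hd)) hb fun _ => hc)
    · exact Submodule.mem_sup_right (mem_WW hw ha hb fun h1 => absurd h1 hσ)

lemma HNN.n2_mul_VV (hτ : IsFT τ) (h : HNN τ C u P) {ε : Bool} {x v : A} (hx : x ∈ C) {K : ℝ}
    (hK : 0 ≤ K) (hxK : ∀ j, n2 τ (x * qq (P ε) j) ≤ K * n2 τ (qq (P ε) j))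
    (hv : v ∈ VV τ C u P ε) : n2 τ (x * v) ≤ K * n2 τ v := by
  have hp := h.pre hτ
  have hz : star x * x ∈ C := mul_mem (star_mem hx) hx
  obtain ⟨d, hd, hc, hn⟩ := h.data.dec hτ ε hz
  have hdn : ‖d‖ ≤ K ^ 2 := by
    refine hn _ (by positivity) fun j => ?_
    have hq := (h.data.pseq ε).qq_proj j
    have e : τ (qq (P ε) j * (star x * x)) = τ (star (x * qq (P ε) j) * (x * qq (P ε) j)) := by
      rw [star_mul, hq.isSelfAdjoint.star_eq, ← mul_assoc (qq (P ε) j * star x),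
        hτ.comm _ (qq (P ε) j), ← mul_assoc, ← mul_assoc, ← mul_assoc, hq.isIdempotentElem.eq]
    rw [e, ← n2_sq_norm, ← n2_sq_proj hq, ← mul_pow]
    have := n2_nonneg τ (x * qq (P ε) j)
    gcongr
    exact hxK j
  have h0 := hp.orth_VV_WW h.free hv (cen_mul_VV (sub_mem hz (hp.dsp_mem hd)) hc hv)
  have e : star (x * v) * (x * v) = star v * ((star x * x - d) * v) + star v * (d * v) := by
    rw [star_mul]; noncomm_ring
  have h1 : n2 τ (x * v) ^ 2 ≤ (K * n2 τ v) ^ 2 := by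
    rw [n2_sq_norm, e, map_add, h0, zero_add]
    calc ‖τ (star v * (d * v))‖ ≤ n2 τ v * n2 τ (d * v) := norm_tr_le τ _ _
      _ ≤ n2 τ v * (‖d‖ * n2 τ v) := mul_le_mul_of_nonneg_left (n2_mul_le τ _ _) (n2_nonneg _ _)
      _ ≤ n2 τ v * (K ^ 2 * n2 τ v) := by
          have := n2_nonneg τ v
          gcongr
      _ = _ := by ring
  exact (pow_le_pow_iff_left₀ (n2_nonneg _ _) (mul_nonneg hK (n2_nonneg _ _)) two_ne_zero).1 h1

/-- The basic estimate. -/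
theorem HNN.norm_word_le (hτ : IsFT τ) (h : HNN τ C u P) {ε ε' : Bool} {w x y : A}
    (hw : Red τ C u P ε ε' w) (hx : x ∈ C) (hy : y ∈ C) {K₁ K₂ : ℝ} (hK₁ : 0 ≤ K₁) (hK₂ : 0 ≤ K₂)
    (h₁ : ∀ j, n2 τ (x * qq (P ε) j) ≤ K₁ * n2 τ (qq (P ε) j))
    (h₂ : ∀ j, n2 τ (star y * qq (P (!ε')) j) ≤ K₂ * n2 τ (qq (P (!ε')) j)) :
    ‖x * w * y‖ ≤ ‖w‖ * (K₁ * ‖y‖ + K₂ * ‖x‖) := by
  have hp := h.pre hτ
  refine norm_le_of_n2 hτ.faithful (ext C u) (isClosed_ext C u)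
    (mul_mem (mul_mem (le_ext C u hx) (hw.mem (le_ext C u) (mem_ext C u))) (le_ext C u hy))
    (by positivity) fun ζ hζ => ?_
  have hcl : IsClosed {ζ | n2 τ (x * w * y * ζ) ≤ ‖w‖ * (K₁ * ‖y‖ + K₂ * ‖x‖) * n2 τ ζ} :=
    isClosed_le ((n2_continuous hτ.one).comp (by fun_prop))
      (continuous_const.mul (n2_continuous hτ.one))
  refine closure_minimal (s := SS τ C u P) (fun ζ hζ => ?_) hcl (hp.ext_subset_closure hζ)
  obtain ⟨v, hv, ω, hω, e⟩ := Submodule.mem_sup.1 (hp.SS_le (!ε') (mul_mem_SS hy hζ))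
  have ho := hp.orth_VV_WW h.free hv hω
  have hω1 : n2 τ ω ≤ ‖y‖ * n2 τ ζ := by
    refine (n2_le_of_orth τ ho).trans ?_
    rw [e]; exact n2_mul_le τ _ _
  have hv1 : n2 τ v ≤ K₂ * n2 τ ζ := by
    have h3 : n2 τ v ^ 2 ≤ K₂ * n2 τ v * n2 τ ζ := by
      have e2 : τ (star v * v) = τ (star (star y * v) * ζ) := by
        rw [star_mul, star_star, mul_assoc, ← e, mul_add, map_add, ho, add_zero]
      rw [n2_sq_norm, e2]
      exact (norm_tr_le τ _ _).trans (mul_le_mul_of_nonneg_right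
        (h.n2_mul_VV hτ (star_mem hy) hK₂ h₂ hv) (n2_nonneg _ _))
    rcases (n2_nonneg τ v).eq_or_lt with h0 | h0
    · rw [← h0]; exact mul_nonneg hK₂ (n2_nonneg _ _)
    · nlinarith
  change n2 τ (x * w * y * ζ) ≤ _
  have e3 : x * w * y * ζ = x * w * v + x * (w * ω) := by
    rw [mul_assoc (x * w), ← e]; noncomm_ring
  have h4 : n2 τ (x * w * v) ≤ ‖x‖ * ‖w‖ * (K₂ * n2 τ ζ) :=
    (n2_mul_le τ _ _).trans (mul_le_mul (norm_mul_le _ _) hv1 (n2_nonneg _ _) (by positivity))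
  have h5 : n2 τ (x * (w * ω)) ≤ K₁ * (‖w‖ * (‖y‖ * n2 τ ζ)) :=
    (h.n2_mul_VV hτ hx hK₁ h₁ (red_mul_WW hw hω)).trans (mul_le_mul_of_nonneg_left
      ((n2_mul_le τ _ _).trans (mul_le_mul_of_nonneg_left hω1 (norm_nonneg _))) hK₁)
  rw [e3]
  refine (n2_add_le τ _ _).trans ((add_le_add h4 h5).trans (le_of_eq ?_))
  ring

end Crest.Agent.R120
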