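import Crest.Agent.R120.FockAux

/-!
Hilbert-hotel model of the reduced HNN extension (task 80).  Author: helper38.
-/

set_option autoImplicit false

namespace Crest.Agent.R120

open scoped ComplexOrder InnerProductSpace
open Filter Topology Crest.OpAlg

theorem fock_gns {A : Type} [CStarAlgebra A] [PartialOrder A] [StarOrderedRing A]
    (τ : A →ₚ[ℂ] ℂ) :
    ∃ (H : Type) (_ : NormedAddCommGroup H) (_ : InnerProductSpace ℂ H) (_ : CompleteSpace H)
      (π : A →⋆ₐ[ℂ] (H →L[ℂ] H)) (Ω : H),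
      (∀ a, ⟪Ω, π a Ω⟫_ℂ = τ a) ∧ ∀ x, (∀ a, ⟪π a Ω, x⟫_ℂ = 0) → x = 0 := by
  have key : ∀ a : A, τ.gnsStarAlgHom a ((τ.toPreGNS 1 : τ.PreGNS) : τ.GNS) =
      ((τ.toPreGNS a : τ.PreGNS) : τ.GNS) := by
    intro a
    change τ.gnsNonUnitalStarAlgHom a _ = _
    rw [PositiveLinearMap.gnsNonUnitalStarAlgHom_apply_coe]
    simp
  refine ⟨τ.GNS, inferInstance, inferInstance, inferInstance, τ.gnsStarAlgHom,
    ((τ.toPreGNS 1 : τ.PreGNS) : τ.GNS), fun a => ?_, fun x hx => ?_⟩
  · rw [key, UniformSpace.Completion.inner_coe, PositiveLinearMap.preGNS_inner_def]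
    simp
  · have h : ∀ y : τ.GNS, ⟪y, x⟫_ℂ = 0 := by
      intro y
      induction y using UniformSpace.Completion.induction_on with
      | hp => exact isClosed_eq (by fun_prop) continuous_const
      | ih y =>
        have := hx (τ.ofPreGNS y)
        rwa [key] at this
    exact inner_self_eq_zero.1 (h x)

theorem exists_fock {A : Type} [CStarAlgebra A] [PartialOrder A] [StarOrderedRing A]
    (τ : A →ₚ[ℂ] ℂ) (hτ : IsFT τ) (P : Bool → ℕ → A)
    (hproj : ∀ ε n, IsStarProjection (P ε n)) (hzero : ∀ ε, P ε 0 = 1)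
    (hnest : ∀ ε n m, n ≤ m → P ε m * P ε n = P ε m)
    (htr : ∀ n, τ (P true n) = τ (P false n))
    (hlim : ∀ ε, Tendsto (fun n => τ (P ε n)) atTop (𝓝 0)) :
    ∃ (H : Type) (_ : NormedAddCommGroup H) (_ : InnerProductSpace ℂ H) (_ : CompleteSpace H)
      (lam : A →⋆ₐ[ℂ] (H →L[ℂ] H)) (Ω : H) (U : H →L[ℂ] H) (V W : Bool → Set H),
      (∀ a, ⟪Ω, lam a Ω⟫_ℂ = τ a) ∧
      U ∈ unitary (H →L[ℂ] H) ∧
      (∀ n, U * lam (P false n) = lam (P true n) * U) ∧
      (∀ ε, ∀ ζ ∈ W (!ε), sgnU U ε ζ ∈ V ε) ∧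
      (∀ ε a, lam a Ω ∈ W ε) ∧
      (∀ ε a, ∀ ζ ∈ V ε, lam a ζ ∈ W (!ε)) ∧
      (∀ ε a, Cen τ (P ε) a → ∀ ζ ∈ V ε, lam a ζ ∈ W ε) ∧
      (∀ ε a, ∀ ζ ∈ V ε, ⟪Ω, lam a ζ⟫_ℂ = 0) := by
  classical
  obtain ⟨H₀, _, _, _, π, Ω₀, hΩ₀, hcyc⟩ := fock_gns τ
  have hadj : ∀ (a : A) (x y : H₀), ⟪π a x, y⟫_ℂ = ⟪x, π (star a) y⟫_ℂ := by
    intro a x y
    rw [map_star, ContinuousLinearMap.star_eq_adjoint, ContinuousLinearMap.adjoint_inner_right]
  have hmul : ∀ (a b : A) (x : H₀), π a (π b x) = π (a * b) x := by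
    intro a b x
    rw [map_mul]; rfl
  have hinner : ∀ a b : A, ⟪π a Ω₀, π b Ω₀⟫_ℂ = τ (star a * b) := by
    intro a b
    rw [hadj, hmul, hΩ₀]
  have hnorm : ∀ a : A, ((‖π a Ω₀‖ : ℂ)) ^ 2 = τ (star a * a) := by
    intro a
    rw [← hinner, inner_self_eq_norm_sq_to_K]; rfl
  -- the difference projections
  set q : Bool → ℕ → A := fun ε n => P ε n - P ε (n + 1) with hq
  have hPs : ∀ ε n, star (P ε n) = P ε n := fun ε n => (hproj ε n).isSelfAdjoint
  have hnest' : ∀ ε n m, n ≤ m → P ε n * P ε m = P ε m := by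
    intro ε n m h
    have := congrArg star (hnest ε n m h)
    rwa [star_mul, hPs, hPs] at this
  have hqs : ∀ ε n, star (q ε n) = q ε n := by
    intro ε n; simp only [hq, star_sub, hPs]
  have hqq : ∀ ε n, q ε n * q ε n = q ε n := by
    intro ε n
    simp only [hq, sub_mul, mul_sub]
    rw [hnest ε n n le_rfl, hnest ε n (n + 1) (Nat.le_succ n), hnest' ε n (n + 1) (Nat.le_succ n),
      hnest ε (n + 1) (n + 1) le_rfl]
    abel
  have hqo' : ∀ ε n m, n < m → q ε n * q ε m = 0 := by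
    intro ε n m h
    simp only [hq, sub_mul, mul_sub]
    rw [hnest' ε n m h.le, hnest' ε (n + 1) m h, hnest' ε n (m + 1) (by omega),
      hnest' ε (n + 1) (m + 1) (by omega)]
    abel
  have hqo : ∀ ε n m, n ≠ m → q ε n * q ε m = 0 := by
    intro ε n m h
    rcases lt_or_gt_of_ne h with h | h
    · exact hqo' ε n m h
    · have := congrArg star (hqo' ε m n h)
      rwa [star_mul, hqs, hqs, star_zero] at this
  have htot : ∀ ε (x : H₀), (∀ n, π (q ε n) x = 0) → x = 0 := by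
    intro ε x hx
    have h1 : ∀ n, π (P ε n) x = x := by
      intro n
      induction n with
      | zero => rw [hzero, map_one]; rfl
      | succ n ih =>
        have := hx n
        simp only [hq, map_sub, sub_apply] at this
        rw [ih, sub_eq_zero] at this
        exact this.symm
    apply hcyc
    intro a
    have h2 : ∀ n, ‖⟪π a Ω₀, x⟫_ℂ‖ ≤ ‖π (star a)‖ * ‖π (P ε n) Ω₀‖ * ‖x‖ := by
      intro n
      have h3 : ⟪π a Ω₀, x⟫_ℂ = ⟪π (P ε n * a) Ω₀, x⟫_ℂ := by
        rw [← hmul, hadj (P ε n), hPs, h1]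
      have h4 : ‖π (P ε n * a) Ω₀‖ = ‖π (star a * P ε n) Ω₀‖ := by
        have h5 : ((‖π (P ε n * a) Ω₀‖ : ℂ)) ^ 2 = ((‖π (star a * P ε n) Ω₀‖ : ℂ)) ^ 2 := by
          rw [hnorm, hnorm, hτ.comm]
          simp [star_mul, hPs]
        have h6 : ‖π (P ε n * a) Ω₀‖ ^ 2 = ‖π (star a * P ε n) Ω₀‖ ^ 2 := by exact_mod_cast h5
        exact (pow_left_inj₀ (norm_nonneg _) (norm_nonneg _) two_ne_zero).1 h6
      rw [h3]
      refine (norm_inner_le_norm _ _).trans ?_
      rw [h4, ← hmul]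
      gcongr
      exact (π (star a)).le_opNorm _
    have h7 : Tendsto (fun n => ‖π (P ε n) Ω₀‖) atTop (𝓝 0) := by
      have h8 : ∀ n, ‖π (P ε n) Ω₀‖ = √(‖τ (P ε n)‖) := by
        intro n
        have := hnorm (P ε n)
        rw [hPs, hnest ε n n le_rfl] at this
        rw [← this, norm_pow, Complex.norm_real, norm_norm, Real.sqrt_sq (norm_nonneg _)]
      simp_rw [h8]
      have := ((hlim ε).norm).sqrt
      simpa using this
    have h9 : Tendsto (fun n => ‖π (star a)‖ * ‖π (P ε n) Ω₀‖ * ‖x‖) atTop (𝓝 0) := by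
      have := (h7.const_mul ‖π (star a)‖).mul_const ‖x‖
      simpa using this
    exact norm_le_zero_iff.1 (ge_of_tendsto' h9 h2)
  -- special vectors
  set good : ℕ → Prop := fun n => τ (q false n) ≠ 0 with hgood
  have hgood' : ∀ ε n, good n ↔ τ (q ε n) ≠ 0 := by
    intro ε n
    cases ε
    · rfl
    · simp only [hgood, hq, map_sub, htr]
  set s : Bool → ℕ → H₀ := fun ε n => ((‖π (q ε n) Ω₀‖ : ℂ))⁻¹ • π (q ε n) Ω₀ with hs
  have hs1 : ∀ ε n, good n → ‖s ε n‖ = 1 ∧ π (q ε n) (s ε n) = s ε n := by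
    intro ε n hg
    rw [hgood' ε] at hg
    constructor
    · have h1 := hnorm (q ε n)
      rw [hqs, hqq] at h1
      have h2 : ‖π (q ε n) Ω₀‖ ≠ 0 := by
        intro h
        rw [h] at h1
        apply hg
        rw [← h1]; simp
      simp only [hs]
      rw [norm_smul, norm_inv, Complex.norm_real, norm_norm, inv_mul_cancel₀ h2]
    · simp only [hs]
      rw [map_smul, hmul, hqq]
  have hs2 : ∀ ε n a, Cen τ (P ε) a → ⟪s ε n, π a (s ε n)⟫_ℂ = 0 := by
    intro ε n a ha
    simp only [hs]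
    rw [map_smul, inner_smul_left, inner_smul_right, hmul, hinner, hqs, ← mul_assoc (q ε n),
      hτ.comm, ← mul_assoc (q ε n), hqq]
    simp only [hq, sub_mul, map_sub]
    rw [ha n, ha (n + 1)]
    simp
  have hbasis := fun ε => fock_adapted (fun n => π (q ε n))
    (fun n x y => by rw [hadj, hqs]) (fun n x => by rw [hmul, hqq])
    (fun n m h x => by rw [hmul, hqo ε n m h, map_zero]; rfl) (htot ε) (s ε) good (hs1 ε)
  choose I b deg hb hbt hbq hbs using hbasis
  have hdeg : ∀ ε i, good (deg ε i) := by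
    intro ε i
    rw [hgood' ε]
    intro h
    have h1 : q ε (deg ε i) = 0 := by
      apply hτ.faithful
      rw [hqs, hqq, h]
    have h2 := hbq ε i
    rw [h1, map_zero] at h2
    have h3 := (hb ε).1 i
    rw [← h2] at h3
    simp at h3
  have hcard : ∀ ε, Cardinal.mk (I ε) ≤ Cardinal.mk (H₀ × ℕ) := by
    intro ε
    refine Cardinal.mk_le_of_injective (f := fun i => (b ε i, 0)) ?_
    intro i j hij
    exact (hb ε).linearIndependent.injective (congrArg Prod.fst hij)
  obtain ⟨f, hf⟩ := fock_equiv (X := H₀ × ℕ) I deg (fun ε i => b ε i = s ε (deg ε i)) hcard good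
    hdeg (fun ε n hg => by
      obtain ⟨i, hi, hi'⟩ := hbs ε n hg
      exact ⟨i, hi, by rw [hi', hi]⟩)
  let T : Type := (H₀ × ℕ) × Option (Bool × ℕ)
  let c : ∀ ε, T × I ε → lp (fun _ : T => H₀) 2 := fun ε x => lp.single 2 x.1 (b ε x.2)
  let sp : ∀ ε, T × I ε → Prop :=
    fun ε x => x.1.2 = some (ε, deg ε x.2) ∧ b ε x.2 = s ε (deg ε x.2)
  have hc : ∀ ε, Orthonormal ℂ (c ε) := fun ε => fock_single_orthonormal T (hb ε)
  have hct : ∀ ε z, (∀ x, ⟪c ε x, z⟫_ℂ = 0) → z = 0 := fun ε => fock_single_total T (hbt ε)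
  obtain ⟨U, hU, hUc⟩ := fock_unitary (c false) (c true) (hc false) (hc true) (hct false)
    (hct true) f
  let t₀ : T := ((0, 0), none)
  have hcin : ∀ ε x (z : lp (fun _ : T => H₀) 2), ⟪c ε x, z⟫_ℂ = ⟪b ε x.2, z x.1⟫_ℂ :=
    fun ε x z => lp.inner_single_left _ _ _
  have hV0 : ∀ ε (ζ : lp (fun _ : T => H₀) 2), (∀ x, ¬ sp ε x → ⟪c ε x, ζ⟫_ℂ = 0) →
      ∀ t : T, (∀ n, t.2 ≠ some (ε, n)) → ζ t = 0 := by
    intro ε ζ hζ t ht
    apply hbt ε
    intro i
    have := hζ (t, i) (fun h => ht _ h.1)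
    rwa [hcin] at this
  refine ⟨lp (fun _ : T => H₀) 2, inferInstance, inferInstance, inferInstance, fockDiag T π,
    lp.single 2 t₀ Ω₀, U, fun ε => {z | ∀ x, ¬ sp ε x → ⟪c ε x, z⟫_ℂ = 0},
    fun ε => {z | ∀ x, sp ε x → ⟪c ε x, z⟫_ℂ = 0}, ?_, hU, ?_, ?_, ?_, ?_, ?_, ?_⟩
  · intro a
    rw [lp.inner_single_left, fockDiag_apply]
    simpa using hΩ₀ a
  · have hqc : ∀ ε n x, fockDiag T π (q ε n) (c ε x) = if deg ε x.2 = n then c ε x else 0 := by
      intro ε n x
      simp only [c]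
      rw [fockDiag_single]
      split_ifs with h
      · rw [← h, hbq]
      · rw [← hbq ε x.2, hmul, hqo ε n _ (Ne.symm h), map_zero]
        simp
    have hUq : ∀ n, U * fockDiag T π (q false n) = fockDiag T π (q true n) * U := by
      intro n
      apply fock_ext (c false) (hct false)
      intro x
      rw [mul_apply_eq_comp, mul_apply_eq_comp, hUc, hqc, hqc, (hf x).1]
      split_ifs
      · exact hUc x
      · exact map_zero U
    intro n
    induction n with
    | zero => rw [hzero, hzero, map_one, mul_one, one_mul]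
    | succ n ih =>
      have h1 : ∀ ε, P ε (n + 1) = P ε n - q ε n := fun ε => by simp [hq]
      rw [h1, h1, map_sub _ (P false n), map_sub _ (P true n), mul_sub, sub_mul, ih, hUq]
  · intro ε ζ hζ x hx
    cases ε
    · simp only [sgnU, Bool.false_eq_true, if_false]
      rw [ContinuousLinearMap.star_eq_adjoint, ContinuousLinearMap.adjoint_inner_right, hUc]
      apply hζ
      by_contra h
      exact hx ((hf x).2.1 h)
    · simp only [sgnU, if_true]
      obtain ⟨y, rfl⟩ := f.surjective x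
      rw [← hUc, ← ContinuousLinearMap.adjoint_inner_right, ← mul_apply_eq_comp,
        ← ContinuousLinearMap.star_eq_adjoint, (Unitary.mem_iff.1 hU).1]
      exact hζ y ((hf y).2.1 hx)
  · intro ε a x hx
    rw [hcin, fockDiag_apply]
    have hne : x.1 ≠ t₀ := by
      intro h
      have := hx.1
      rw [h] at this
      simp [t₀] at this
    simp [lp.single_apply, Pi.single_eq_of_ne hne]
  · intro ε a ζ hζ x hx
    rw [hcin, fockDiag_apply, hV0 ε ζ hζ x.1, map_zero, inner_zero_right]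
    intro n h
    rw [hx.1] at h
    cases ε <;> simp at h
  · intro ε a ha ζ hζ x hx
    rw [hcin, fockDiag_apply]
    have h1 : ζ x.1 = ⟪b ε x.2, ζ x.1⟫_ℂ • b ε x.2 := by
      rw [← sub_eq_zero]
      apply hbt ε
      intro i
      rw [inner_sub_right, inner_smul_right]
      by_cases hi : i = x.2
      · subst hi
        rw [inner_self_eq_norm_sq_to_K, (hb ε).1]
        simp
      · rw [(hb ε).2 hi, mul_zero, sub_zero]
        have := hζ (x.1, i) (by
          rintro ⟨h2, h3⟩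
          simp only at h2 h3
          rw [hx.1] at h2
          simp only [Option.some.injEq, Prod.mk.injEq, true_and] at h2
          apply hi
          apply (hb ε).linearIndependent.injective
          rw [h3, hx.2, h2])
        rwa [hcin] at this
    rw [h1, map_smul, inner_smul_right, hx.2, hs2 ε _ a ha, mul_zero]
  · intro ε a ζ hζ
    rw [lp.inner_single_left, fockDiag_apply, hV0 ε ζ hζ t₀ (by simp [t₀]), map_zero,
      inner_zero_right]

end Crest.Agent.R120
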