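import Crest.Agent.R120.Defs

/-!
Auxiliary lemmas for the Hilbert-hotel model (task 80).  Author: helper38.
-/

set_option autoImplicit false

namespace Crest.Agent.R120

open scoped ComplexOrder InnerProductSpace
open Filter Topology

theorem fock_adapted {H : Type} [NormedAddCommGroup H] [InnerProductSpace ℂ H] [CompleteSpace H]
    (Q : ℕ → H →L[ℂ] H) (hsa : ∀ n x y, ⟪Q n x, y⟫_ℂ = ⟪x, Q n y⟫_ℂ)
    (hid : ∀ n x, Q n (Q n x) = Q n x) (horth : ∀ n m, n ≠ m → ∀ x, Q n (Q m x) = 0)
    (htot : ∀ x, (∀ n, Q n x = 0) → x = 0) (s : ℕ → H) (good : ℕ → Prop)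
    (hs : ∀ n, good n → ‖s n‖ = 1 ∧ Q n (s n) = s n) :
    ∃ (I : Type) (b : I → H) (deg : I → ℕ), Orthonormal ℂ b ∧
      (∀ x, (∀ i, ⟪b i, x⟫_ℂ = 0) → x = 0) ∧ (∀ i, Q (deg i) (b i) = b i) ∧
      (∀ n, good n → ∃ i, deg i = n ∧ b i = s n) := by
  let K : ℕ → Submodule ℂ H := fun n => LinearMap.ker (Q n - 1 : H →L[ℂ] H).toLinearMap
  have hK : ∀ n x, x ∈ K n ↔ Q n x = x := by
    intro n x
    simp [K, sub_eq_zero]
  have hKc : ∀ n, CompleteSpace (K n) := fun n =>
    (ContinuousLinearMap.isClosed_ker (Q n - 1 : H →L[ℂ] H)).completeSpace_coe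
  have hex : ∀ n, ∃ (w : Set (K n)) (b : HilbertBasis w ℂ (K n)),
      {x : K n | good n ∧ (x : H) = s n} ⊆ w ∧ ⇑b = ((↑) : w → K n) := by
    intro n
    have := hKc n
    apply Orthonormal.exists_hilbertBasis_extension
    constructor
    · rintro ⟨x, hg, hx⟩
      have : ‖(x : H)‖ = 1 := by rw [hx]; exact (hs n hg).1
      simpa using this
    · rintro ⟨x, hg, hx⟩ ⟨y, _, hy⟩ hne
      exfalso
      apply hne
      apply Subtype.ext
      apply Subtype.ext
      rw [hx, hy]
  choose w B hw hB using hex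
  refine ⟨Σ n, w n, fun i => ((i.2 : K i.1) : H), fun i => i.1, ?_, ?_, ?_, ?_⟩
  · constructor
    · rintro ⟨n, i⟩
      have := (B n).orthonormal.1 i
      rw [hB n] at this
      simpa using this
    · rintro ⟨n, i⟩ ⟨m, j⟩ hne
      by_cases hnm : n = m
      · subst hnm
        have hij : i ≠ j := by
          rintro rfl
          exact hne rfl
        have := (B n).orthonormal.2 hij
        rw [hB n] at this
        simpa using this
      · have h1 := (hK n _).1 (i : K n).2
        have h2 := (hK m _).1 (j : K m).2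
        simp only
        rw [← h1, hsa, ← h2, horth n m hnm, inner_zero_right]
  · intro x hx
    apply htot
    intro n
    have hmem : Q n x ∈ K n := (hK n _).2 (hid n x)
    have : (⟨Q n x, hmem⟩ : K n) = 0 := by
      apply (B n).repr.injective
      rw [map_zero]
      ext i
      rw [HilbertBasis.repr_apply_apply, hB n]
      have h1 := (hK n _).1 (i : K n).2
      have h2 := hx ⟨n, i⟩
      simp only at h2
      rw [← h1, hsa] at h2
      simpa using h2
    simpa using congrArg Subtype.val this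
  · rintro ⟨n, i⟩
    exact (hK n _).1 (i : K n).2
  · intro n hg
    exact ⟨⟨n, ⟨⟨s n, (hK n _).2 (hs n hg).2⟩, hw n ⟨hg, rfl⟩⟩⟩, rfl, rfl⟩

theorem fock_orth_bot {H J : Type*} [NormedAddCommGroup H] [InnerProductSpace ℂ H]
    (c : J → H) (htot : ∀ x, (∀ i, ⟪c i, x⟫_ℂ = 0) → x = 0) :
    (Submodule.span ℂ (Set.range c))ᗮ = ⊥ := by
  rw [eq_bot_iff]
  intro x hx
  rw [Submodule.mem_bot]
  exact htot x fun i => hx _ (Submodule.subset_span ⟨i, rfl⟩)

theorem fock_ext {H J : Type*} [NormedAddCommGroup H] [InnerProductSpace ℂ H] [CompleteSpace H]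
    (c : J → H) (htot : ∀ x, (∀ i, ⟪c i, x⟫_ℂ = 0) → x = 0) {S T : H →L[ℂ] H}
    (h : ∀ i, S (c i) = T (c i)) : S = T := by
  have h1 : ContinuousLinearMap.adjoint S = ContinuousLinearMap.adjoint T := by
    ext x
    rw [← sub_eq_zero]
    apply htot
    intro i
    rw [inner_sub_right, ContinuousLinearMap.adjoint_inner_right,
      ContinuousLinearMap.adjoint_inner_right, h i, sub_self]
  exact ContinuousLinearMap.adjoint.injective h1

theorem fock_unitary {H J J' : Type*} [NormedAddCommGroup H] [InnerProductSpace ℂ H]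
    [CompleteSpace H] (c : J → H) (c' : J' → H) (hc : Orthonormal ℂ c) (hc' : Orthonormal ℂ c')
    (htot : ∀ x, (∀ i, ⟪c i, x⟫_ℂ = 0) → x = 0) (htot' : ∀ x, (∀ i, ⟪c' i, x⟫_ℂ = 0) → x = 0)
    (f : J ≃ J') : ∃ U ∈ unitary (H →L[ℂ] H), ∀ j, U (c j) = c' (f j) := by
  classical
  let B := HilbertBasis.mkOfOrthogonalEqBot hc (fock_orth_bot c htot)
  let B' := HilbertBasis.mkOfOrthogonalEqBot (hc'.comp f f.injective)
    (fock_orth_bot (c' ∘ f) (fun x hx => htot' x (fun i => by simpa using hx (f.symm i))))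
  let U : H ≃ₗᵢ[ℂ] H := B.repr.trans B'.repr.symm
  refine ⟨(Unitary.linearIsometryEquiv.symm U : unitary (H →L[ℂ] H)),
    (Unitary.linearIsometryEquiv.symm U).2, fun j => ?_⟩
  have h1 : c j = B j := by simp [B]
  have h2 : c' (f j) = B' j := by simp [B']
  change U (c j) = _
  rw [h1, h2]
  simp [U, HilbertBasis.repr_self]

theorem fock_equiv {X : Type} [Infinite X] (I : Bool → Type) (deg : ∀ ε, I ε → ℕ)
    (sp : ∀ ε, I ε → Prop) (hI : ∀ ε, Cardinal.mk (I ε) ≤ Cardinal.mk X) (good : ℕ → Prop)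
    (h1 : ∀ ε i, good (deg ε i)) (h2 : ∀ ε n, good n → ∃ i, deg ε i = n ∧ sp ε i) :
    ∃ f : (X × Option (Bool × ℕ)) × I false ≃ (X × Option (Bool × ℕ)) × I true,
      ∀ x, deg true (f x).2 = deg false x.2 ∧
        ((¬ ((f x).1.2 = some (true, deg true (f x).2) ∧ sp true (f x).2)) ↔
          (x.1.2 = some (false, deg false x.2) ∧ sp false x.2)) := by
  classical
  have hle : ∀ ε, Cardinal.mk ((X × Option (Bool × ℕ)) × I ε) ≤ Cardinal.mk X := by
    intro ε
    have hX : Cardinal.aleph0 ≤ Cardinal.mk X := Cardinal.aleph0_le_mk X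
    have ho : Cardinal.mk (Option (Bool × ℕ)) ≤ Cardinal.mk X :=
      Cardinal.mk_le_aleph0.trans hX
    rw [Cardinal.mk_prod, Cardinal.mk_prod, Cardinal.lift_id, Cardinal.lift_id, Cardinal.lift_id,
      Cardinal.lift_id]
    calc Cardinal.mk X * Cardinal.mk (Option (Bool × ℕ)) * Cardinal.mk (I ε)
        ≤ Cardinal.mk X * Cardinal.mk X * Cardinal.mk X := by gcongr; exact hI ε
      _ = Cardinal.mk X := by rw [Cardinal.mul_eq_self hX, Cardinal.mul_eq_self hX]
  -- cardinality of every fibre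
  have hcard : ∀ (ε : Bool) (n : ℕ) (p : Prop), good n →
      Cardinal.mk {x : (X × Option (Bool × ℕ)) × I ε //
        deg ε x.2 = n ∧ ((x.1.2 = some (ε, deg ε x.2) ∧ sp ε x.2) ↔ p)} = Cardinal.mk X := by
    intro ε n p hg
    apply le_antisymm ((Cardinal.mk_subtype_le _).trans (hle ε))
    obtain ⟨i, hi, hsp⟩ := h2 ε n hg
    by_cases hp : p
    · refine Cardinal.mk_le_of_injective
        (f := fun x : X => ⟨((x, some (ε, n)), i), hi, by simp [hi, hsp, hp]⟩) ?_
      intro x y hxy
      simpa using hxy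
    · refine Cardinal.mk_le_of_injective
        (f := fun x : X => ⟨((x, none), i), hi, by simp [hp]⟩) ?_
      intro x y hxy
      simpa using hxy
  let g₁ : (X × Option (Bool × ℕ)) × I false → ℕ × Prop :=
    fun x => (deg false x.2, x.1.2 = some (false, deg false x.2) ∧ sp false x.2)
  let g₂ : (X × Option (Bool × ℕ)) × I true → ℕ × Prop :=
    fun x => (deg true x.2, ¬ (x.1.2 = some (true, deg true x.2) ∧ sp true x.2))
  have he : ∀ c, Nonempty ({a // g₁ a = c} ≃ {b // g₂ b = c}) := by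
    rintro ⟨n, p⟩
    by_cases hg : good n
    · rw [← Cardinal.eq]
      have e1 := hcard false n p hg
      have e2 := hcard true n (¬ p) hg
      rw [← e2] at e1
      convert e1 using 3
      · simp [g₁, Prod.ext_iff]
      · simp only [g₂, Prod.ext_iff, eq_iff_iff]
        ext z
        constructor
        · rintro ⟨a, b⟩
          exact ⟨a, by rw [← b, not_not]⟩
        · rintro ⟨a, b⟩
          exact ⟨a, by rw [b, not_not]⟩
    · have : IsEmpty {a // g₁ a = (n, p)} := ⟨fun ⟨a, ha⟩ => hg (by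
        have := congrArg Prod.fst ha
        simp only [g₁] at this
        rw [← this]; exact h1 _ _)⟩
      have : IsEmpty {a // g₂ a = (n, p)} := ⟨fun ⟨a, ha⟩ => hg (by
        have := congrArg Prod.fst ha
        simp only [g₂] at this
        rw [← this]; exact h1 _ _)⟩
      exact ⟨Equiv.equivOfIsEmpty _ _⟩
  refine ⟨Equiv.ofFiberEquiv (fun c => (he c).some), fun x => ?_⟩
  have := Equiv.ofFiberEquiv_map (fun c => (he c).some) x
  simp only [g₁, g₂, Prod.ext_iff, eq_iff_iff] at this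
  exact this

/-- The diagonal amplification of a representation. -/
noncomputable def fockDiag {A H : Type*} (T : Type*) [CStarAlgebra A] [NormedAddCommGroup H]
    [InnerProductSpace ℂ H] [CompleteSpace H] (π : A →⋆ₐ[ℂ] (H →L[ℂ] H)) :
    A →⋆ₐ[ℂ] (lp (fun _ : T => H) 2 →L[ℂ] lp (fun _ : T => H) 2) where
  toFun a := lp.mapCLM 2 (fun _ => π a) (norm_nonneg (π a)) (fun _ => le_rfl)
  map_one' := by ext x t; simp
  map_mul' a b := by ext x t; simp
  map_zero' := by ext x t; simp
  map_add' a b := by ext x t; simp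
  commutes' c := by ext x t; simp [Algebra.algebraMap_eq_smul_one]
  map_star' a := by
    rw [ContinuousLinearMap.star_eq_adjoint, ContinuousLinearMap.eq_adjoint_iff]
    intro x y
    rw [lp.inner_eq_tsum, lp.inner_eq_tsum]
    congr 1
    ext t
    simp [map_star, ContinuousLinearMap.star_eq_adjoint, ContinuousLinearMap.adjoint_inner_left]

theorem fockDiag_apply {A H : Type*} (T : Type*) [CStarAlgebra A] [NormedAddCommGroup H]
    [InnerProductSpace ℂ H] [CompleteSpace H] (π : A →⋆ₐ[ℂ] (H →L[ℂ] H)) (a : A)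
    (x : lp (fun _ : T => H) 2) (t : T) : (fockDiag T π a x) t = π a (x t) := rfl

theorem fockDiag_single {A H : Type*} (T : Type*) [DecidableEq T] [CStarAlgebra A]
    [NormedAddCommGroup H] [InnerProductSpace ℂ H] [CompleteSpace H]
    (π : A →⋆ₐ[ℂ] (H →L[ℂ] H)) (a : A) (t : T) (v : H) :
    fockDiag T π a (lp.single 2 t v) = lp.single 2 t (π a v) := by
  ext s
  rw [fockDiag_apply]
  by_cases h : s = t
  · subst h; simp
  · simp [lp.single_apply, Pi.single_eq_of_ne h]

theorem fock_single_orthonormal {H I : Type*} (T : Type*) [DecidableEq T] [NormedAddCommGroup H]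
    [InnerProductSpace ℂ H] {b : I → H} (hb : Orthonormal ℂ b) :
    Orthonormal ℂ (fun x : T × I => (lp.single 2 x.1 (b x.2) : lp (fun _ : T => H) 2)) := by
  constructor
  · intro x
    rw [lp.norm_single (by norm_num)]
    exact hb.1 _
  · rintro ⟨t, i⟩ ⟨s, j⟩ hne
    simp only
    rw [lp.inner_single_left]
    by_cases h : t = s
    · subst h
      have hij : i ≠ j := by rintro rfl; exact hne rfl
      simpa using hb.2 hij
    · simp [lp.single_apply, Pi.single_eq_of_ne h]

theorem fock_single_total {H I : Type*} (T : Type*) [DecidableEq T] [NormedAddCommGroup H]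
    [InnerProductSpace ℂ H] {b : I → H} (hb : ∀ x, (∀ i, ⟪b i, x⟫_ℂ = 0) → x = 0)
    (z : lp (fun _ : T => H) 2)
    (hz : ∀ x : T × I, ⟪(lp.single 2 x.1 (b x.2) : lp (fun _ : T => H) 2), z⟫_ℂ = 0) : z = 0 := by
  ext t
  apply hb
  intro i
  have := hz (t, i)
  rwa [lp.inner_single_left] at this

end Crest.Agent.R120
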