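import Crest.Agent.R120.Est

/-! Freeness passes to limits, and two HNN extensions can be interchanged. -/

set_option autoImplicit false
set_option linter.unusedSectionVars false

namespace Crest.Agent.R120

open scoped ComplexOrder InnerProductSpace
open Filter Topology

variable {A : Type*} [CStarAlgebra A]

lemma mul_mem_of_closure_span {X Y : Set A} {S : Submodule ℂ A} (hS : IsClosed (S : Set A))
    (h : ∀ x ∈ X, ∀ y ∈ Y, x * y ∈ S) {x y : A}
    (hx : x ∈ closure (Submodule.span ℂ X : Set A)) (hy : y ∈ closure (Submodule.span ℂ Y : Set A)) :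
    x * y ∈ S := by
  have h1 : ∀ x ∈ X, x * y ∈ S := fun x hx =>
    closure_minimal (t := S.comap (LinearMap.mulLeft ℂ x)) 
      (Submodule.span_le.2 fun z hz => h x hx z hz)
      (hS.preimage (continuous_const_mul x)) hy
  exact closure_minimal (t := S.comap (LinearMap.mulRight ℂ y)) 
    (Submodule.span_le.2 fun z hz => h1 z hz)
    (hS.preimage (continuous_mul_const y)) hx

variable [PartialOrder A] [StarOrderedRing A]
variable {τ : A →ₚ[ℂ] ℂ} {u : A} {P : Bool → ℕ → A}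

lemma Data.exists_cen_near (hτ : IsFT τ) {C : StarSubalgebra ℂ A} (h : Data τ C P) {ε : Bool}
    {b z : A} (hb : b ∈ C) (hz : Cen τ (P ε) (b - z)) :
    ∃ d ∈ Dsp (P ε), Cen τ (P ε) (b - d) ∧ ‖d‖ ≤ ‖z‖ := by
  obtain ⟨d, hd, hc, hn⟩ := h.dec hτ ε hb
  refine ⟨d, hd, hc, hn _ (norm_nonneg _) fun j => ?_⟩
  have h1 := hz.tr_qq j
  rw [mul_sub, map_sub, sub_eq_zero] at h1
  rw [h1]
  exact hτ.norm_tr_proj_mul_le ((h.pseq ε).qq_proj j) z

theorem free_of_directed (hτ : IsFT τ) {C' : StarSubalgebra ℂ A} (hd : Data τ C' P) {ι : Type*}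
    (𝒞 : ι → StarSubalgebra ℂ A) (hdir : Directed (· ≤ ·) 𝒞) (hcl : ∀ i, IsClosed (𝒞 i : Set A))
    (hle : ∀ i, 𝒞 i ≤ C') (hP : ∀ i ε n, P ε n ∈ 𝒞 i)
    (hdense : ∀ x ∈ C', x ∈ closure (⋃ i, (𝒞 i : Set A))) (hf : ∀ i, Free τ (𝒞 i) u P) :
    Free τ C' u P := by
  have hne : Nonempty ι := by
    by_contra h0
    have : IsEmpty ι := not_nonempty_iff.1 h0
    simpa using hdense 0 (zero_mem _)
  have key : ∀ ε ε' w, Red τ C' u P ε ε' w → w ∈ closure (⋃ i, {w | Red τ (𝒞 i) u P ε ε' w}) := by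
    intro ε ε' w hw
    induction hw with
    | single ε => exact subset_closure (Set.mem_iUnion.2 ⟨hne.some, .single ε⟩)
    | @cons ε ε' ε'' x w hx _ hc ih =>
      have hx' : x ∈ closure (⋃ i, {y | y ∈ 𝒞 i ∧ (ε ≠ ε' → Cen τ (P ε') y)}) := by
        by_cases hε : ε = ε'
        · simpa [hε] using hdense x hx
        refine Metric.mem_closure_iff.2 fun δ hδ => ?_
        obtain ⟨y, hy, hxy⟩ := Metric.mem_closure_iff.1 (hdense x hx) (δ / 2) (half_pos hδ)
        obtain ⟨i, hy⟩ := Set.mem_iUnion.1 hy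
        obtain ⟨d, hd1, hd2, hd3⟩ := hd.exists_cen_near hτ (ε := ε') (hle i hy) (z := y - x)
          (by simpa using hc hε)
        refine ⟨y - d, Set.mem_iUnion.2 ⟨i, sub_mem hy (mem_of_mem_Dsp (hcl i) (hP i ε') hd1),
          fun _ => hd2⟩, ?_⟩
        rw [dist_eq_norm] at hxy ⊢
        rw [norm_sub_rev] at hd3
        have := norm_add_le (x - y) d
        rw [show x - (y - d) = x - y + d by abel]
        linarith
      refine map_mem_closure₂ (f := fun x w => sgnU u ε * x * w) (by fun_prop) hx' ih ?_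
      intro x hx w hw
      obtain ⟨i, hx, hc⟩ := Set.mem_iUnion.1 hx
      obtain ⟨j, hw⟩ := Set.mem_iUnion.1 hw
      obtain ⟨k, hik, hjk⟩ := hdir i j
      exact Set.mem_iUnion.2 ⟨k, .cons (hik hx) (Red.mono hjk hw) hc⟩
  intro ε ε' w hw a ha b hb
  have h1 : a * w ∈ closure (⋃ i, {z | ∃ a ∈ 𝒞 i, ∃ w, Red τ (𝒞 i) u P ε ε' w ∧ z = a * w}) := by
    refine map_mem_closure₂ (f := fun a w => a * w) (by fun_prop) (hdense a ha) (key _ _ _ hw) ?_
    intro a ha w hw
    obtain ⟨i, ha⟩ := Set.mem_iUnion.1 ha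
    obtain ⟨j, hw⟩ := Set.mem_iUnion.1 hw
    obtain ⟨k, hik, hjk⟩ := hdir i j
    exact Set.mem_iUnion.2 ⟨k, a, hik ha, w, Red.mono hjk hw, rfl⟩
  have h2 : a * w * b ∈ closure {z | τ z = 0} := by
    refine map_mem_closure₂ (f := fun a w => a * w) (by fun_prop) h1 (hdense b hb) ?_
    intro z hz b hb
    obtain ⟨i, a, ha, w, hw, rfl⟩ := Set.mem_iUnion.1 hz
    obtain ⟨j, hb⟩ := Set.mem_iUnion.1 hb
    obtain ⟨k, hik, hjk⟩ := hdir i j
    exact hf k _ _ _ (Red.mono hik hw) a (hik ha) b (hjk hb)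
  exact (isClosed_eq (tr_continuous τ) continuous_const).closure_subset h2

/-- Interchange of two HNN extensions. -/
theorem free_comm (hτ : IsFT τ) {B : StarSubalgebra ℂ A} {v : A} {Q : Bool → ℕ → A}
    (hu : HNN τ B u P) (hv : HNN τ (ext B u) v Q) (hQ : ∀ ε n, Q ε n ∈ B) :
    Free τ (ext B v) u P := by
  have hvB : HNN τ B v Q := hv.anti hu.closed (le_ext B u) hQ
  set Wv : Set A := {z | ∃ ε ε' w a b, Red τ B v Q ε ε' w ∧ a ∈ B ∧ b ∈ B ∧ z = a * w * b} with hWv
  set G : Bool → Set A := fun ε => {W | (∃ ε'', Red τ B u P ε ε'' W) ∨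
    ∃ ε'' r c σ σ' w y, Red τ B u P ε ε'' r ∧ c ∈ B ∧ Red τ (ext B u) v Q σ σ' w ∧ y ∈ ext B u ∧
      W = r * c * w * y} with hG
  have hrm : ∀ {ε ε'' r}, Red τ B u P ε ε'' r → r ∈ ext B u := fun hr =>
    hr.mem (le_ext B u) (mem_ext B u)
  have hcat : ∀ {σ₁ σ₂ w₀ b ε ε'' r c σ σ' w}, Red τ B v Q σ₁ σ₂ w₀ → b ∈ B →
      Red τ B u P ε ε'' r → c ∈ B → Red τ (ext B u) v Q σ σ' w →
      Red τ (ext B u) v Q σ₁ σ' (w₀ * (b * r * c) * w) := by
    intro σ₁ σ₂ w₀ b ε ε'' r c σ σ' w hw₀ hb hr hc hw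
    refine (hw₀.mono (le_ext B u)).concat hw
      (mul_mem (mul_mem (le_ext B u hb) (hrm hr)) (le_ext B u hc)) fun _ n => ?_
    simpa only [mul_assoc] using hu.free _ _ _ hr _ (mul_mem (hQ σ n) hb) c hc
  have hlet : ∀ (p : Prop) (ε' : Bool), ∀ x ∈ ext B v, (p → Cen τ (P ε') x) →
      x ∈ closure (Submodule.span ℂ ({y | y ∈ B ∧ (p → Cen τ (P ε') y)} ∪ Wv) : Set A) := by
    intro p ε' x hx hc
    have h1 := (hvB.pre hτ).ext_subset_closure hx
    by_cases hp : p
    swap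
    · refine closure_mono (Submodule.span_mono ?_) h1
      rintro z (hz | hz)
      · exact Or.inl ⟨hz, fun h => absurd h hp⟩
      · exact Or.inr hz
    refine Metric.mem_closure_iff.2 fun δ hδ => ?_
    obtain ⟨y, hy, hxy⟩ := Metric.mem_closure_iff.1 h1 (δ / 2) (half_pos hδ)
    have hy' : y ∈ B.toSubalgebra.toSubmodule ⊔ Submodule.span ℂ Wv := by
      refine (Submodule.span_le (p := B.toSubalgebra.toSubmodule ⊔ Submodule.span ℂ Wv)).2 ?_ hy
      rintro z (hz | hz)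
      · exact Submodule.mem_sup_left hz
      · exact Submodule.mem_sup_right (Submodule.subset_span hz)
    obtain ⟨b, hb, s, hs, rfl⟩ := Submodule.mem_sup.1 hy'
    have hsc : Cen τ (P ε') (-s) := by
      intro n
      rw [mul_neg, map_neg, neg_eq_zero]
      refine (Submodule.span_le (p := LinearMap.ker
        (τ.toLinearMap.comp (LinearMap.mulLeft ℂ (P ε' n))))).2 ?_ hs
      rintro _ ⟨σ, σ', w, a, b, hw, ha, hb, rfl⟩
      change τ (P ε' n * (a * w * b)) = 0
      simpa only [mul_assoc] using hvB.free _ _ _ hw _ (mul_mem (hu.data.mem ε' n) ha) b hb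
    obtain ⟨d, hd1, hd2, hd3⟩ := hu.data.exists_cen_near hτ (ε := ε') hb (z := b + s - x)
      (by convert (hc hp).add hsc using 1; abel)
    refine ⟨b - d + s, add_mem (Submodule.subset_span (Or.inl ⟨sub_mem hb
      ((hu.pre hτ).dsp_mem hd1), fun _ => hd2⟩)) (Submodule.span_mono Set.subset_union_right hs), ?_⟩
    rw [dist_eq_norm] at hxy ⊢
    rw [norm_sub_rev] at hd3
    have := norm_add_le (x - (b + s)) d
    rw [show x - (b - d + s) = x - (b + s) + d by abel]
    linarith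
  have key : ∀ ε ε' W, Red τ (ext B v) u P ε ε' W →
      W ∈ closure (Submodule.span ℂ (G ε) : Set A) := by
    intro ε ε' W hW
    induction hW with
    | single ε => exact subset_closure (Submodule.subset_span (Or.inl ⟨ε, .single ε⟩))
    | @cons ε ε' ε'' x W hx _ hc ih =>
      rw [mul_assoc]
      refine mul_mem_of_closure_span (S := ((Submodule.span ℂ (G ε)).topologicalClosure).comap
        (LinearMap.mulLeft ℂ (sgnU u ε)))
        ((Submodule.isClosed_topologicalClosure _).preimage (continuous_const_mul _)) ?_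
        (hlet _ ε' x hx hc) ih
      intro x hx W hW
      change sgnU u ε * (x * W) ∈ (Submodule.span ℂ (G ε)).topologicalClosure
      refine Submodule.le_topologicalClosure _ (Submodule.subset_span ?_)
      rcases hx with ⟨hx, hc⟩ | ⟨σ₁, σ₂, w₀, a, b, hw₀, ha, hb, rfl⟩
      · rcases hW with ⟨ε₃, hW⟩ | ⟨ε₃, r, c, σ, σ', w, y, hr, hc', hw, hy, rfl⟩
        · exact Or.inl ⟨ε₃, by simpa only [mul_assoc] using Red.cons hx hW hc⟩
        · exact Or.inr ⟨ε₃, _, c, σ, σ', w, y, Red.cons hx hr hc, hc', hw, hy,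
            by simp only [mul_assoc]⟩
      · rcases hW with ⟨ε₃, hW⟩ | ⟨ε₃, r, c, σ, σ', w, y, hr, hc', hw, hy, rfl⟩
        · exact Or.inr ⟨ε, _, a, σ₁, σ₂, w₀, b * W, .single ε, ha, hw₀.mono (le_ext B u),
            mul_mem (le_ext B u hb) (hrm hW), by simp only [mul_assoc]⟩
        · exact Or.inr ⟨ε, _, a, σ₁, σ', _, y, .single ε, ha, hcat hw₀ hb hr hc' hw, hy,
            by simp only [mul_assoc]⟩
  intro ε ε' W hW a ha b hb
  rw [hτ.comm, ← mul_assoc]
  refine mul_mem_of_closure_span (S := LinearMap.ker τ.toLinearMap)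
    (isClosed_eq (tr_continuous τ) continuous_const) ?_
    (hlet False ε _ (mul_mem hb ha) False.elim) (key _ _ _ hW)
  intro x hx W hW
  change τ (x * W) = 0
  rcases hx with ⟨hx, -⟩ | ⟨σ₁, σ₂, w₀, a, b, hw₀, ha, hb, rfl⟩
  · rcases hW with ⟨ε₃, hW⟩ | ⟨ε₃, r, c, σ, σ', w, y, hr, hc', hw, hy, rfl⟩
    · simpa using hu.free _ _ _ hW x hx 1 (one_mem _)
    · simpa only [mul_assoc] using hv.free _ _ _ hw _
        (mul_mem (mul_mem (le_ext B u hx) (hrm hr)) (le_ext B u hc')) y hy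
  · rcases hW with ⟨ε₃, hW⟩ | ⟨ε₃, r, c, σ, σ', w, y, hr, hc', hw, hy, rfl⟩
    · simpa only [mul_assoc] using hv.free _ _ _ (hw₀.mono (le_ext B u)) a (le_ext B u ha) _
        (mul_mem (le_ext B u hb) (hrm hW))
    · simpa only [mul_assoc] using hv.free _ _ _ (hcat hw₀ hb hr hc' hw) a (le_ext B u ha) y hy

end Crest.Agent.R120
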