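import Crest.Agent.R120.Lift

/-! Row 120: the GNS construction for a positive definite class function on a free group. -/

set_option autoImplicit false

namespace Crest.Agent.R120

open scoped ComplexOrder InnerProductSpace
open Filter Topology Crest.OpAlg UniformSpace

/-- A positive definite function on a group. -/
structure gns_Data (Γ : Type) [Group Γ] where
  χ : Γ → ℂ
  hs : ∀ g, χ g⁻¹ = star (χ g)
  hp : ∀ (s : Finset Γ) (c : Γ → ℂ), 0 ≤ ∑ g ∈ s, ∑ h ∈ s, star (c g) * c h * χ (g⁻¹ * h)

variable {Γ : Type} [Group Γ] (D : gns_Data Γ)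

set_option linter.unusedVariables false in
/-- The pre-Hilbert space of finitely supported functions. -/
def gns_V (D : gns_Data Γ) : Type := Γ →₀ ℂ

noncomputable instance : AddCommGroup (gns_V D) := inferInstanceAs (AddCommGroup (Γ →₀ ℂ))
noncomputable instance : Module ℂ (gns_V D) := inferInstanceAs (Module ℂ (Γ →₀ ℂ))

/-- The sesquilinear form on finitely supported functions. -/
noncomputable def gns_form (a b : Γ →₀ ℂ) : ℂ :=
  a.sum fun g x => b.sum fun h y => star x * y * D.χ (g⁻¹ * h)

theorem gns_form_symm (a b : Γ →₀ ℂ) : (starRingEnd ℂ) (gns_form D b a) = gns_form D a b := by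
  unfold gns_form Finsupp.sum
  rw [map_sum, Finset.sum_comm]
  refine Finset.sum_congr rfl fun h _ => ?_
  rw [map_sum]
  refine Finset.sum_congr rfl fun g _ => ?_
  have := D.hs (h⁻¹ * g)
  rw [mul_inv_rev, inv_inv] at this
  simp only [this]
  simp [mul_comm]

theorem gns_form_nonneg (a : Γ →₀ ℂ) : 0 ≤ gns_form D a a := D.hp a.support a

theorem gns_form_add (a a' b : Γ →₀ ℂ) :
    gns_form D (a + a') b = gns_form D a b + gns_form D a' b := by
  unfold gns_form
  refine Finsupp.sum_add_index' (fun g => by simp) fun g x x' => ?_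
  simp only [star_add, add_mul, Finsupp.sum_add]

theorem gns_form_smul (a b : Γ →₀ ℂ) (r : ℂ) :
    gns_form D (r • a) b = (starRingEnd ℂ) r * gns_form D a b := by
  unfold gns_form
  refine (Finsupp.sum_smul_index' (fun g => by simp)).trans ?_
  simp only [Finsupp.mul_sum, smul_eq_mul, star_mul', mul_assoc]
  rfl

/-- The inner product core. -/
noncomputable abbrev gns_core : PreInnerProductSpace.Core ℂ (gns_V D) where
  inner a b := gns_form D a b
  conj_inner_symm a b := gns_form_symm D a b
  re_inner_nonneg a := (RCLike.nonneg_iff.mp (gns_form_nonneg D a)).1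
  add_left a a' b := gns_form_add D a a' b
  smul_left a b r := gns_form_smul D a b r

noncomputable instance : SeminormedAddCommGroup (gns_V D) :=
  InnerProductSpace.Core.toSeminormedAddCommGroup (c := gns_core D)

noncomputable instance : InnerProductSpace ℂ (gns_V D) :=
  InnerProductSpace.ofCore (gns_core D)

/-- The basis vectors. -/
noncomputable def gns_e (g : Γ) : gns_V D := (Finsupp.single g 1 : Γ →₀ ℂ)

theorem gns_inner_e (g h : Γ) : ⟪gns_e D g, gns_e D h⟫_ℂ = D.χ (g⁻¹ * h) := by
  change gns_form D (Finsupp.single g 1) (Finsupp.single h 1) = _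
  simp [gns_form]

theorem gns_induction {p : gns_V D → Prop} (he : ∀ g, p (gns_e D g)) (h0 : p 0)
    (hadd : ∀ a b, p a → p b → p (a + b)) (hsmul : ∀ (c : ℂ) a, p a → p (c • a)) (a : gns_V D) :
    p a := by
  refine Finsupp.induction_linear (motive := fun a : Γ →₀ ℂ => p a) a h0 hadd fun g c => ?_
  have : (Finsupp.single g c : Γ →₀ ℂ) = c • Finsupp.single g 1 := by simp
  rw [this]
  exact hsmul c _ (he g)

/-- Left translation. -/
noncomputable def gns_L (k : Γ) : gns_V D →ₗ[ℂ] gns_V D :=
  (Finsupp.lmapDomain ℂ ℂ (fun g => k * g) : (Γ →₀ ℂ) →ₗ[ℂ] (Γ →₀ ℂ))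

theorem gns_L_e (k g : Γ) : gns_L D k (gns_e D g) = gns_e D (k * g) :=
  Finsupp.mapDomain_single

theorem gns_inner_L' (k : Γ) (a b : gns_V D) : ⟪gns_L D k a, b⟫_ℂ = ⟪a, gns_L D k⁻¹ b⟫_ℂ := by
  induction a using gns_induction with
  | he g =>
    induction b using gns_induction with
    | he h => rw [gns_L_e, gns_L_e, gns_inner_e, gns_inner_e, mul_inv_rev, mul_assoc]
    | h0 => simp
    | hadd b b' hb hb' => simp only [map_add, inner_add_right, hb, hb']
    | hsmul c b hb => simp only [map_smul, inner_smul_right, hb]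
  | h0 => simp
  | hadd a a' ha ha' => simp only [map_add, inner_add_left, ha, ha']
  | hsmul c a ha => simp only [map_smul, inner_smul_left, ha]

theorem gns_L_mul (k l : Γ) (a : gns_V D) : gns_L D (k * l) a = gns_L D k (gns_L D l a) := by
  induction a using gns_induction with
  | he g => rw [gns_L_e, gns_L_e, gns_L_e, mul_assoc]
  | h0 => simp
  | hadd a a' ha ha' => simp only [map_add, ha, ha']
  | hsmul c a ha => simp only [map_smul, ha]

theorem gns_L_one (a : gns_V D) : gns_L D 1 a = a := by
  induction a using gns_induction with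
  | he g => rw [gns_L_e, one_mul]
  | h0 => simp
  | hadd a a' ha ha' => simp only [map_add, ha, ha']
  | hsmul c a ha => simp only [map_smul, ha]

theorem gns_inner_L (k : Γ) (a b : gns_V D) : ⟪gns_L D k a, gns_L D k b⟫_ℂ = ⟪a, b⟫_ℂ := by
  rw [gns_inner_L', ← gns_L_mul, inv_mul_cancel, gns_L_one]

/-- The Hilbert space. -/
abbrev gns_H := Completion (gns_V D)

/-- The representation. -/
noncomputable def gns_π (k : Γ) : gns_H D →L[ℂ] gns_H D :=
  ((gns_L D k).isometryOfInner (gns_inner_L D k)).toContinuousLinearMap.completion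

theorem gns_π_coe (k : Γ) (a : gns_V D) : gns_π D k a = (gns_L D k a : gns_V D) :=
  ContinuousLinearMap.completion_apply_coe _ _

theorem gns_π_mul (k l : Γ) : gns_π D (k * l) = gns_π D k * gns_π D l := by
  ext c
  induction c using Completion.induction_on with
  | hp => apply isClosed_eq <;> fun_prop
  | ih c => simp only [mul_apply_eq_comp, gns_π_coe, gns_L_mul]

theorem gns_π_one : gns_π D 1 = 1 := by
  ext c
  induction c using Completion.induction_on with
  | hp => apply isClosed_eq <;> fun_prop
  | ih c => simp only [one_apply_eq_self, gns_π_coe, gns_L_one]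

theorem gns_π_star (k : Γ) : star (gns_π D k) = gns_π D k⁻¹ := by
  symm
  refine (ContinuousLinearMap.eq_adjoint_iff _ _).mpr fun x y => ?_
  induction x, y using Completion.induction_on₂ with
  | hp => apply isClosed_eq <;> fun_prop
  | ih x y => simp only [gns_π_coe, Completion.inner_coe, gns_inner_L', inv_inv]

/-- The representing unitaries. -/
noncomputable def gns_U (k : Γ) : unitary (gns_H D →L[ℂ] gns_H D) :=
  ⟨gns_π D k, by
    rw [Unitary.mem_iff, gns_π_star, ← gns_π_mul, ← gns_π_mul, inv_mul_cancel, mul_inv_cancel,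
      gns_π_one]
    exact ⟨rfl, rfl⟩⟩

theorem gns_eq_zero (a : gns_H D →L[ℂ] gns_H D) (h : ∀ g, a (gns_e D g) = 0) : a = 0 := by
  ext c
  induction c using Completion.induction_on with
  | hp => apply isClosed_eq <;> fun_prop
  | ih c =>
    induction c using gns_induction with
    | he g => simpa using h g
    | h0 => simp [Completion.coe_zero]
    | hadd b b' hb hb' => simp only [Completion.coe_add, map_add, hb, hb']
    | hsmul c b hb => simp only [Completion.coe_smul, map_smul, hb]

/-- A model from a functional on an ambient C*-algebra. -/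
theorem gns_model_of {G : Type} {B : Type} [CStarAlgebra B] (v : G → unitary B) (t : B →L[ℂ] ℂ)
    (h1 : t 1 = 1) (hpos : ∀ a : B, 0 ≤ t (star a * a))
    (hc : ∀ g h, t (word v (g * h)) = t (word v (h * g)))
    (hf : ∀ a : B, (∀ g, t (star (word v g) * (star a * a * word v g)) = 0) → a = 0) :
    ∃ M : Model G, ∀ g, M.τ (word M.u g) = t (word v g) := by
  have hcomm : ∀ a ∈ gen (Set.range fun i => (v i : B)), ∀ b ∈ gen (Set.range fun i => (v i : B)),
      t (a * b) = t (b * a) := by
    intro a ha b hb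
    refine lift_gen_induction v (fun a => t (a * b) = t (b * a))
      (isClosed_eq (by fun_prop) (by fun_prop)) (fun g => ?_) (by simp)
      (fun x y hx hy => by simp only [add_mul, mul_add, map_add, hx, hy])
      (fun c x hx => by simp only [smul_mul_assoc, mul_smul_comm, map_smul, hx]) ha
    refine lift_gen_induction v (fun b => t (word v g * b) = t (b * word v g))
      (isClosed_eq (by fun_prop) (by fun_prop)) (fun h => ?_) (by simp)
      (fun x y hx hy => by simp only [add_mul, mul_add, map_add, hx, hy])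
      (fun c x hx => by simp only [smul_mul_assoc, mul_smul_comm, map_smul, hx]) hb
    simp only [← lift_word_mul, hc g h]
  let A : Type := gen (Set.range fun i => (v i : B))
  let _ : PartialOrder A := CStarAlgebra.spectralOrder A
  have _ : StarOrderedRing A := CStarAlgebra.spectralOrderedRing A
  let t₀ : A →ₗ[ℂ] ℂ := t.toLinearMap.comp
    (gen (Set.range fun i => (v i : B))).subtype.toAlgHom.toLinearMap
  have ht₀ : ∀ x : A, t₀ x = t x.1 := fun _ => rfl
  let τ : A →ₚ[ℂ] ℂ := PositiveLinearMap.mk₀ t₀ fun x hx => by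
    obtain ⟨y, rfl⟩ := CStarAlgebra.nonneg_iff_eq_star_mul_self.1 hx
    exact hpos y.1
  have hτ : ∀ x : A, τ x = t x.1 := fun _ => rfl
  have hv : ∀ i, (v i : B) ∈ gen (Set.range fun i => (v i : B)) := fun i => by
    have := lift_word_mem v (FreeGroup.of i)
    rwa [lift_word_of] at this
  let u : G → unitary A := fun i => ⟨⟨v i, hv i⟩, by
    rw [Unitary.mem_iff]
    exact ⟨Subtype.ext (Unitary.coe_star_mul_self (v i)),
      Subtype.ext (Unitary.coe_mul_star_self (v i))⟩⟩
  have hu : ∀ g, (word u g).1 = word v g :=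
    lift_word_map (gen (Set.range fun i => (v i : B))).subtype u v fun _ => rfl
  refine ⟨⟨A, τ, ⟨h1, fun a b => hcomm _ a.2 _ b.2, fun a ha => Subtype.ext (hf _ fun g => ?_)⟩,
    u, ?_⟩, fun g => (hτ _).trans (by rw [hu])⟩
  · have hw := lift_word_mem v g
    rw [hcomm _ (star_mem hw) _ (mul_mem (mul_mem (star_mem a.2) a.2) hw), mul_assoc,
      ← lift_word_inv, ← lift_word_mul, mul_inv_cancel, lift_word_one, mul_one]
    exact ha
  · refine eq_top_iff.2 fun x _ => ?_
    obtain ⟨z, hz, hzx⟩ : x.1 ∈ Subtype.val '' (gen (Set.range fun i => (u i : A)) : Set A) := by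
      refine lift_gen_induction v
        (fun y => y ∈ Subtype.val '' (gen (Set.range fun i => (u i : A)) : Set A))
        ((lift_gen_isClosed _).isClosedEmbedding_subtypeVal.isClosedMap _ (lift_gen_isClosed _))
        (fun g => ⟨word u g, lift_word_mem u g, hu g⟩) ⟨0, zero_mem _, rfl⟩ ?_ ?_ x.2
      · rintro _ _ ⟨a, ha, rfl⟩ ⟨b, hb, rfl⟩
        exact ⟨a + b, add_mem ha hb, rfl⟩
      · rintro c _ ⟨a, ha, rfl⟩
        exact ⟨c • a, SMulMemClass.smul_mem c ha, rfl⟩
    rwa [← Subtype.ext hzx]

theorem exists_model {G : Type} (χ : FreeGroup G → ℂ) (h1 : χ 1 = 1)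
    (hc : ∀ g h, χ (g * h) = χ (h * g)) (hs : ∀ g, χ g⁻¹ = star (χ g))
    (hp : ∀ (s : Finset (FreeGroup G)) (c : FreeGroup G → ℂ),
      0 ≤ ∑ g ∈ s, ∑ h ∈ s, star (c g) * c h * χ (g⁻¹ * h)) :
    ∃ M : Model G, ∀ g, M.τ (word M.u g) = χ g := by
  let D : gns_Data (FreeGroup G) := ⟨χ, hs, hp⟩
  let v : G → unitary (gns_H D →L[ℂ] gns_H D) := fun i => gns_U D (FreeGroup.of i)
  have hv : ∀ g, word v g = gns_π D g := by
    intro g
    induction g using FreeGroup.induction_on with
    | C1 => rw [lift_word_one, gns_π_one]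
    | of i => rw [lift_word_of]; rfl
    | inv_of i ih => rw [lift_word_inv, ih, gns_π_star]
    | mul g h ihg ihh => rw [lift_word_mul, ihg, ihh, gns_π_mul]
  let Ω : gns_H D := (gns_e D 1 : gns_V D)
  let t : (gns_H D →L[ℂ] gns_H D) →L[ℂ] ℂ :=
    (innerSL ℂ Ω).comp (ContinuousLinearMap.apply ℂ (gns_H D) Ω)
  have ht : ∀ a, t a = ⟪Ω, a Ω⟫_ℂ := fun _ => rfl
  have hπ : ∀ g, gns_π D g Ω = (gns_e D g : gns_V D) := fun g => by
    simp only [Ω, gns_π_coe, gns_L_e, mul_one]
  have htw : ∀ g, t (word v g) = χ g := fun g => by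
    rw [ht, hv, hπ, Completion.inner_coe, gns_inner_e, inv_one, one_mul]
  have hsq : ∀ a : gns_H D →L[ℂ] gns_H D, t (star a * a) = ⟪a Ω, a Ω⟫_ℂ := fun a => by
    rw [ht, mul_apply_eq_comp, ContinuousLinearMap.star_eq_adjoint,
      ContinuousLinearMap.adjoint_inner_right]
  obtain ⟨M, hM⟩ := gns_model_of v t (by rw [← lift_word_one v, htw, h1])
    (fun a => by
      rw [hsq, inner_self_eq_norm_sq_to_K]
      exact pow_nonneg (Complex.zero_le_real.2 (norm_nonneg (a Ω))) 2) (fun g h => by rw [htw, htw, hc])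
    (fun a ha => gns_eq_zero D a fun g => by
      have := ha g
      rw [mul_assoc, ← mul_assoc, ← star_mul, hsq, inner_self_eq_zero,
        mul_apply_eq_comp, hv, hπ] at this
      exact this)
  exact ⟨M, fun g => (hM g).trans (htw g)⟩

end Crest.Agent.R120
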