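import Mathlib

/-! The index set of the transfinite construction. -/

set_option autoImplicit false

namespace Crest.Agent.R120

open Set

/-- Codes for a sequence of elements of a countably generated subalgebra, and a sequence of
natural numbers. -/
abbrev Code : Type := (ℕ → ℕ → (FreeGroup (ℕ ⊕ ℕ) →₀ ℂ)) × (ℕ → ℕ)

/-- Well-founded countably branching trees decorated by codes. -/
inductive Idx : Type
  | leaf : ℕ → Idx
  | node : (ℕ → Idx) → Code → Idx

namespace Idx

/-- Children. -/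
def ch : Idx → Set Idx
  | leaf _ => ∅
  | node c _ => range c

instance depWf : IsWellFounded Idx (fun a b => a ∈ ch b) := ⟨⟨fun a => by
  induction a with
  | leaf j => exact ⟨_, fun b hb => absurd hb (by simp [ch])⟩
  | node c x ih => exact ⟨_, fun b ⟨i, hi⟩ => hi ▸ ih i⟩⟩⟩

noncomputable instance : LinearOrder Idx :=
  IsWellFounded.wellOrderExtension (fun a b : Idx => a ∈ ch b)

instance : WellFoundedLT Idx :=
  IsWellFounded.wellOrderExtension.isWellFounded_lt (fun a b : Idx => a ∈ ch b)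

lemma lt_of_mem_ch {a b : Idx} (h : a ∈ ch b) : a < b :=
  Prod.Lex.left _ _ (IsWellFounded.rank_lt_of_rel (r := fun a b : Idx => a ∈ ch b) h)

lemma lt_node (c : ℕ → Idx) (x : Code) (i : ℕ) : c i < node c x := lt_of_mem_ch ⟨i, rfl⟩

/-- Sets closed under passing to children. -/
def Closed (S : Set Idx) : Prop := ∀ γ ∈ S, ch γ ⊆ S

/-- Descendants. -/
def desc : Idx → Set Idx
  | leaf j => {leaf j}
  | node c x => insert (node c x) (⋃ i, desc (c i))

lemma self_mem_desc (a : Idx) : a ∈ desc a := by cases a <;> simp [desc]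

lemma desc_countable (a : Idx) : (desc a).Countable := by
  induction a with
  | leaf j => simp [desc]
  | node c x ih => exact (countable_iUnion ih).insert _

lemma desc_closed (a : Idx) : Closed (desc a) := by
  induction a with
  | leaf j => rintro _ rfl; simp [ch]
  | node c x ih =>
    rintro γ (rfl | hγ)
    · rintro _ ⟨i, rfl⟩
      exact Or.inr (mem_iUnion.2 ⟨i, self_mem_desc _⟩)
    · obtain ⟨i, hi⟩ := mem_iUnion.1 hγ
      exact fun δ hδ => Or.inr (mem_iUnion.2 ⟨i, ih i γ hi hδ⟩)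

lemma exists_closed_countable {T : Set Idx} (hT : T.Countable) :
    ∃ S, T ⊆ S ∧ S.Countable ∧ Closed S :=
  ⟨⋃ a ∈ T, desc a, fun a ha => mem_biUnion ha (self_mem_desc a),
    hT.biUnion fun a _ => desc_countable a, fun γ hγ δ hδ => by
      obtain ⟨a, ha, h⟩ := mem_iUnion₂.1 hγ
      exact mem_biUnion ha (desc_closed a γ h hδ)⟩

lemma exists_range_superset {T : Set Idx} (hT : T.Countable) : ∃ c : ℕ → Idx, T ⊆ range c := by
  obtain ⟨c, hc⟩ := (hT.insert (leaf 0)).exists_eq_range (insert_nonempty _ _)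
  exact ⟨c, hc ▸ subset_insert _ _⟩

end Idx

/-- Transfinite induction along a chain of index sets. -/
theorem chain_induction {I : Type*} [LinearOrder I] [WellFoundedLT I] (Q : Set I → Prop)
    (T₀ T₁ : Set I) (anti : ∀ T T', T₀ ⊆ T → T ⊆ T' → Q T' → Q T)
    (fin : ∀ T, (∀ F : Finset I, ↑F ⊆ T → Q (T₀ ∪ F)) → Q (T₀ ∪ T)) (h0 : Q T₀)
    (step : ∀ γ ∈ T₁, γ ∉ T₀ → Q (T₀ ∪ (T₁ ∩ Iio γ)) → Q (T₀ ∪ (T₁ ∩ Iio γ) ∪ {γ})) :
    Q (T₀ ∪ T₁) := by
  classical
  have key : ∀ T : Set I, T ⊆ T₁ → (∀ δ ∈ T, Q (T₀ ∪ (T₁ ∩ Iio δ))) → Q (T₀ ∪ T) := by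
    intro T hT ih
    refine fin T fun F hF => ?_
    rcases (F.filter (· ∉ T₀)).eq_empty_or_nonempty with h | h
    · refine anti _ _ subset_union_left (union_subset subset_rfl fun x hx => ?_) h0
      by_contra hx0
      have : x ∈ F.filter (· ∉ T₀) := Finset.mem_filter.2 ⟨hx, hx0⟩
      rw [h] at this; simp at this
    · obtain ⟨hδF, hδ0⟩ := Finset.mem_filter.1 (Finset.max'_mem _ h)
      refine anti _ _ subset_union_left (union_subset (fun x hx => Or.inl (Or.inl hx))
        fun x hx => ?_) (step _ (hT (hF hδF)) hδ0 (ih _ (hF hδF)))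
      by_cases hx0 : x ∈ T₀
      · exact Or.inl (Or.inl hx0)
      · have hxF : x ∈ F.filter (· ∉ T₀) := Finset.mem_filter.2 ⟨hx, hx0⟩
        rcases (Finset.le_max' _ x hxF).eq_or_lt with h1 | h1
        · exact Or.inr h1
        · exact Or.inl (Or.inr ⟨hT (hF hx), h1⟩)
  have all : ∀ γ, Q (T₀ ∪ (T₁ ∩ Iio γ)) := fun γ => by
    induction γ using WellFoundedLT.induction with
    | ind γ ih => exact key _ inter_subset_left fun δ hδ => ih δ hδ.2
  exact key _ subset_rfl fun δ _ => all δ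

end Crest.Agent.R120
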