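import Crest.Agent.R120.Defs

/-! The `L²` seminorm of a positive functional, and the norm detection lemma. -/

set_option autoImplicit false

namespace Crest.Agent.R120

open scoped ComplexOrder InnerProductSpace
open Filter Topology

variable {A : Type*} [CStarAlgebra A] [PartialOrder A] [StarOrderedRing A] (τ : A →ₚ[ℂ] ℂ)

/-- `L²` seminorm. -/
noncomputable def n2 (a : A) : ℝ := ‖τ.toPreGNS a‖

lemma n2_nonneg (a : A) : 0 ≤ n2 τ a := norm_nonneg _

lemma n2_zero : n2 τ 0 = 0 := by simp [n2]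

lemma n2_add_le (a b : A) : n2 τ (a + b) ≤ n2 τ a + n2 τ b := by
  simp only [n2, map_add]; exact norm_add_le _ _

lemma n2_sub_le (a b : A) : n2 τ (a - b) ≤ n2 τ a + n2 τ b := by
  simp only [n2, map_sub]; exact norm_sub_le _ _

lemma n2_smul (c : ℂ) (a : A) : n2 τ (c • a) = ‖c‖ * n2 τ a := by
  simp only [n2, map_smul, norm_smul]

lemma n2_neg (a : A) : n2 τ (-a) = n2 τ a := by
  simp only [n2, map_neg, norm_neg]

lemma inner_toPreGNS (a b : A) : ⟪τ.toPreGNS a, τ.toPreGNS b⟫_ℂ = τ (star a * b) := rfl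

lemma norm_tr_le (a b : A) : ‖τ (star a * b)‖ ≤ n2 τ a * n2 τ b := by
  rw [← inner_toPreGNS]; exact norm_inner_le_norm _ _

lemma n2_sq (a : A) : ((n2 τ a : ℝ) : ℂ) ^ 2 = τ (star a * a) := by
  simpa [n2] using τ.preGNS_norm_sq (τ.toPreGNS a)

lemma n2_sq_re (a : A) : n2 τ a ^ 2 = (τ (star a * a)).re := by
  rw [← n2_sq]; norm_cast

lemma n2_sq_norm (a : A) : n2 τ a ^ 2 = ‖τ (star a * a)‖ := by
  rw [← n2_sq]; simp

lemma n2_mul_le (a b : A) : n2 τ (a * b) ≤ ‖a‖ * n2 τ b := by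
  have h := (τ.leftMulMapPreGNS a).le_of_opNorm_le
    (LinearMap.mkContinuous_norm_le _ (norm_nonneg a) _) (τ.toPreGNS b)
  simpa [n2] using h

lemma n2_le_of_orth {v w : A} (h : τ (star v * w) = 0) : n2 τ w ≤ n2 τ (v + w) := by
  have h1 : ⟪τ.toPreGNS v, τ.toPreGNS w⟫_ℂ = 0 := h
  have h2 := norm_add_sq_eq_norm_sq_add_norm_sq_of_inner_eq_zero _ _ h1
  simp only [n2, map_add]
  nlinarith [norm_nonneg (τ.toPreGNS v), norm_nonneg (τ.toPreGNS w),
    norm_nonneg (τ.toPreGNS v + τ.toPreGNS w)]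

lemma tr_continuous : Continuous τ := map_continuous τ

variable {τ}

lemma n2_one (h : τ 1 = 1) : n2 τ 1 = 1 := by
  have := n2_sq_re τ 1
  simp only [star_one, mul_one, h, Complex.one_re] at this
  nlinarith [n2_nonneg τ 1]

lemma n2_le_norm (h : τ 1 = 1) (a : A) : n2 τ a ≤ ‖a‖ := by
  simpa [n2_one h] using n2_mul_le τ a 1

lemma norm_tr_le_n2 (h : τ 1 = 1) (a : A) : ‖τ a‖ ≤ n2 τ a := by
  simpa [n2_one h] using norm_tr_le τ 1 a

lemma norm_tr_le_norm (h : τ 1 = 1) (a : A) : ‖τ a‖ ≤ ‖a‖ :=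
  (norm_tr_le_n2 h a).trans (n2_le_norm h a)

lemma n2_continuous (h : τ 1 = 1) : Continuous (n2 τ) := by
  refine LipschitzWith.continuous (K := 1) (LipschitzWith.of_dist_le_mul fun a b => ?_)
  rw [Real.dist_eq, dist_eq_norm, NNReal.coe_one, one_mul]
  refine le_trans ?_ (n2_le_norm h (a - b))
  simp only [n2, map_sub]
  exact abs_norm_sub_norm_le _ _

lemma IsFT.n2_star (h : IsFT τ) (a : A) : n2 τ (star a) = n2 τ a := by
  have h1 := n2_sq_re τ (star a)
  have h2 := n2_sq_re τ a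
  rw [star_star, h.comm, ← h2] at h1
  exact (pow_left_inj₀ (n2_nonneg _ _) (n2_nonneg _ _) two_ne_zero).1 h1

lemma IsFT.n2_mul_le' (h : IsFT τ) (a b : A) : n2 τ (a * b) ≤ n2 τ a * ‖b‖ := by
  rw [← h.n2_star, star_mul, ← h.n2_star a, mul_comm, ← norm_star b]
  exact n2_mul_le τ _ _

lemma IsFT.eq_zero_of_n2 (h : IsFT τ) {a : A} (ha : n2 τ a = 0) : a = 0 := by
  apply h.faithful
  rw [← n2_sq, ha]; simp

lemma IsFT.n2_pos (h : IsFT τ) {a : A} (ha : a ≠ 0) : 0 < n2 τ a :=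
  lt_of_le_of_ne (n2_nonneg _ _) fun h0 => ha (h.eq_zero_of_n2 h0.symm)

/-- For a projection `q`, `n2 q ^ 2 = ‖τ q‖`. -/
lemma n2_sq_proj {q : A} (hq : IsStarProjection q) : n2 τ q ^ 2 = ‖τ q‖ := by
  rw [n2_sq_norm, hq.isSelfAdjoint.star_eq, hq.isIdempotentElem.eq]

/-- Norm detection: the operator norm is detected on `L²` of any closed subalgebra. -/
lemma norm_le_of_n2 (hf : ∀ a : A, τ (star a * a) = 0 → a = 0) (C : StarSubalgebra ℂ A)
    (hC : IsClosed (C : Set A)) {a : A} (ha : a ∈ C) {K : ℝ} (hK : 0 ≤ K)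
    (h : ∀ ζ ∈ C, n2 τ (a * ζ) ≤ K * n2 τ ζ) : ‖a‖ ≤ K := by
  by_contra hlt
  push Not at hlt
  have hnt : Nontrivial A := by
    refine nontrivial_of_ne a 0 ?_
    rintro rfl
    simp at hlt; linarith
  set b := star a * a with hb
  have hb0 : 0 ≤ b := star_mul_self_nonneg a
  have hbn : ‖b‖ = ‖a‖ * ‖a‖ := CStarRing.norm_star_mul_self
  have hbsa : IsSelfAdjoint b := .of_nonneg hb0
  have hlt2 : K * K < ‖b‖ := by rw [hbn]; nlinarith
  set s := (K * K + ‖b‖) / 2 with hs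
  have hs1 : K * K < s := by rw [hs]; linarith
  have hs2 : s < ‖b‖ := by rw [hs]; linarith
  let f : ℝ → ℝ := fun t => max (t - s) 0
  have hfc : Continuous f := by fun_prop
  set ζ := cfc f b with hζ
  have hζC : ζ ∈ C := cfc_mem (s := C) (hs := hC) f (mul_mem (star_mem ha) ha)
  have hζsa : IsSelfAdjoint ζ := cfc_predicate f b
  have hζ0 : ζ ≠ 0 := by
    intro h0
    have h1 : ‖b‖ ∈ spectrum ℝ b := CStarAlgebra.norm_mem_spectrum_of_nonneg hb0
    have h2 : f ‖b‖ ∈ spectrum ℝ ζ := by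
      rw [hζ, cfc_map_spectrum f b]; exact ⟨_, h1, rfl⟩
    rw [h0, spectrum.zero_eq] at h2
    simp only [Set.mem_singleton_iff, f] at h2
    have : ‖b‖ - s ≤ 0 := h2 ▸ le_max_left _ _
    linarith
  have hle : s • (star ζ * ζ) ≤ star (a * ζ) * (a * ζ) := by
    have e1 : star (a * ζ) * (a * ζ) = cfc (fun t => f t * t * f t) b := by
      rw [cfc_mul _ _ b, cfc_mul _ _ b, cfc_id' ℝ b, star_mul, hζsa.star_eq, ← hζ, hb]
      simp only [mul_assoc]
    have e2 : s • (star ζ * ζ) = cfc (fun t => s • (f t * f t)) b := by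
      rw [cfc_smul s (fun t => f t * f t) b, cfc_mul _ _ b, hζsa.star_eq]
    rw [e1, e2]
    refine cfc_mono (fun t _ => ?_)
    simp only [f, smul_eq_mul]
    rcases le_total (t - s) 0 with h1 | h1
    · simp [max_eq_right h1]
    · rw [max_eq_left h1]; nlinarith [mul_nonneg h1 h1]
  have hle2 : s * n2 τ ζ ^ 2 ≤ n2 τ (a * ζ) ^ 2 := by
    have := OrderHomClass.mono τ hle
    rw [← Complex.coe_smul, map_smul, ← n2_sq, ← n2_sq, smul_eq_mul] at this
    exact_mod_cast this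
  have hpos : 0 < n2 τ ζ := by
    refine lt_of_le_of_ne (n2_nonneg _ _) fun h0 => hζ0 (hf _ ?_)
    rw [← n2_sq, ← h0]; simp
  have h3 := h ζ hζC
  have h4 : n2 τ (a * ζ) ^ 2 ≤ (K * n2 τ ζ) ^ 2 := by
    gcongr; exact n2_nonneg _ _
  nlinarith [mul_pos hpos hpos]

end Crest.Agent.R120
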