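import Crest.Agent.R120.Defs

/-! Row 120: words in unitaries, the generated C*-algebra, and the lifting lemma. -/

set_option autoImplicit false

namespace Crest.Agent.R120

open scoped ComplexOrder InnerProductSpace
open Filter Topology Crest.OpAlg

variable {G : Type*} {A B : Type*} [CStarAlgebra A] [CStarAlgebra B]

theorem lift_word_one (u : G → unitary A) : word u 1 = 1 := by simp [word]

theorem lift_word_mul (u : G → unitary A) (g h : FreeGroup G) :
    word u (g * h) = word u g * word u h := by simp [word]

theorem lift_word_inv (u : G → unitary A) (g : FreeGroup G) :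
    word u g⁻¹ = star (word u g) := by
  unfold word
  rw [map_inv, ← Unitary.star_eq_inv, Unitary.coe_star]

theorem lift_word_of (u : G → unitary A) (i : G) : word u (FreeGroup.of i) = u i := by
  simp [word]

theorem lift_word_map {F : Type*} [FunLike F A B] [MonoidHomClass F A B] [StarHomClass F A B]
    (f : F) (u : G → unitary A) (v : G → unitary B) (h : ∀ i, f (u i) = v i) (g : FreeGroup G) :
    f (word u g) = word v g := by
  induction g using FreeGroup.induction_on with
  | C1 => rw [lift_word_one, lift_word_one, map_one]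
  | of i => rw [lift_word_of, lift_word_of, h]
  | inv_of i ih => rw [lift_word_inv, lift_word_inv, map_star, ih]
  | mul g h ihg ihh => rw [lift_word_mul, lift_word_mul, map_mul, ihg, ihh]

instance lift_gen_isClosed (S : Set A) : IsClosed (gen S : Set A) :=
  StarSubalgebra.isClosed_topologicalClosure _

theorem lift_word_mem_adjoin (u : G → unitary A) (g : FreeGroup G) :
    word u g ∈ StarAlgebra.adjoin ℂ (Set.range fun i => (u i : A)) := by
  induction g using FreeGroup.induction_on with
  | C1 => rw [lift_word_one]; exact one_mem _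
  | of i => rw [lift_word_of]; exact StarAlgebra.subset_adjoin ℂ _ ⟨i, rfl⟩
  | inv_of i ih => rw [lift_word_inv]; exact star_mem ih
  | mul g h ihg ihh => rw [lift_word_mul]; exact mul_mem ihg ihh

theorem lift_word_mem (u : G → unitary A) (g : FreeGroup G) :
    word u g ∈ gen (Set.range fun i => (u i : A)) :=
  StarSubalgebra.le_topologicalClosure _ (lift_word_mem_adjoin u g)

theorem gen_range_eq_closure_span (u : G → unitary A) :
    (gen (Set.range fun i => (u i : A)) : Set A) =
      closure (Submodule.span ℂ (Set.range (word u)) : Set A) := by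
  unfold gen
  rw [StarSubalgebra.topologicalClosure_coe]
  congr 1
  refine Set.Subset.antisymm (fun x hx => ?_) fun x hx => ?_
  · have hw : ∀ g, word u g ∈ Submodule.span ℂ (Set.range (word u)) := fun g =>
      Submodule.subset_span ⟨g, rfl⟩
    induction hx using StarAlgebra.adjoin_induction with
    | mem x hx =>
      obtain ⟨i, rfl⟩ := hx
      have := hw (FreeGroup.of i)
      rw [lift_word_of] at this
      exact this
    | algebraMap r =>
      rw [Algebra.algebraMap_eq_smul_one, ← lift_word_one u]
      exact Submodule.smul_mem _ _ (hw 1)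
    | add x y _ _ hx hy => exact add_mem hx hy
    | mul x y _ _ hx hy =>
      have := Submodule.mul_mem_mul hx hy
      rw [Submodule.span_mul_span] at this
      refine Submodule.span_mono ?_ this
      rintro _ ⟨_, ⟨g, rfl⟩, _, ⟨h, rfl⟩, rfl⟩
      exact ⟨g * h, lift_word_mul u g h⟩
    | star x hx' hx =>
      clear hx'
      induction hx using Submodule.span_induction with
      | mem x hx =>
        obtain ⟨g, rfl⟩ := hx
        rw [← lift_word_inv]
        exact hw _
      | zero => simp
      | add x y _ _ hx hy => rw [star_add]; exact add_mem hx hy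
      | smul a x _ hx => rw [star_smul]; exact Submodule.smul_mem _ _ hx
  · induction hx using Submodule.span_induction with
    | mem x hx =>
      obtain ⟨g, rfl⟩ := hx
      exact lift_word_mem_adjoin u g
    | zero => exact zero_mem (StarAlgebra.adjoin ℂ _)
    | add x y _ _ hx hy => exact add_mem (S := StarSubalgebra ℂ A) hx hy
    | smul a x _ hx => exact SMulMemClass.smul_mem (S := StarSubalgebra ℂ A) a hx

/-- Induction principle for the C*-algebra generated by a family of unitaries. -/
theorem lift_gen_induction (u : G → unitary A) (p : A → Prop) (hc : IsClosed {x | p x})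
    (hw : ∀ g, p (word u g)) (h0 : p 0) (hadd : ∀ x y, p x → p y → p (x + y))
    (hsmul : ∀ (c : ℂ) x, p x → p (c • x)) {x : A}
    (hx : x ∈ gen (Set.range fun i => (u i : A))) : p x := by
  have hx' : x ∈ (gen (Set.range fun i => (u i : A)) : Set A) := hx
  rw [gen_range_eq_closure_span] at hx'
  refine closure_minimal (t := {x | p x}) (fun y hy => ?_) hc hx'
  induction hy using Submodule.span_induction with
  | mem x hx => obtain ⟨g, rfl⟩ := hx; exact hw g
  | zero => exact h0
  | add x y _ _ hx hy => exact hadd x y hx hy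
  | smul a x _ hx => exact hsmul a x hx

/-- The pair of two unitaries. -/
def lift_pair (v : unitary B) (w : unitary A) : unitary (B × A) :=
  ⟨((v : B), (w : A)), by
    rw [Unitary.mem_iff]
    constructor <;> ext <;> simp⟩

variable [PartialOrder A] [StarOrderedRing A] [PartialOrder B] [StarOrderedRing B]

theorem exists_lift (φ : B →ₚ[ℂ] ℂ) (τ : A →ₚ[ℂ] ℂ) (hτ : ∀ a : A, τ (star a * a) = 0 → a = 0)
    (v : G → unitary B) (w : G → unitary A) (hchar : ∀ g, φ (word v g) = τ (word w g)) :
    ∃ Φ : gen (Set.range fun i => (v i : B)) →⋆ₐ[ℂ] A,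
      (∀ (i : G) (h : (v i : B) ∈ gen (Set.range fun i => (v i : B))), Φ ⟨v i, h⟩ = w i) ∧
      ∀ x, τ (Φ x) = φ x := by
  let p : G → unitary (B × A) := fun i => lift_pair (v i) (w i)
  have hp1 : ∀ g, (word p g).1 = word v g := lift_word_map (StarAlgHom.fst ℂ B A) p v fun _ => rfl
  have hp2 : ∀ g, (word p g).2 = word w g := lift_word_map (StarAlgHom.snd ℂ B A) p w fun _ => rfl
  have hφ : Continuous φ := map_continuous φ
  have hτc : Continuous τ := map_continuous τ
  have hst : ∀ z ∈ gen (Set.range fun i => (p i : B × A)), τ z.2 = φ z.1 := by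
    intro z hz
    refine lift_gen_induction p (fun z => τ z.2 = φ z.1) (isClosed_eq (by fun_prop) (by fun_prop))
      (fun g => ?_) (by simp) (fun x y hx hy => by simp [hx, hy]) (fun c x hx => by simp [hx]) hz
    simp only [hp1, hp2, hchar]
  have hmem : ∀ z ∈ gen (Set.range fun i => (p i : B × A)),
      z.1 ∈ gen (Set.range fun i => (v i : B)) := by
    intro z hz
    refine lift_gen_induction p (fun z => z.1 ∈ gen (Set.range fun i => (v i : B)))
      ((lift_gen_isClosed _).preimage continuous_fst)
      (fun g => ?_) (zero_mem _) (fun x y hx hy => add_mem hx hy)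
      (fun c x hx => SMulMemClass.smul_mem c hx) hz
    simp only [hp1]
    exact lift_word_mem v g
  let f : gen (Set.range fun i => (p i : B × A)) →⋆ₐ[ℂ] B :=
    (StarAlgHom.fst ℂ B A).comp (StarSubalgebra.subtype _)
  have hfi : Function.Injective f := by
    rw [injective_iff_map_eq_zero]
    intro z hz
    have h1 : z.1.1 = 0 := hz
    have h2 := hst _ (star z * z).2
    have h3 : z.1.2 = 0 := hτ _ (by simpa [h1] using h2)
    exact Subtype.ext (Prod.ext h1 h3)
  have hcl : IsClosed (Set.range f) :=
    (NonUnitalStarAlgHom.isometry f hfi).isClosedEmbedding.isClosed_range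
  let f' : gen (Set.range fun i => (p i : B × A)) →⋆ₐ[ℂ] gen (Set.range fun i => (v i : B)) :=
    f.codRestrict _ fun z => hmem z z.2
  have hf' : Function.Bijective f' := by
    refine ⟨fun x y h => hfi (congrArg Subtype.val h), fun x => ?_⟩
    obtain ⟨z, hz⟩ : x.1 ∈ Set.range f := by
      refine lift_gen_induction v (fun x => x ∈ Set.range f) hcl
        (fun g => ⟨⟨word p g, lift_word_mem p g⟩, hp1 g⟩) ⟨0, map_zero f⟩ ?_ ?_ x.2
      · rintro _ _ ⟨a, rfl⟩ ⟨b, rfl⟩
        exact ⟨a + b, map_add f a b⟩
      · rintro c _ ⟨a, rfl⟩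
        exact ⟨c • a, map_smul f c a⟩
    exact ⟨z, Subtype.ext hz⟩
  let e := StarAlgEquiv.ofBijective f' hf'
  refine ⟨((StarAlgHom.snd ℂ B A).comp (StarSubalgebra.subtype _)).comp
    e.symm.toStarAlgHom, fun i h => ?_, fun x => ?_⟩
  · have hi : (p i : B × A) ∈ gen (Set.range fun i => (p i : B × A)) := by
      have := lift_word_mem p (FreeGroup.of i)
      rwa [lift_word_of] at this
    have : e.symm ⟨v i, h⟩ = ⟨p i, hi⟩ := by
      rw [← e.symm_apply_apply ⟨p i, hi⟩]
      rfl
    change (e.symm ⟨v i, h⟩).1.2 = _
    rw [this]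
    rfl
  · obtain ⟨z, rfl⟩ : ∃ z, e z = x := ⟨e.symm x, e.apply_symm_apply x⟩
    change τ (e.symm (e z)).1.2 = φ z.1.1
    rw [e.symm_apply_apply]
    exact hst _ z.2

theorem char_star (φ : B →ₚ[ℂ] ℂ) (v : G → unitary B) (g : FreeGroup G) :
    φ (word v g⁻¹) = star (φ (word v g)) := by
  rw [lift_word_inv, map_star]

theorem char_pos (φ : B →ₚ[ℂ] ℂ) (v : G → unitary B) (s : Finset (FreeGroup G))
    (c : FreeGroup G → ℂ) :
    0 ≤ ∑ g ∈ s, ∑ h ∈ s, star (c g) * c h * φ (word v (g⁻¹ * h)) := by
  have h := φ.map_nonneg (star_mul_self_nonneg (∑ g ∈ s, c g • word v g))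
  rw [star_sum, Finset.sum_mul_sum, map_sum] at h
  convert h using 2 with g _
  rw [map_sum]
  refine Finset.sum_congr rfl fun k _ => ?_
  rw [star_smul, smul_mul_smul_comm, map_smul, lift_word_mul, lift_word_inv, smul_eq_mul]

end Crest.Agent.R120
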