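import Crest.Agent.R120.Null

/-! The link lemma: a peak sequence linked to a peak sequence of projections inherits its peaks. -/

set_option autoImplicit false

namespace Crest.Agent.R120

open scoped ComplexOrder InnerProductSpace
open Filter Topology

variable {A : Type*} [CStarAlgebra A] [PartialOrder A] [StarOrderedRing A]

lemma norm_mul_sq_le_of_nonneg {s e : A} (hs : 0 ≤ s) (he : IsSelfAdjoint e) :
    ‖s * e‖ ^ 2 ≤ ‖s‖ * ‖e * s * e‖ := by
  set r := CFC.sqrt s with hr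
  have hr2 : r * r = s := CFC.sqrt_mul_sqrt_self s hs
  have hrsa : IsSelfAdjoint r := .of_nonneg (CFC.sqrt_nonneg s)
  have h1 : ‖r‖ * ‖r‖ = ‖s‖ := by
    rw [← CStarRing.norm_star_mul_self, hrsa.star_eq, hr2]
  have h2 : ‖r * e‖ * ‖r * e‖ = ‖e * s * e‖ := by
    rw [← CStarRing.norm_star_mul_self, star_mul, hrsa.star_eq, he.star_eq, ← hr2]
    simp only [mul_assoc]
  have h3 : ‖s * e‖ ≤ ‖r‖ * ‖r * e‖ := by
    rw [← hr2, mul_assoc]; exact norm_mul_le _ _
  calc ‖s * e‖ ^ 2 ≤ (‖r‖ * ‖r * e‖) ^ 2 := by gcongr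
    _ = _ := by rw [← h1, ← h2]; ring

omit [PartialOrder A] [StarOrderedRing A] in
lemma exists_lower_of_not_null {e f : ℕ → A} (he : Nest e) (hf : Nest f) {x : A}
    (hx : ¬ Null e f x) : ∃ c : ℝ, 0 < c ∧ (∀ n m, c ≤ ‖e n * x * f m‖) ∧
      ∀ ε : ℝ, 0 < ε → ∃ N, ‖e N * x * f N‖ < c + ε := by
  rw [null_iff he hf] at hx
  push Not at hx
  obtain ⟨c₀, hc₀, hx⟩ := hx
  have hbdd : BddBelow (Set.range fun n => ‖e n * x * f n‖) := ⟨0, by rintro _ ⟨n, rfl⟩; positivity⟩
  refine ⟨⨅ n, ‖e n * x * f n‖, lt_of_lt_of_le hc₀ (le_ciInf fun n => hx n n), fun n m => ?_,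
    fun ε hε => ?_⟩
  · exact (ciInf_le hbdd (max n m)).trans (he.norm_le₂ hf (le_max_left _ _) (le_max_right _ _) x)
  · exact exists_lt_of_ciInf_lt (lt_add_of_pos_right _ hε)

theorem peakAt_of_link {e P : ℕ → A} (he : Nest e) (hP : PSeq P) {C C' : StarSubalgebra ℂ A}
    (hCC' : C ≤ C') (heC : ∀ n, e n ∈ C) (hPC : ∀ n, P n ∈ C) (hpe : Peak e C)
    (hpP : Peak P C') {x : A} (hxC : x ∈ C) (hx : ¬ Null e P x) {y : A} (hy : y ∈ C') :
    PeakAt e y := by
  have hPn := hP.toNest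
  obtain ⟨c, hc, hlow, hup⟩ := exists_lower_of_not_null he hPn hx
  have h0 : ∀ n, e n ≠ 0 := fun n hn => hx (Null.of_left_zero he hn x)
  refine peakAt_of_approx he fun ε hε => ?_
  -- choose the tolerance
  obtain ⟨η, hη, hη1⟩ : ∃ η : ℝ, 0 < η ∧ 2 * η * ‖y‖ < ε / 3 := by
    refine ⟨ε / (6 * (‖y‖ + 1)), by positivity, ?_⟩
    have : 0 < ‖y‖ + 1 := by positivity
    rw [show 2 * (ε / (6 * (‖y‖ + 1))) * ‖y‖ = ε / 3 * (‖y‖ / (‖y‖ + 1)) by field_simp; ring]
    have h2 : ‖y‖ / (‖y‖ + 1) < 1 := (div_lt_one this).2 (by linarith)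
    nlinarith
  set δ := η ^ 2 * c ^ 2 / 2 with hδ
  have hδ0 : 0 < δ := by positivity
  set γ := c ^ 2 + δ with hγ
  have hγ0 : 0 < γ := by positivity
  obtain ⟨N, hN⟩ : ∃ N, ‖e N * x * P N‖ ^ 2 ≤ γ := by
    have hcont : ContinuousAt (fun t : ℝ => (c + t) ^ 2) 0 := by fun_prop
    have : ∀ᶠ t in 𝓝 (0 : ℝ), (c + t) ^ 2 < γ := hcont.eventually (gt_mem_nhds (by simp [hγ, hδ0]))
    obtain ⟨t, ht1, ht2⟩ := (this.filter_mono nhdsWithin_le_nhds |>.and
      (self_mem_nhdsWithin (s := Set.Ioi (0 : ℝ)))).exists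
    obtain ⟨N, hN⟩ := hup t ht2
    exact ⟨N, le_trans (by gcongr) ht1.le⟩
  set z := e N * x * P N with hz
  have hzC : z ∈ C := mul_mem (mul_mem (heC N) hxC) (hPC N)
  obtain ⟨κ, hκ⟩ := hpP (star z * y * z) (mul_mem (mul_mem (star_mem (hCC' hzC)) hy) (hCC' hzC))
  obtain ⟨m, hm1, hm2⟩ := ((hκ.norm.eventually (gt_mem_nhds (show 0 < ε / 3 * γ by positivity))).and
    (eventually_ge_atTop N)).exists
  set t := z * P m * star z with ht
  have htC : t ∈ C := mul_mem (mul_mem hzC (hPC m)) (star_mem hzC)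
  have hPm := (hP.proj m).isIdempotentElem.eq
  have hPsa := (hP.proj m).isSelfAdjoint.star_eq
  have ht2 : t = (z * P m) * star (z * P m) := by
    rw [star_mul, hPsa, ht]; simp only [mul_assoc]; rw [← mul_assoc (P m) (P m), hPm]
  have ht0 : 0 ≤ t := by rw [ht2]; exact mul_star_self_nonneg _
  have htsa : IsSelfAdjoint t := .of_nonneg ht0
  have htn : ‖t‖ ≤ γ := by
    rw [ht2, CStarRing.norm_self_mul_star]
    have := hPn.norm_mul_le' m z
    calc ‖z * P m‖ * ‖z * P m‖ ≤ ‖z‖ * ‖z‖ := by gcongr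
      _ = ‖z‖ ^ 2 := by ring
      _ ≤ γ := hN
  obtain ⟨ω, hω⟩ := hpe t htC
  have hω1 := tendsto_norm_of_null he h0 hω
  have hωlow : c ^ 2 ≤ ‖ω‖ := by
    refine ge_of_tendsto hω1 ?_
    filter_upwards [eventually_gt_atTop N] with n hn
    have e1 : e n * t * e n = (e n * x * P m) * star (e n * x * P m) := by
      have e2 : e n * (z * P m) = e n * x * P m := by
        rw [hz]; simp only [← mul_assoc]
        rw [he.mul N n hn, mul_assoc _ (P N), hP.nest' N m hm2]
      rw [← e2, star_mul (e n), (he.sa n).star_eq, ht2]; simp only [mul_assoc]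
    rw [e1, CStarRing.norm_self_mul_star, sq]
    have := hlow n m
    gcongr
  have hωup : ‖ω‖ ≤ γ := le_of_tendsto' hω1 fun n => (he.norm_conj_le he n n t).trans htn
  have hωreal : star ω = ω := by
    have h1 := Null.star he he hω
    rw [star_sub, htsa.star_eq, star_smul, star_one] at h1
    have h2 := h1.sub hω
    have h3 : Null e e ((0 : A) - (star ω - ω) • (1 : A)) := by
      convert h2 using 1; rw [sub_smul]; abel
    have h4 := tendsto_norm_of_null he h0 h3
    simp only [mul_zero, zero_mul, norm_zero] at h4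
    have := tendsto_nhds_unique h4 tendsto_const_nhds
    exact sub_eq_zero.1 (norm_eq_zero.1 this)
  set s : A := (γ : ℂ) • (1 : A) - t with hs
  have hsalg : s = algebraMap ℝ A γ - t := by
    rw [hs, Algebra.algebraMap_eq_smul_one, Complex.coe_smul]
  have hs0 : 0 ≤ s := by
    rw [hsalg, sub_nonneg]
    exact (CStarAlgebra.norm_le_iff_le_algebraMap t hγ0.le ht0).1 htn
  have hsn : ‖s‖ ≤ γ := by
    rw [CStarAlgebra.norm_le_iff_le_algebraMap s hγ0.le hs0, hsalg]
    exact sub_le_self _ ht0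
  have hsnull : Null e e (s - ((γ : ℂ) - ω) • (1 : A)) := by
    convert hω.neg using 1; rw [hs, sub_smul]; abel
  have hs1 := tendsto_norm_of_null he h0 hsnull
  have hs2 : ‖(γ : ℂ) - ω‖ ≤ γ := le_of_tendsto' hs1 fun n => (he.norm_conj_le he n n s).trans hsn
  have hs3 : ‖(γ : ℂ) - ω‖ ≤ δ := by
    obtain ⟨w, rfl⟩ : ∃ w : ℝ, ω = w := ⟨ω.re, (Complex.conj_eq_iff_re.1 hωreal).symm⟩
    rw [← Complex.ofReal_sub, Complex.norm_real, Real.norm_eq_abs] at hs2 ⊢
    rw [Complex.norm_real, Real.norm_eq_abs] at hωlow hωup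
    have hw0 : 0 ≤ w := by
      have := (abs_le.1 hs2).2; linarith
    rw [abs_of_nonneg hw0] at hωlow hωup
    rw [abs_le]; constructor <;> linarith
  have hev1 : ∀ᶠ n in atTop, ‖e n * s * e n‖ < 2 * δ :=
    hs1.eventually (gt_mem_nhds (by linarith))
  set g : ℂ := (γ : ℂ)⁻¹ with hg
  have hgn : ‖g‖ = γ⁻¹ := by rw [hg, norm_inv, Complex.norm_real, Real.norm_of_nonneg hγ0.le]
  have hgγ : g * γ = 1 := inv_mul_cancel₀ (by exact_mod_cast hγ0.ne')
  have hgstar : star g = g := by rw [hg]; simp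
  have hev2 : ∀ᶠ n in atTop, ‖g * g * κ‖ * ‖e n * (t - ω • 1) * e n‖ < ε / 3 := by
    have := hω.norm.const_mul ‖g * g * κ‖
    rw [mul_zero] at this
    exact this.eventually (gt_mem_nhds (by positivity))
  obtain ⟨n, hn1, hn2⟩ := (hev1.and hev2).exists
  refine ⟨g * g * κ * ω, n, ?_⟩
  set a := g • (s * e n) with ha
  set b := g • (t * e n) with hb
  have hab : e n = a + b := by
    rw [ha, hb, ← smul_add, ← add_mul, hs, sub_add_cancel, smul_mul_assoc, one_mul, smul_smul, hgγ,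
      one_smul]
  have han : ‖a‖ ≤ η := by
    have h1 := norm_mul_sq_le_of_nonneg hs0 (he.sa n)
    have h2 : ‖s * e n‖ ^ 2 ≤ (η * γ) ^ 2 := by
      calc ‖s * e n‖ ^ 2 ≤ γ * (2 * δ) := h1.trans (by gcongr)
        _ = η ^ 2 * γ * c ^ 2 := by rw [hδ]; ring
        _ ≤ η ^ 2 * γ * γ := by gcongr; linarith
        _ = (η * γ) ^ 2 := by ring
    have h3 : ‖s * e n‖ ≤ η * γ := (pow_le_pow_iff_left₀ (norm_nonneg _) (by positivity)
      two_ne_zero).1 h2
    rw [ha, norm_smul, hgn, inv_mul_le_iff₀ hγ0]; linarith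
  have hbn : ‖b‖ ≤ 1 := by
    rw [hb, norm_smul, hgn, inv_mul_le_iff₀ hγ0, mul_one]
    exact (he.norm_mul_le' n t).trans htn
  have hesa := (he.sa n).star_eq
  have hbyb : star b * y * b = (g * g) • (e n * (z * (P m * (star z * y * z - κ • 1) * P m) *
      star z) * e n) + (g * g * κ) • (e n * (t - ω • 1) * e n) +
      (g * g * κ * ω) • (e n * e n) := by
    rw [hb, star_smul, hgstar, star_mul, hesa, htsa.star_eq]
    have e3 : z * (P m * (star z * y * z - κ • 1) * P m) * star z = t * y * t - κ • t := by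
      rw [ht]
      simp only [mul_sub, sub_mul, mul_assoc, mul_smul_comm, smul_mul_assoc, mul_one]
      rw [← mul_assoc (P m) (P m), hPm]
    rw [e3]
    simp only [mul_sub, sub_mul, mul_assoc, mul_smul_comm, smul_mul_assoc, mul_one,
      smul_sub, smul_smul]
    module
  have hmain : e n * (y - (g * g * κ * ω) • 1) * e n =
      star a * y * e n + star b * y * a + (g * g) • (e n * (z * (P m * (star z * y * z - κ • 1) *
        P m) * star z) * e n) + (g * g * κ) • (e n * (t - ω • 1) * e n) := by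
    have e4 : e n * y * e n = star a * y * e n + star b * y * a + star b * y * b := by
      have e5 : e n = star a + star b := by rw [← star_add, ← hab, hesa]
      calc e n * y * e n = (star a + star b) * y * e n := by rw [← e5]
        _ = star a * y * e n + star b * y * (a + b) := by rw [← hab]; noncomm_ring
        _ = _ := by noncomm_ring
    rw [mul_sub, sub_mul, e4, hbyb]
    simp only [mul_smul_comm, smul_mul_assoc, mul_one]
    abel
  rw [hmain]
  have b1 : ‖star a * y * e n‖ ≤ η * ‖y‖ := by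
    refine (he.norm_mul_le' n _).trans ((norm_mul_le _ _).trans ?_)
    rw [norm_star]; gcongr
  have b2 : ‖star b * y * a‖ ≤ η * ‖y‖ := by
    calc ‖star b * y * a‖ ≤ ‖star b‖ * ‖y‖ * ‖a‖ := norm_mul₃_le
      _ ≤ 1 * ‖y‖ * η := by rw [norm_star]; gcongr
      _ = η * ‖y‖ := by ring
  have b3 : ‖(g * g) • (e n * (z * (P m * (star z * y * z - κ • 1) * P m) * star z) * e n)‖
      ≤ ε / 3 := by
    rw [norm_smul, norm_mul, hgn]
    calc γ⁻¹ * γ⁻¹ * ‖e n * (z * (P m * (star z * y * z - κ • 1) * P m) * star z) * e n‖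
        ≤ γ⁻¹ * γ⁻¹ * (‖z‖ * ‖P m * (star z * y * z - κ • 1) * P m‖ * ‖star z‖) := by
          gcongr; exact (he.norm_conj_le he n n _).trans norm_mul₃_le
      _ = γ⁻¹ * γ⁻¹ * (‖z‖ ^ 2 * ‖P m * (star z * y * z - κ • 1) * P m‖) := by
          rw [norm_star]; ring
      _ ≤ γ⁻¹ * γ⁻¹ * (γ * (ε / 3 * γ)) := by gcongr
      _ = ε / 3 := by field_simp
  have b4 : ‖(g * g * κ) • (e n * (t - ω • 1) * e n)‖ < ε / 3 := by rwa [norm_smul]
  have := norm_add_le (star a * y * e n + star b * y * a + (g * g) • (e n * (z * (P m *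
    (star z * y * z - κ • 1) * P m) * star z) * e n)) ((g * g * κ) • (e n * (t - ω • 1) * e n))
  have := norm_add₃_le (a := star a * y * e n) (b := star b * y * a) (c := (g * g) • (e n * (z *
    (P m * (star z * y * z - κ • 1) * P m) * star z) * e n))
  linarith

end Crest.Agent.R120
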