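import Crest.Agent.R120.Succ

/-! The transfinite construction, by Zorn's lemma. -/

set_option autoImplicit false
set_option linter.unusedSectionVars false

namespace Crest.Agent.R120

open scoped ComplexOrder InnerProductSpace
open Filter Topology Set

lemma word_lift {G : Type*} {A : Type*} [CStarAlgebra A] (u w : G → unitary A)
    (f : G → FreeGroup G) (h : ∀ i, word u (f i) = w i) (g : FreeGroup G) :
    word u (FreeGroup.lift f g) = word w g := by
  induction g using FreeGroup.induction_on with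
  | C1 => rw [map_one, lift_word_one, lift_word_one]
  | of i => rw [FreeGroup.lift_apply_of, lift_word_of, h]
  | inv_of i ih => rw [map_inv, lift_word_inv, lift_word_inv, ih]
  | mul g h ihg ihh => rw [map_mul, lift_word_mul, lift_word_mul, ihg, ihh]

lemma exists_lift_model {G : Type} (M M' : Model G) (w : G → unitary M'.A)
    (h : ∀ g, M.τ (word M.u g) = M'.τ (word w g)) :
    ∃ Φ : M.A →⋆ₐ[ℂ] M'.A, (∀ x, M'.τ (Φ x) = M.τ x) ∧ ∀ i, Φ (M.u i) = w i := by
  obtain ⟨Ψ, h1, h2⟩ := exists_lift M.τ M'.τ M'.ft.faithful M.u w h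
  have hm : ∀ x, x ∈ gen (range fun i => (M.u i : M.A)) := fun x => M.gen_eq ▸ trivial
  exact ⟨Ψ.comp ((StarAlgHom.id ℂ M.A).codRestrict _ hm), fun x => h2 ⟨x, hm x⟩,
    fun i => h1 i (hm _)⟩

/-- Stages of the construction. -/
structure Stage : Type 1 where
  J : Set Idx
  M : Model Gen
  lower : IsLowerSet J
  base : Base M.u M.τ
  off : ∀ α ∉ J, M.u (.inr α) = 1
  good : ∀ α ∈ J, GoodAt M.u M.τ α

/-- Extension of stages. -/
def Stage.le (s t : Stage) : Prop :=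
  s.J ⊆ t.J ∧ ∃ Φ : s.M.A →⋆ₐ[ℂ] t.M.A, (∀ x, t.M.τ (Φ x) = s.M.τ x) ∧
    ∀ i ∈ gens s.J, Φ (s.M.u i) = t.M.u i

lemma Stage.le_refl (s : Stage) : s.le s :=
  ⟨subset_rfl, StarAlgHom.id ℂ _, fun _ => rfl, fun _ _ => rfl⟩

lemma Stage.le_trans {s t r : Stage} (h : s.le t) (h' : t.le r) : s.le r := by
  obtain ⟨h1, Φ, h2, h3⟩ := h
  obtain ⟨h1', Φ', h2', h3'⟩ := h'
  refine ⟨h1.trans h1', Φ'.comp Φ, fun x => (h2' _).trans (h2 x), fun i hi => ?_⟩
  rw [StarAlgHom.comp_apply, h3 i hi, h3' i (gens_mono h1 hi)]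

lemma Stage.exists_succ (s : Stage) (hs : s.J ≠ univ) : ∃ t, s.le t ∧ ¬ t.J ⊆ s.J := by
  obtain ⟨α, hα, hmin⟩ := WellFounded.has_min wellFounded_lt s.Jᶜ (nonempty_compl.2 hs)
  have hJ : s.J = Iio α := by
    ext β
    constructor
    · intro hβ
      by_contra h
      exact hα (s.lower (not_lt.1 h) hβ)
    · intro hβ
      by_contra h
      exact hmin β h hβ
  have htop : BB s.M.u (Iio α) = ⊤ := by
    refine eq_top_iff.2 (s.M.gen_eq ▸ gen_le (isClosed_BB _ _) ?_)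
    rintro _ ⟨k | β, rfl⟩
    · exact u_mem_BB _ (inl_mem_gens _ k)
    · by_cases hβ : β ∈ s.J
      · exact u_mem_BB _ (inr_mem_gens.2 (hJ ▸ hβ))
      · simp only [s.off β hβ]; exact one_mem (BB s.M.u (Iio α))
  obtain ⟨P, hP⟩ : ∃ P, Valid s.M.u s.M.τ α P ∨
      ((∀ P', ¬ Valid s.M.u s.M.τ α P') ∧ P = finP (defR s.M.u α)) := by
    by_cases h : ∃ P, Valid s.M.u s.M.τ α P
    · exact h.imp fun _ => Or.inl
    · exact ⟨_, Or.inr ⟨fun P' h' => h ⟨P', h'⟩, rfl⟩⟩
  have hd : Data s.M.τ (BB s.M.u (Iio α)) P := by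
    rcases hP with ⟨_, _, _, _, _, _, _, hd⟩ | ⟨-, rfl⟩
    · exact hd
    · exact s.base.data_def _ _
  obtain ⟨M', Φ, h1, h2, h3, h4⟩ := exists_hnn s.M (htop ▸ hd) (.inr α) (s.off α hα)
  have hi := injective_of_tr s.M.ft h1
  have h5 : ∀ i ∈ gens (Iio α), Φ (s.M.u i) = M'.u i := fun i hi => h2 i (by
    rintro rfl; exact lt_irrefl α (inr_mem_gens.1 hi))
  refine ⟨⟨Iic α, M', isLowerSet_Iic α, base_map hi h1 (fun k => h2 _ (by simp)) s.base,
    fun β hβ => Subtype.ext ?_, fun β hβ => ?_⟩, ⟨hJ ▸ Iio_subset_Iic_self, Φ, h1, hJ ▸ h5⟩,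
    fun h => hα (h (mem_Iic.2 le_rfl))⟩
  · have hβ' : α < β := not_le.1 hβ
    rw [← h2 _ (by simpa using hβ'.ne'), s.off β (by rw [hJ]; exact not_lt.2 hβ'.le)]
    exact map_one Φ
  · rcases (mem_Iic.1 hβ).eq_or_lt with rfl | hlt
    · refine goodAt_of_hnn hi h1 h5 hP ⟨isClosed_BB _ _, (data_map hi h1 (BB_map hi h5) P).2 hd,
        (M'.u _).2, h3, h4.anti fun x hx => ?_⟩
      change x ∈ (BB M'.u (Iio β) : Set M'.A) at hx
      rw [BB_map hi h5] at hx
      obtain ⟨y, -, rfl⟩ := hx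
      exact ⟨y, rfl⟩
    · exact goodAt_map hi h1 (fun i hi => h5 i (gens_mono (Iic_subset_Iio.2 hlt) hi))
        (s.good β (hJ ▸ hlt))

lemma Stage.exists_ub (c : Set Stage) (hc : IsChain Stage.le c) (hne : c.Nonempty) :
    ∃ ub, ∀ s ∈ c, s.le ub := by
  classical
  have htot : ∀ s ∈ c, ∀ t ∈ c, s.le t ∨ t.le s := fun s hs t ht => by
    by_cases h : s = t
    · exact Or.inl (h ▸ s.le_refl)
    · exact hc hs ht h
  obtain ⟨s₀, hs₀⟩ := hne
  let J : Set Idx := ⋃ s ∈ c, s.J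
  let Stab : Stage → FreeGroup Gen → Prop := fun s g => ∀ t ∈ c, ∀ t' ∈ c, s.le t →
    ∀ Φ : t.M.A →⋆ₐ[ℂ] t'.M.A, (∀ i ∈ gens t.J, Φ (t.M.u i) = t'.M.u i) →
      Φ (word t.M.u g) = word t'.M.u g
  have smono : ∀ {s s' g}, s.le s' → Stab s g → Stab s' g := fun h h' t ht t' ht' h1 =>
    h' t ht t' ht' (Stage.le_trans h h1)
  have sone : ∀ s, Stab s 1 := fun s t _ t' _ _ Φ _ => by
    rw [lift_word_one, lift_word_one, map_one]
  have smul : ∀ {s g h}, Stab s g → Stab s h → Stab s (g * h) := fun h h' t ht t' ht' h1 Φ h2 => by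
    rw [lift_word_mul, lift_word_mul, map_mul, h t ht t' ht' h1 Φ h2, h' t ht t' ht' h1 Φ h2]
  have sinv : ∀ {s g}, Stab s g → Stab s g⁻¹ := fun h t ht t' ht' h1 Φ h2 => by
    rw [lift_word_inv, lift_word_inv, map_star, h t ht t' ht' h1 Φ h2]
  have sof : ∀ {s : Stage} {i}, i ∈ gens s.J → Stab s (FreeGroup.of i) :=
    fun h t ht t' ht' h1 Φ h2 => by rw [lift_word_of, lift_word_of, h2 _ (gens_mono h1.1 h)]
  have soff : ∀ s α, α ∉ J → Stab s (FreeGroup.of (.inr α)) :=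
    fun s α h t ht t' ht' h1 Φ h2 => by
      rw [lift_word_of, lift_word_of, t.off α fun h' => h (mem_biUnion ht h'),
        t'.off α fun h' => h (mem_biUnion ht' h')]
      exact map_one Φ
  have stwo : ∀ {g h}, (∃ s ∈ c, Stab s g) → (∃ s ∈ c, Stab s h) →
      ∃ s ∈ c, Stab s g ∧ Stab s h := by
    rintro g h ⟨s, hs, h1⟩ ⟨t, ht, h2⟩
    rcases htot s hs t ht with h3 | h3
    · exact ⟨t, ht, smono h3 h1, h2⟩
    · exact ⟨s, hs, h1, smono h3 h2⟩
  have sall : ∀ g, ∃ s ∈ c, Stab s g := by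
    intro g
    induction g using FreeGroup.induction_on with
    | C1 => exact ⟨s₀, hs₀, sone _⟩
    | of i =>
      rcases i with k | α
      · exact ⟨s₀, hs₀, sof (inl_mem_gens _ k)⟩
      · by_cases hα : α ∈ J
        · obtain ⟨s, hs, h⟩ := mem_iUnion₂.1 hα
          exact ⟨s, hs, sof (inr_mem_gens.2 h)⟩
        · exact ⟨s₀, hs₀, soff _ α hα⟩
    | inv_of i ih => exact ih.imp fun s h => ⟨h.1, sinv h.2⟩
    | mul g h ihg ihh => exact (stwo ihg ihh).imp fun s h => ⟨h.1, smul h.2.1 h.2.2⟩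
  have sfin : ∀ F : Finset (FreeGroup Gen), ∃ s ∈ c, ∀ g ∈ F, Stab s g := by
    intro F
    induction F using Finset.induction_on with
    | empty => exact ⟨s₀, hs₀, by simp⟩
    | insert g F _ ih =>
      obtain ⟨s, hs, h1⟩ := ih
      obtain ⟨t, ht, h2⟩ := sall g
      rcases htot s hs t ht with h3 | h3
      · exact ⟨t, ht, by simpa using ⟨h2, fun g hg => smono h3 (h1 g hg)⟩⟩
      · exact ⟨s, hs, by simpa using ⟨smono h3 h2, h1⟩⟩
  choose σ hσ hσ' using sall
  let χ : FreeGroup Gen → ℂ := fun g => (σ g).M.τ (word (σ g).M.u g)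
  have hχ : ∀ {g t}, t ∈ c → Stab t g → χ g = t.M.τ (word t.M.u g) := by
    intro g t ht h
    rcases htot _ (hσ g) t ht with ⟨-, Φ, h1, h2⟩ | ⟨-, Φ, h1, h2⟩
    · rw [← hσ' g _ (hσ g) t ht (Stage.le_refl _) Φ h2, h1]
    · rw [← h1, h t ht _ (hσ g) (Stage.le_refl _) Φ h2]
  obtain ⟨M, hM⟩ := exists_model χ
    (by rw [hχ hs₀ (sone _), lift_word_one, s₀.M.ft.one])
    (fun g h => by
      obtain ⟨s, hs, h1, h2⟩ := stwo ⟨_, hσ g, hσ' g⟩ ⟨_, hσ h, hσ' h⟩
      rw [hχ hs (smul h1 h2), hχ hs (smul h2 h1), lift_word_mul, lift_word_mul, s.M.ft.comm])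
    (fun g => by rw [hχ (hσ g) (sinv (hσ' g)), char_star])
    (fun F a => by
      obtain ⟨s, hs, h1⟩ := sfin F
      convert char_pos s.M.τ s.M.u F a using 2 with g hg
      exact Finset.sum_congr rfl fun h hh => by rw [hχ hs (smul (sinv (h1 g hg)) (h1 h hh))])
  have hemb : ∀ s ∈ c, ∃ Φ : s.M.A →⋆ₐ[ℂ] M.A, (∀ x, M.τ (Φ x) = s.M.τ x) ∧
      ∀ i ∈ gens s.J, Φ (s.M.u i) = M.u i := by
    intro s hs
    let f : Gen → FreeGroup Gen := fun i => if i ∈ gens s.J then FreeGroup.of i else 1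
    have hf : ∀ g, Stab s (FreeGroup.lift f g) := by
      intro g
      induction g using FreeGroup.induction_on with
      | C1 => rw [map_one]; exact sone _
      | of i =>
        rw [FreeGroup.lift_apply_of]
        by_cases hi : i ∈ gens s.J
        · simp only [f, if_pos hi]; exact sof hi
        · simp only [f, if_neg hi]; exact sone _
      | inv_of i ih => rw [map_inv]; exact sinv ih
      | mul g h ihg ihh => rw [map_mul]; exact smul ihg ihh
    obtain ⟨Φ, h1, h2⟩ := exists_lift_model s.M M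
      (fun i => if i ∈ gens s.J then M.u i else 1) fun g => by
        rw [← word_lift M.u _ f ?_ g, hM, hχ hs (hf g), word_lift s.M.u s.M.u f ?_ g]
        · intro i
          by_cases hi : i ∈ gens s.J
          · simp only [f, if_pos hi, lift_word_of]
          · simp only [f, if_neg hi, lift_word_one]
            rcases i with k | α
            · exact absurd (inl_mem_gens _ k) hi
            · rw [s.off α fun h => hi (inr_mem_gens.2 h)]; rfl
        · intro i
          by_cases hi : i ∈ gens s.J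
          · simp only [f, if_pos hi, lift_word_of]
          · simp only [f, if_neg hi, lift_word_one]; rfl
    exact ⟨Φ, h1, fun i hi => by rw [h2, if_pos hi]⟩
  refine ⟨⟨J, M, isLowerSet_iUnion₂ fun s _ => s.lower, ?_, fun α hα => ?_, fun α hα => ?_⟩,
    fun s hs => ⟨subset_biUnion_of_mem (u := fun s : Stage => s.J) hs, hemb s hs⟩⟩
  · obtain ⟨Φ, h1, h2⟩ := hemb s₀ hs₀
    exact base_map (injective_of_tr s₀.M.ft h1) h1 (fun k => h2 _ (inl_mem_gens _ k)) s₀.base
  · have h1 : M.τ (M.u (.inr α)) = 1 := by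
      rw [← lift_word_of M.u, hM, hχ hs₀ (soff _ α hα), lift_word_of,
        s₀.off α fun h => hα (mem_biUnion hs₀ h)]
      exact s₀.M.ft.one
    refine Subtype.ext (sub_eq_zero.1 (M.ft.faithful _ ?_))
    rw [star_sub, sub_mul, mul_sub, mul_sub, Unitary.coe_star_mul_self]
    simp [map_sub, map_star, h1, M.ft.one]
  · obtain ⟨s, hs, h⟩ := mem_iUnion₂.1 hα
    obtain ⟨Φ, h1, h2⟩ := hemb s hs
    exact goodAt_map (injective_of_tr s.M.ft h1) h1
      (fun i hi => h2 i (gens_mono (fun β hβ => s.lower hβ h) hi)) (s.good α h)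

/-- The final algebra. -/
theorem exists_good_model : ∃ M : Model Gen, Base M.u M.τ ∧ ∀ α, GoodAt M.u M.τ α := by
  obtain ⟨M₀, h1, h2⟩ := exists_base
  have : Nonempty Stage := ⟨⟨∅, M₀, isLowerSet_empty, h1, fun α _ => h2 α, by simp⟩⟩
  obtain ⟨s, hs⟩ := exists_maximal_of_nonempty_chains_bounded Stage.exists_ub Stage.le_trans
  by_cases h : s.J = univ
  · exact ⟨s.M, s.base, fun α => s.good α (h ▸ trivial)⟩
  · obtain ⟨t, h1, h2⟩ := s.exists_succ h
    exact absurd (hs t h1).1 h2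

end Crest.Agent.R120
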