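import Crest.Agent.R120.Refl
import Crest.Agent.R120.Stage

/-! The final algebra is simple and has a unique irreducible representation. -/

set_option autoImplicit false
set_option linter.unusedSectionVars false

namespace Crest.Agent.R120

open scoped ComplexOrder InnerProductSpace
open Filter Topology Set Crest.OpAlg

variable {A : Type*} [CStarAlgebra A] [PartialOrder A] [StarOrderedRing A]
variable {u : Gen → unitary A} {τ : A →ₚ[ℂ] ℂ} {PP : Idx → Bool → ℕ → A}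

lemma Good.haar (h : Good u τ PP) {T : Set Idx} (hT : T.Countable) :
    ∃ γ, T ⊆ Iio γ ∧ HNN τ (BB u (Iio γ)) (u (.inr γ)) haarP := by
  obtain ⟨c, hc⟩ := Idx.exists_range_superset hT
  refine ⟨.node c (0, 0), hc.trans (range_subset_iff.2 fun i => Idx.lt_node c _ i), ?_⟩
  rcases h.alt (.node c (0, 0)) with ⟨c', y, k, h1, h2, -⟩ | ⟨-, h1⟩
  · obtain ⟨-, -, rfl⟩ : c = c' ∧ 0 = y ∧ 0 = k := by simpa using h1
    exact absurd (h2 zero_lt_one) (lt_irrefl _)
  · have := h.hnn (.node c (0, 0))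
    rwa [h1] at this

lemma Good.simple (h : Good u τ PP) (htop : BB u univ = ⊤) (I : TwoSidedIdeal A) :
    I = ⊥ ∨ I = ⊤ := by
  by_cases hI : ∃ x ∈ I, x ≠ 0
  swap
  · push Not at hI
    exact Or.inl (eq_bot_iff.2 fun x hx => (TwoSidedIdeal.mem_bot _).2 (hI x hx))
  obtain ⟨x, hx, hx0⟩ := hI
  obtain ⟨T, hT, hxT⟩ := exists_countable_BB htop (countable_singleton x)
  obtain ⟨γ, h1, h2⟩ := h.haar hT
  obtain ⟨k, hk⟩ := h2.exists_mem_ideal h.ft h.base.pseq (rho_mem_BB u _) h.base.tnull I hx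
    (BB_mono u h1 (hxT rfl)) hx0
  right
  rw [← TwoSidedIdeal.one_mem_iff, ← h.base.pseq.zero]
  induction k with
  | zero => exact hk
  | succ k ih =>
    refine ih ?_
    rcases h.alt (.leaf k) with ⟨c', y, k, h1, -⟩ | ⟨-, h1⟩
    · simp at h1
    have h3 := (h.hnn (.leaf k)).conj 1
    rw [h1] at h3
    change _ * rho u (k + 1) = (rho u k - rho u (k + 1)) * _ at h3
    have h4 := I.mul_mem_right _ (star (u (.inr (.leaf k)) : A))
      (I.mul_mem_left (u (.inr (.leaf k)) : A) _ hk)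
    rw [h3, mul_assoc, Unitary.mul_star_self_of_mem (u _).2, mul_one] at h4
    simpa using I.add_mem h4 hk

lemma Base.not_finiteDimensional (h : Base u τ) : ¬ FiniteDimensional ℂ A := by
  intro hf
  refine Module.Finite.not_linearIndependent_of_infinite (R := ℂ) (qq (rho u))
    (linearIndependent_iff'.2 fun s g hs j hj => ?_)
  have h1 := congrArg (fun x => τ (qq (rho u) j * x)) hs
  simp only [Finset.mul_sum, mul_zero, map_zero] at h1
  rw [Finset.sum_eq_single j (fun i _ hij => by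
    rw [mul_smul_comm, h.pseq.qq_mul_qq hij.symm, smul_zero]) (fun h => absurd hj h),
    mul_smul_comm, (h.pseq.qq_proj j).isIdempotentElem.eq, map_smul, qq, map_sub, h.tr, h.tr,
    smul_eq_mul, mul_eq_zero] at h1
  refine h1.resolve_right ?_
  rw [pow_succ, ← mul_one_sub]
  exact mul_ne_zero (pow_ne_zero _ (by norm_num)) (by norm_num)

variable {H : Type*} [NormedAddCommGroup H] [InnerProductSpace ℂ H] [CompleteSpace H]
  {π : A →⋆ₙₐ[ℂ] (H →L[ℂ] H)}

lemma peak_val (hπ : IsIrreducibleRep π) {ξ : H} (hξ : ‖ξ‖ = 1) {e : ℕ → A} (he : Nest e)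
    (hf : ∀ n, π (e n) ξ = ξ) {x : A} {c : ℂ} (h : Null e e (x - c • 1)) : ⟪ξ, π x ξ⟫_ℂ = c := by
  have h1 : ∀ n, ‖⟪ξ, π x ξ⟫_ℂ - c‖ ≤ ‖e n * (x - c • 1) * e n‖ := fun n => by
    have e1 : ⟪ξ, π x ξ⟫_ℂ - c = ⟪ξ, π (e n * (x - c • 1) * e n) ξ⟫_ℂ := by
      conv_rhs => enter [3, 1, 2, 1, 1]; rw [← (he.sa n).star_eq]
      rw [rep_mul_apply, rep_mul_apply, hf, rep_inner_star, hf, map_sub, map_smul,
        irred_map_one π hπ]
      simp [inner_self_eq_norm_sq_to_K, hξ]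
    rw [e1]
    refine (norm_inner_le_norm _ _).trans ?_
    simpa [hξ] using rep_norm_apply_le π (e n * (x - c • 1) * e n) ξ
  have h2 := ge_of_tendsto' h.norm h1
  exact sub_eq_zero.1 (norm_le_zero_iff.1 h2)

lemma Good.exists_excise (h : Good u τ PP) (htop : BB u univ = ⊤) (hπ : IsIrreducibleRep π)
    {ξ : H} (hξ : ‖ξ‖ = 1) : ∃ (S : Set Idx) (e : ℕ → A), S.Countable ∧ Nest e ∧ TNull τ e ∧
      (∀ n, e n ∈ BB u S) ∧ (∀ n, π (e n) ξ = ξ) ∧ Peak e ⊤ := by
  have h1 := irred_map_one π hπ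
  let L : Ideal A :=
    { carrier := {l | π l ξ = 0}
      add_mem' := fun {a b} ha hb => by
        change π (a + b) ξ = 0
        rw [map_add, add_apply, ha, hb, add_zero]
      zero_mem' := by simp
      smul_mem' := fun a b hb => by
        change π (a * b) ξ = 0
        rw [rep_mul_apply, hb, map_zero] }
  have hLc : IsClosed (L : Set A) := isClosed_eq
    ((ContinuousLinearMap.apply ℂ H ξ).continuous.comp (map_continuous π)) continuous_const
  have hL : ∀ x, x ∈ closure (ZZ (L : Set A)) := fun x => Metric.mem_closure_iff.2 fun ε hε => by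
    obtain ⟨a, b, ha, hb, hab⟩ := irred_ker π hπ ξ hξ x ε hε
    exact ⟨_, ⟨_, a, ha, b, hb, rfl⟩, by rwa [dist_eq_norm, ← sub_sub, ← sub_sub]⟩
  have hρ : ∀ k, ∃ a b : A, ‖a‖ ≤ 2 ∧ ‖b‖ ≤ 2 ∧ 1 - a * rho u k * b ∈ L := fun k => by
    have h2 : π (rho u k) ≠ 0 := fun h0 => by
      rcases h.simple htop (TwoSidedIdeal.ker π) with h3 | h3
      · refine h.base.ne_zero k ((TwoSidedIdeal.mem_bot _).1 (h3 ▸ ?_))
        exact (TwoSidedIdeal.mem_ker π).2 h0
      · have h4 : π 1 = 0 := (TwoSidedIdeal.mem_ker π).1 (h3 ▸ trivial)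
        have h5 : ξ = 0 := by simpa [h4] using (DFunLike.congr_fun h1 ξ).symm
        simp [h5] at hξ
    obtain ⟨ζ, hζ⟩ : ∃ ζ, π (rho u k) ζ ≠ 0 := by
      by_contra h3
      push Not at h3
      exact h2 (ContinuousLinearMap.ext h3)
    obtain ⟨η, hη, hη'⟩ := exists_fixed_unit (fun _ => π (rho u k))
      (fun _ => (h.base.pseq.proj k).map π)
      (fun _ _ _ => ((h.base.pseq.proj k).map π).isIdempotentElem.eq) ζ _ (norm_pos_iff.2 hζ)
      fun _ => le_rfl
    obtain ⟨a, ha, ha'⟩ := irred_transitive π hπ η ξ hη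
    obtain ⟨b, hb, hb'⟩ := irred_transitive π hπ ξ η hξ
    refine ⟨a, b, by simpa [hξ] using ha, by simpa [hη] using hb, ?_⟩
    change π _ ξ = 0
    rw [map_sub, sub_apply, rep_mul_apply, rep_mul_apply, hb', hη' 0, ha', h1]
    simp
  choose a b ha hb hab using hρ
  obtain ⟨S, hS, hSc, Λ, hΛL, hΛ, h0, hΛS, hZ⟩ := exists_reflect htop hL
    (countable_range fun k => 1 - a k * rho u k * b k) (range_subset_iff.2 hab)
  obtain ⟨l, rfl⟩ := hΛ.exists_eq_range ⟨_, h0 ⟨0, rfl⟩⟩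
  obtain ⟨e, he, heS, heL, hl⟩ := exists_nest (isClosed_BB u S) hLc l (fun i => hΛS ⟨i, rfl⟩)
    fun i => hΛL ⟨i, rfl⟩
  have het : TNull τ e := by
    refine Metric.tendsto_atTop.2 fun ε hε => ?_
    have h2 : Tendsto (fun k => 4 * n2 τ (rho u k)) atTop (𝓝 0) := by
      simpa using h.base.tnull.const_mul 4
    obtain ⟨k, hk⟩ := (h2.eventually (gt_mem_nhds (half_pos hε))).exists
    obtain ⟨i, hi⟩ := h0 ⟨k, rfl⟩
    refine eventually_atTop.1 (((hl i).eventually (gt_mem_nhds (half_pos hε))).mono fun n hn => ?_)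
    rw [Real.dist_eq, sub_zero, abs_of_nonneg (n2_nonneg _ _)]
    have e1 : e n = l i * e n + a k * (rho u k * (b k * e n)) := by rw [hi]; noncomm_ring
    have h3 := n2_add_le τ (l i * e n) (a k * (rho u k * (b k * e n)))
    rw [← e1] at h3
    have h4 := n2_le_norm h.ft.one (l i * e n)
    have h5 : n2 τ (a k * (rho u k * (b k * e n))) ≤ 2 * (n2 τ (rho u k) * 2) :=
      (n2_mul_le τ _ _).trans (mul_le_mul (ha k) ((h.ft.n2_mul_le' _ _).trans
        (mul_le_mul_of_nonneg_left ((he.norm_mul_le' n _).trans (hb k)) (n2_nonneg _ _)))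
        (n2_nonneg _ _) zero_le_two)
    linarith
  refine ⟨S, e, hS, he, het, heS, fun n => ?_, htop ▸ h.peak_of_closed hSc he het heS fun x hx => ?_⟩
  · have h2 : π (1 - e n) ξ = 0 := heL n
    rw [map_sub, h1] at h2
    exact (sub_eq_zero.1 h2).symm
  · refine closure_minimal ?_ (isClosed_peakAt he) (hZ hx)
    rintro _ ⟨c, _, ⟨i, rfl⟩, _, ⟨j, rfl⟩, rfl⟩
    have h2 : ∀ i, Null e e (l i) := fun i => squeeze_zero_norm
      (fun n => by rw [mul_assoc]; exact he.norm_mul_le n _) (hl i)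
    refine ⟨c, ?_⟩
    convert (h2 i).add ((h2 j).star he he) using 1
    abel

theorem Good.exists_fixed (h : Good u τ PP) (htop : BB u univ = ⊤) (hπ : IsIrreducibleRep π) :
    ∃ η : H, ‖η‖ = 1 ∧ ∀ n, π (rho u n) η = η := by
  have hρ := h.base.pseq
  obtain ⟨ξ, hξ⟩ := irred_exists_unit π hπ
  have hξ0 : ξ ≠ 0 := by rintro rfl; simp at hξ
  obtain ⟨S, e, hS, he, het, heS, hf, hp⟩ := h.exists_excise htop hπ hξ
  obtain ⟨γ, h1, h2⟩ := h.haar hS
  obtain ⟨p, k, hp1, hk, hk0, htr, hpe, hep⟩ := h2.exists_proj_seq h.ft he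
    (fun n => BB_mono u h1 (heS n)) (fun n hn => hξ0 (by rw [← hf n, hn]; simp)) het hρ
    (rho_mem_BB u _) h.base.ne_zero h.base.tnull
  have hpf : ∀ n, π (p n) ξ = ξ := fun n => by
    obtain ⟨m, hm⟩ := hpe n
    rw [← hf m, ← rep_mul_apply, hm]
  have hpp : Peak p ⊤ := fun x hx => (hp x hx).imp fun c hc => null_of_dominated he hp1.toNest hep hc
  by_cases hl : ∃ x, ¬ Null (rho u) p x
  · obtain ⟨x, hx⟩ := hl
    obtain ⟨c, hc, hlow, -⟩ := exists_lower_of_not_null hρ.toNest hp1.toNest hx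
    refine exists_fixed_unit (fun n => π (rho u n)) (fun n => (hρ.proj n).map π)
      (fun n m hnm => by rw [← map_mul, hρ.nest n m hnm]) (π x ξ) c hc fun n => ?_
    obtain ⟨d, hd⟩ := hpp (star (rho u n * x) * (rho u n * x)) trivial
    have h3 := peak_val hπ hξ hp1.toNest hpf hd
    have h4 := tendsto_norm_of_null hp1.toNest (fun n hn => hξ0 (by rw [← hpf n, hn]; simp)) hd
    rw [rep_mul_apply, rep_inner_star, rep_mul_apply, inner_self_eq_norm_sq_to_K] at h3
    have h5 : c ^ 2 ≤ ‖d‖ := ge_of_tendsto' h4 fun m => by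
      have e1 : p m * (star (rho u n * x) * (rho u n * x)) * p m =
          star (rho u n * x * p m) * (rho u n * x * p m) := by
        rw [star_mul _ (p m), (hp1.proj m).isSelfAdjoint.star_eq]; simp only [mul_assoc]
      rw [e1, CStarRing.norm_star_mul_self, ← sq]
      exact pow_le_pow_left₀ hc.le (hlow n m) 2
    rw [← h3, norm_pow, RCLike.norm_ofReal, abs_norm] at h5
    exact (pow_le_pow_iff_left₀ hc.le (norm_nonneg _) two_ne_zero).1 h5
  push Not at hl
  obtain ⟨T, hT, hpT⟩ := exists_countable_BB htop (countable_range p)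
  obtain ⟨c, hc⟩ := Idx.exists_range_superset hT
  have h3 : ∀ n, ∃ y : ℕ → (FreeGroup (ℕ ⊕ ℕ) →₀ ℂ),
      Tendsto (fun j => ev u c (y j)) atTop (𝓝 (p n)) := fun n => by
    have : p n ∈ (BB u (range c) : Set A) := BB_mono u hc (hpT ⟨n, rfl⟩)
    rw [BB_range] at this
    obtain ⟨z, hz, hlim⟩ := mem_closure_iff_seq_limit.1 this
    choose y hy using hz
    exact ⟨y, by simpa only [hy] using hlim⟩
  choose y hy using h3
  have hρk : PSeq fun n => rho u (k n) :=
    ⟨fun n => hρ.proj _, by simp only [hk0, hρ.zero], fun n m hnm => hρ.nest _ _ (hk.monotone hnm)⟩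
  have hlim : Tendsto (fun n => τ (rho u (k n))) atTop (𝓝 0) := h.base.tr_lim.comp hk.tendsto_atTop
  have hv : Valid u τ (.node c (y, k)) fun ε => Bool.rec p (fun n => rho u (k n)) ε := by
    refine ⟨c, y, k, rfl, hk, hy, fun _ => rfl, fun ε => ?_, fun ε n => ?_, fun n => (htr n).symm,
      fun ε => ?_, fun ε x _ => ?_, fun x _ => (null_comp_left hρ.toNest hp1.toNest hk x).2 (hl x)⟩
    · cases ε
      · exact hp1
      · exact hρk
    · cases ε
      · exact BB_mono u (hc.trans (range_subset_iff.2 fun i => Idx.lt_node c _ i)) (hpT ⟨n, rfl⟩)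
      · exact rho_mem_BB u _ _
    · cases ε
      · simpa only [htr] using hlim
      · exact hlim
    · cases ε
      · exact hpp x trivial
      · exact (h.peak_rho x (htop ▸ trivial)).imp fun d hd =>
          (null_comp_left hρ.toNest hρk.toNest hk _).2
            ((null_comp_right hρ.toNest hρ.toNest hk _).2 hd)
  rcases h.alt (.node c (y, k)) with ⟨c', y', k', h4, -, h5, h6, -⟩ | ⟨h4, -⟩
  swap
  · exact absurd hv (h4 _)
  obtain ⟨rfl, rfl, rfl⟩ : c = c' ∧ y = y' ∧ k = k' := by simpa using h4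
  have h7 : ∀ n, (u (.inr (.node c (y, k))) : A) * p n = rho u (k n) * u (.inr (.node c (y, k))) :=
    fun n => by rw [← h6, tendsto_nhds_unique (hy n) (h5 n)]; exact (h.hnn _).conj n
  set v : A := ↑(u (.inr (.node c (y, k)))) with hv
  refine ⟨π v ξ, ?_, fun n => ?_⟩
  · have h8 : ⟪π v ξ, π v ξ⟫_ℂ = ⟪ξ, ξ⟫_ℂ := by
      rw [← rep_inner_star, ← rep_mul_apply, hv, Unitary.coe_star_mul_self, irred_map_one π hπ]
      rfl
    rw [← hξ, @norm_eq_sqrt_re_inner ℂ, h8, ← norm_eq_sqrt_re_inner]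
  · have h8 : π (rho u (k n)) (π v ξ) = π v ξ := by rw [← rep_mul_apply, ← h7, rep_mul_apply, hpf]
    rw [← h8, ← rep_mul_apply, hρ.nest' n (k n) (hk.id_le n)]

theorem main : ∃ (A : Type) (_ : CStarAlgebra A),
      ¬ FiniteDimensional ℂ A ∧
      (∀ I : TwoSidedIdeal A, IsClosed (I : Set A) → I = ⊥ ∨ I = ⊤) ∧
      (∃ τ : A →ₗ[ℂ] ℂ, Crest.OpAlg.IsFaithfulTracialState τ) ∧
      ∀ (H₁ : Type) [NormedAddCommGroup H₁] [InnerProductSpace ℂ H₁] [CompleteSpace H₁]
        (H₂ : Type) [NormedAddCommGroup H₂] [InnerProductSpace ℂ H₂] [CompleteSpace H₂]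
        (π₁ : A →⋆ₙₐ[ℂ] (H₁ →L[ℂ] H₁)) (π₂ : A →⋆ₙₐ[ℂ] (H₂ →L[ℂ] H₂)),
        Crest.OpAlg.IsIrreducibleRep π₁ → Crest.OpAlg.IsIrreducibleRep π₂ →
          Crest.OpAlg.AreUnitarilyEquivalent π₁ π₂ := by
  obtain ⟨M, hb, hg⟩ := exists_good_model
  choose PP h1 h2 using hg
  have h : Good M.u M.τ PP := ⟨M.ft, hb, h1, h2⟩
  have htop : BB M.u univ = ⊤ := by
    refine eq_top_iff.2 (M.gen_eq ▸ gen_le (isClosed_BB _ _) ?_)
    rintro _ ⟨k | β, rfl⟩
    · exact u_mem_BB _ (inl_mem_gens _ k)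
    · exact u_mem_BB _ (inr_mem_gens.2 trivial)
  refine ⟨M.A, inferInstance, hb.not_finiteDimensional, fun I _ => h.simple htop I,
    ⟨M.τ.toLinearMap, M.ft.one, fun a => ?_, M.ft.faithful, M.ft.comm⟩,
    fun H₁ _ _ _ H₂ _ _ _ π₁ π₂ hπ₁ hπ₂ => ?_⟩
  · have := Complex.nonneg_iff.1 (M.τ.map_nonneg (star_mul_self_nonneg a))
    exact ⟨this.2.symm, this.1⟩
  · obtain ⟨η₁, h3, h4⟩ := h.exists_fixed htop hπ₁
    obtain ⟨η₂, h5, h6⟩ := h.exists_fixed htop hπ₂
    refine equiv_of_vectorState π₁ π₂ hπ₁ hπ₂ η₁ η₂ h3 h5 fun x => ?_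
    obtain ⟨c, hc⟩ := h.peak_rho x (htop ▸ trivial)
    rw [peak_val hπ₁ h3 hb.pseq.toNest h4 hc, peak_val hπ₂ h5 hb.pseq.toNest h6 hc]

end Crest.Agent.R120
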