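import Crest.Agent.R120.UEP

/-! Projections interpolating a nested sequence, built from a free Haar unitary. -/

set_option autoImplicit false
set_option linter.unusedSectionVars false

namespace Crest.Agent.R120

open scoped ComplexOrder InnerProductSpace
open Filter Topology

variable {A : Type*} [CStarAlgebra A]

/-- Finite gluing data `1, r, 0, 0, …`. -/
def finP (r : Bool → A) (ε : Bool) (n : ℕ) : A := if n = 0 then 1 else if n = 1 then r ε else 0

/-- Trivial gluing data. -/
def haarP : Bool → ℕ → A := finP fun _ => 0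

lemma finP_two (r : Bool → A) (ε : Bool) : finP r ε 2 = 0 := by simp [finP]

lemma finP_pseq {r : Bool → A} {ε : Bool} (hr : IsStarProjection (r ε)) : PSeq (finP r ε) := by
  refine ⟨fun n => ?_, by simp [finP], fun n m hnm => ?_⟩
  · unfold finP; split_ifs
    · exact .one A
    · exact hr
    · exact .zero A
  · rcases n with _ | _ | n
    · simp [finP]
    · rcases m with _ | _ | m
      · omega
      · simpa [finP] using hr.isIdempotentElem.eq
      · simp [finP]
    · obtain ⟨k, rfl⟩ : ∃ k, m = k + 2 := ⟨m - 2, by omega⟩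
      simp [finP]

variable [PartialOrder A] [StarOrderedRing A] {τ : A →ₚ[ℂ] ℂ} {C : StarSubalgebra ℂ A}

lemma finP_data {r : Bool → A} (hr : ∀ ε, IsStarProjection (r ε)) (hC : ∀ ε, r ε ∈ C)
    (htr : τ (r true) = τ (r false)) : Data τ C (finP r) := by
  refine ⟨fun ε => finP_pseq (hr ε), fun ε n => ?_, fun n => ?_, fun ε => ?_,
    fun ε x _ => (Null.of_left_zero (finP_pseq (hr ε)).toNest (finP_two r ε) x).peakAt,
    fun x _ => Null.of_left_zero (finP_pseq (hr _)).toNest (finP_two r _) x⟩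
  · unfold finP; split_ifs
    · exact one_mem _
    · exact hC ε
    · exact zero_mem _
  · unfold finP; split_ifs
    · rfl
    · exact htr
    · rfl
  · refine tendsto_const_nhds.congr' ?_
    filter_upwards [eventually_ge_atTop 2] with n hn
    rw [finP, if_neg (by omega), if_neg (by omega), map_zero]

lemma cen_haar {ε : Bool} {x : A} (hx : τ x = 0) : Cen τ (haarP ε) x := by
  intro n
  unfold haarP finP; split_ifs <;> simp [hx]

lemma HNN.haar_bound (hτ : IsFT τ) {v : A} (h : HNN τ C v haarP) (ε : Bool) {x y z : A}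
    (hx : x ∈ C) (hy : y ∈ C) (hz : z ∈ C) (hz0 : τ z = 0) :
    ‖x * (sgnU v ε * z * sgnU v (!ε)) * y‖ ≤ ‖z‖ * (n2 τ x * ‖y‖ + n2 τ y * ‖x‖) := by
  have hq : ∀ (x : A) (σ : Bool) (j : ℕ),
      n2 τ (x * qq (haarP σ) j) ≤ n2 τ x * n2 τ (qq (haarP σ) j) := by
    intro x σ j
    rcases j with _ | _ | j <;> simp [qq, haarP, finP, n2_one hτ.one, n2_zero]
  have h1 := h.norm_word_le hτ (Red.cons (ε := ε) hz (.single (!ε)) fun _ => cen_haar hz0) hx hy
    (n2_nonneg τ x) (n2_nonneg τ y) (hq x ε) (by simpa only [hτ.n2_star] using hq (star y) _)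
  refine h1.trans (le_of_eq ?_)
  congr 1
  rw [mul_assoc, norm_sgnU_mul h.unit, ← norm_star, star_mul, star_sgnU, norm_sgnU_mul h.unit,
    norm_star]

lemma exists_range_proj {X s : A} (hs : IsStarProjection s) (hXs : X * s = X) {c : ℝ} (hc : 0 < c)
    (hle : c • s ≤ star X * X) : ∃ G, G * (star X * X) = s ∧
      IsStarProjection (X * G * star X) ∧ X * G * star X * X = X := by
  set T := star X * X + (1 - s) with hT
  have hm : 0 < min c 1 := lt_min hc one_pos
  have h1 : algebraMap ℝ A (min c 1) ≤ T := by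
    rw [Algebra.algebraMap_eq_smul_one, show (1 : A) = s + (1 - s) by abel, smul_add, hT]
    refine add_le_add ((smul_le_smul_of_nonneg_right (min_le_left _ _) hs.nonneg).trans hle) ?_
    simpa using smul_le_smul_of_nonneg_right (min_le_right c 1) hs.one_sub.nonneg
  obtain ⟨T', hT'⟩ := CStarAlgebra.isUnit_of_le _ h1 (isStrictlyPositive_algebraMap hm)
  have hTsa : star T = T := by
    rw [hT, star_add, star_mul, star_star, hs.one_sub.isSelfAdjoint.star_eq]
  set G : A := ↑T'⁻¹ with hG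
  have hGT : G * T = 1 := by rw [← hT', hG, Units.inv_mul]
  have hTG : T * G = 1 := by rw [← hT', hG, Units.mul_inv]
  have hGsa : star G = G := by
    have := congrArg star hTG
    rw [star_mul, hTsa, star_one] at this
    calc star G = star G * (T * G) := by rw [hTG, mul_one]
      _ = G := by rw [← mul_assoc, this, one_mul]
  have hTs : T * s = star X * X := by
    rw [hT, add_mul, hs.one_sub_mul_self, add_zero, mul_assoc, hXs]
  have h2 : G * (star X * X) = s := by rw [← hTs, ← mul_assoc, hGT, one_mul]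
  have h3 : X * G * star X * X = X := by rw [mul_assoc, mul_assoc, h2, hXs]
  refine ⟨G, h2, ⟨?_, ?_⟩, h3⟩
  · rw [IsIdempotentElem, ← mul_assoc, ← mul_assoc, h3]
  · rw [IsSelfAdjoint, star_mul, star_mul, star_star, hGsa, mul_assoc]

omit [PartialOrder A] [StarOrderedRing A] in
lemma conj_proj {v ρ : A} (hv : v ∈ unitary A) (hρ : IsStarProjection ρ) :
    IsStarProjection (v * ρ * star v) := by
  refine ⟨?_, ?_⟩
  · rw [IsIdempotentElem]
    simp only [mul_assoc]
    rw [← mul_assoc (star v), Unitary.star_mul_self_of_mem hv, one_mul, ← mul_assoc ρ,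
      hρ.isIdempotentElem.eq]
  · rw [IsSelfAdjoint, star_mul, star_mul, star_star, hρ.isSelfAdjoint.star_eq, mul_assoc]

lemma neg_norm_smul_le {m r : A} (hm : IsSelfAdjoint m) (hr : IsStarProjection r)
    (h : r * m * r = m) : -(‖m‖ • r) ≤ m := by
  have := CStarAlgebra.star_left_conjugate_le_norm_smul (a := r) (b := -m) hm.neg
  rw [hr.isSelfAdjoint.star_eq, hr.isIdempotentElem.eq, mul_neg, neg_mul, h, norm_neg] at this
  exact neg_le.1 this

/-- Lower bound on the small free projection. -/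
lemma HNN.lower_small (hτ : IsFT τ) {v : A} (h : HNN τ C v haarP) {ρ g : A}
    (hρ : IsStarProjection ρ) (hρC : ρ ∈ C) (hg : g ∈ C) :
    (n2 τ g ^ 2 - 4 * ‖g‖ ^ 2 * n2 τ ρ) • (v * ρ * star v) ≤
      star (g * (v * ρ * star v)) * (g * (v * ρ * star v)) := by
  set r := v * ρ * star v with hr
  have hrp : IsStarProjection r := conj_proj h.unit hρ
  set β : ℝ := n2 τ g ^ 2 with hβ
  set y := star g * g - β • (1 : A) with hy
  have hyC : y ∈ C := sub_mem (mul_mem (star_mem hg) hg) (by
    rw [← Complex.coe_smul]; exact SMulMemClass.smul_mem _ (one_mem C))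
  have hy0 : τ y = 0 := by
    rw [hy, map_sub, ← n2_sq, ← Complex.coe_smul, map_smul, hτ.one, hβ]; simp
  have hyn : ‖y‖ ≤ 2 * ‖g‖ ^ 2 := by
    have h1 : ‖β • (1 : A)‖ ≤ ‖g‖ ^ 2 := by
      rw [norm_smul, Real.norm_of_nonneg (by positivity)]
      calc β * ‖(1 : A)‖ ≤ β * 1 := by gcongr; exact (IsStarProjection.one A).norm_le
        _ ≤ ‖g‖ ^ 2 := by
          rw [mul_one, hβ]; have := n2_nonneg τ g; gcongr; exact n2_le_norm hτ.one g
    have h2 := norm_sub_le (star g * g) (β • (1 : A))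
    rw [CStarRing.norm_star_mul_self] at h2
    nlinarith
  have hysa : IsSelfAdjoint y :=
    (IsSelfAdjoint.star_mul_self g).sub ((IsSelfAdjoint.all β).smul (.one A))
  have hm : ‖r * y * r‖ ≤ 4 * ‖g‖ ^ 2 * n2 τ ρ := by
    have h1 := h.haar_bound hτ false hρC hρC hyC hy0
    have e : r * y * r = v * ((ρ * (sgnU v false * y * sgnU v (!false)) * ρ) * star v) := by
      simp [hr, sgnU, mul_assoc]
    rw [e, CStarRing.norm_mem_unitary_mul _ h.unit,
      CStarRing.norm_mul_mem_unitary _ (Unitary.star_mem h.unit)]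
    refine h1.trans ?_
    have := hρ.norm_le
    have := n2_nonneg τ ρ
    calc ‖y‖ * (n2 τ ρ * ‖ρ‖ + n2 τ ρ * ‖ρ‖) ≤ 2 * ‖g‖ ^ 2 * (n2 τ ρ * 1 + n2 τ ρ * 1) := by gcongr
      _ = _ := by ring
  have h2 := neg_norm_smul_le (m := r * y * r) (hysa.conjugate_self hrp.isSelfAdjoint) hrp (by
    simp only [← mul_assoc, hrp.isIdempotentElem.eq]
    rw [mul_assoc _ r r, hrp.isIdempotentElem.eq])
  have e2 : star (g * r) * (g * r) = r * y * r + β • r := by
    rw [star_mul, hrp.isSelfAdjoint.star_eq, hy]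
    simp [mul_sub, sub_mul, mul_assoc, hrp.isIdempotentElem.eq]
  rw [e2, sub_smul, sub_eq_neg_add]
  refine add_le_add_left (le_trans (neg_le_neg ?_) h2) _
  exact smul_le_smul_of_nonneg_right hm hrp.nonneg

/-- Upper bound on the complement of the small free projection. -/
lemma HNN.upper_big (hτ : IsFT τ) {v : A} (h : HNN τ C v haarP) {ρ e : A}
    (hρ : IsStarProjection ρ) (hρC : ρ ∈ C) (he : e ∈ C) (hen : ‖e‖ ≤ 1) :
    ‖e * (1 - v * ρ * star v) * e‖ ≤ 1 - n2 τ ρ ^ 2 + 4 * n2 τ e := by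
  set l : ℝ := n2 τ ρ ^ 2 with hl
  have hl1 : l ≤ 1 := by
    have h1 := (n2_le_norm hτ.one ρ).trans hρ.norm_le
    have := n2_nonneg τ ρ
    rw [hl]; nlinarith
  have hl0 : 0 ≤ l := by positivity
  set z := ρ - l • (1 : A) with hz
  have hzC : z ∈ C := sub_mem hρC (by
    rw [← Complex.coe_smul]; exact SMulMemClass.smul_mem _ (one_mem C))
  have hz0 : τ z = 0 := by
    have := n2_sq τ ρ
    rw [hρ.isSelfAdjoint.star_eq, hρ.isIdempotentElem.eq] at this
    rw [hz, map_sub, ← this, ← Complex.coe_smul, map_smul, hτ.one, hl]; simp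
  have hzn : ‖z‖ ≤ 2 := by
    have h1 : ‖l • (1 : A)‖ ≤ 1 := by
      rw [norm_smul, Real.norm_of_nonneg hl0]
      exact mul_le_one₀ hl1 (norm_nonneg _) (IsStarProjection.one A).norm_le
    have h2 := norm_sub_le ρ (l • (1 : A))
    have := hρ.norm_le
    linarith
  have h1 := h.haar_bound hτ true he he hzC hz0
  have e1 : e * (1 - v * ρ * star v) * e =
      (1 - l) • (e * e) - e * (sgnU v true * z * sgnU v (!true)) * e := by
    simp only [sgnU, hz, if_true, Bool.not_true, Bool.false_eq_true, if_false, mul_sub, sub_mul,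
      mul_smul_comm, smul_mul_assoc, mul_one, Unitary.mul_star_self_of_mem h.unit, sub_smul,
      one_smul]
    abel
  rw [e1]
  refine (norm_sub_le _ _).trans (add_le_add ?_ (h1.trans ?_))
  · rw [norm_smul, Real.norm_of_nonneg (by linarith)]
    refine mul_le_of_le_one_right (by linarith) ((norm_mul_le _ _).trans ?_)
    exact mul_le_one₀ hen (norm_nonneg _) hen
  · have := n2_nonneg τ e
    calc ‖z‖ * (n2 τ e * ‖e‖ + n2 τ e * ‖e‖) ≤ 2 * (n2 τ e * 1 + n2 τ e * 1) := by gcongr
      _ = _ := by ring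

theorem HNN.exists_proj_between (hτ : IsFT τ) {v : A} (h : HNN τ C v haarP) {e : ℕ → A}
    (he : Nest e) (heC : ∀ n, e n ∈ C) {ρ : A} (hρ : IsStarProjection ρ) (hρC : ρ ∈ C) {a b : ℕ}
    (hab : a < b) (h1 : 4 * n2 τ ρ < n2 τ (e (a + 1)) ^ 2) (h2 : 4 * n2 τ (e b) < n2 τ ρ ^ 2) :
    ∃ p, IsStarProjection p ∧ τ p = τ ρ ∧ e a * p = p ∧ p * e (b + 2) = e (b + 2) := by
  set r := v * ρ * star v with hr
  have hrp : IsStarProjection r := conj_proj h.unit hρ
  have hτr : τ r = τ ρ := by
    rw [hr, hτ.comm, ← mul_assoc, Unitary.star_mul_self_of_mem h.unit, one_mul]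
  set s := 1 - r with hs
  have hsp : IsStarProjection s := hrp.one_sub
  set g := e (b + 1) with hg
  set γ := e (a + 1) with hγ
  set f := e (b + 2) with hf
  have hgsa := (he.sa (b + 1)).star_eq
  have hγsa := (he.sa (a + 1)).star_eq
  have hssa := hsp.isSelfAdjoint.star_eq
  have hss := hsp.isIdempotentElem.eq
  have hg0sa : star (1 - g) = 1 - g := by rw [star_sub, star_one, hgsa]
  -- step 1
  have hle1 : (n2 τ ρ ^ 2 - 4 * n2 τ (e b)) • s ≤ star ((1 - g) * s) * ((1 - g) * s) := by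
    have i1 : g + g - g * g ≤ 1 := by
      have := star_mul_self_nonneg (1 - g)
      rw [hg0sa] at this
      rw [← sub_nonneg]; convert this using 1; noncomm_ring
    have i2 : g + g - g * g ≤ e b * e b := by
      have := (he.sa b).conjugate_le_conjugate i1
      have e1 : e b * g = g := he.mul' _ _ (Nat.lt_succ_self b)
      have e2 : g * e b = g := he.mul _ _ (Nat.lt_succ_self b)
      rwa [mul_one, mul_sub, mul_add, ← mul_assoc, e1, sub_mul, add_mul, mul_assoc, e2] at this
    have i3 := hsp.isSelfAdjoint.conjugate_le_conjugate i2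
    have i4 : s * (e b * e b) * s ≤ ‖e b * s * e b‖ • s := by
      have := CStarAlgebra.star_left_conjugate_le_norm_smul (a := s) (b := star (e b * s) * (e b * s))
        (.star_mul_self _)
      rw [CStarRing.norm_star_mul_self, ← CStarRing.norm_self_mul_star, star_mul, hssa,
        (he.sa b).star_eq, hss] at this
      convert this using 1
      · simp only [← mul_assoc, hss]; rw [mul_assoc _ s s, hss]
      · congr 2; simp only [mul_assoc]; rw [← mul_assoc s s, hss]
    have i5 := h.upper_big hτ hρ hρC (heC b) (he.le b)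
    have i6 := (i3.trans i4).trans (smul_le_smul_of_nonneg_right i5 hsp.nonneg)
    have e3 : star ((1 - g) * s) * ((1 - g) * s) = s - s * (g + g - g * g) * s := by
      rw [star_mul, hssa, hg0sa]
      conv_rhs => enter [1]; rw [← hss]
      noncomm_ring
    rw [e3, le_sub_comm]
    convert i6 using 1
    module
  obtain ⟨G, hG1, hG2, hG3⟩ := exists_range_proj hsp (X := (1 - g) * s)
    (by rw [mul_assoc, hss]) (by linarith) hle1
  set R := (1 - g) * s * G * star ((1 - g) * s) with hR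
  set K := 1 - R with hK
  have hKp : IsStarProjection K := hG2.one_sub
  have hKsa := hKp.isSelfAdjoint.star_eq
  have hKK := hKp.isIdempotentElem.eq
  have hτK : τ K = τ ρ := by
    rw [hK, map_sub, hR, mul_assoc, hτ.comm, mul_assoc, hG1, hs, map_sub, hτr]; ring
  have hKX : K * (1 - g) * s = 0 := by rw [mul_assoc, hK, sub_mul, one_mul, hG3, sub_self]
  have hfg : f * (1 - g) = 0 := by
    rw [mul_sub, mul_one, he.mul _ _ (Nat.lt_succ_self (b + 1)), sub_self]
  have hfK : f * K = f := by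
    rw [hK, mul_sub, mul_one, hR, ← mul_assoc, ← mul_assoc, ← mul_assoc, hfg]; simp
  have hKf : K * f = f := by
    have := congrArg star hfK
    rwa [star_mul, hKsa, (he.sa _).star_eq] at this
  -- step 2
  have hKr : K * (1 - g) * r = K * (1 - g) := by
    rw [hs, mul_sub, mul_one, sub_eq_zero] at hKX; exact hKX.symm
  have hrK : r * ((1 - g) * K) = (1 - g) * K := by
    have := congrArg star hKr
    rwa [star_mul, hrp.isSelfAdjoint.star_eq, star_mul, hKsa, hg0sa] at this
  set β := n2 τ γ ^ 2 - 4 * n2 τ ρ with hβ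
  have hβ0 : 0 < β := by rw [hβ]; linarith
  have hγg : γ * g = g := he.mul' _ _ (by omega)
  have hgγ : g * γ = g := he.mul _ _ (by omega)
  set Y := γ * K with hY
  have hYY : star Y * Y = K * (γ * γ) * K := by rw [hY, star_mul, hKsa, hγsa]; noncomm_ring
  have hYY0 : 0 ≤ star Y * Y := star_mul_self_nonneg Y
  have j1 : β • r ≤ star (γ * r) * (γ * r) := by
    refine le_trans (smul_le_smul_of_nonneg_right ?_ hrp.nonneg)
      (h.lower_small hτ hρ hρC (heC (a + 1)))
    have := he.le (a + 1)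
    have h3 := n2_nonneg τ ρ
    have h4 : ‖e (a + 1)‖ ^ 2 ≤ 1 := by have := norm_nonneg (e (a + 1)); nlinarith
    rw [hβ]; nlinarith
  have j2 : β • (K * ((1 - g) * (1 - g)) * K) ≤ (4 : ℝ) • (star Y * Y) := by
    have k1 := star_left_conjugate_le_conjugate j1 ((1 - g) * K)
    have k2 : star ((1 - g) * K) * (β • r) * ((1 - g) * K) = β • (K * ((1 - g) * (1 - g)) * K) := by
      rw [star_mul, hKsa, hg0sa, mul_smul_comm, smul_mul_assoc, hKr]; simp only [mul_assoc]
    have k3 : star ((1 - g) * K) * (star (γ * r) * (γ * r)) * ((1 - g) * K) =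
        star Y * ((1 - g) * (1 - g)) * Y := by
      have c1 : γ * (1 - g) = (1 - g) * γ := by rw [mul_sub, sub_mul, hγg, hgγ]; simp
      have e4 : γ * r * ((1 - g) * K) = (1 - g) * Y := by
        rw [mul_assoc, hrK, ← mul_assoc, c1, hY, mul_assoc]
      calc _ = star (γ * r * ((1 - g) * K)) * (γ * r * ((1 - g) * K)) := by
            rw [star_mul (γ * r)]; simp only [mul_assoc]
        _ = _ := by rw [e4, star_mul, hg0sa]; simp only [mul_assoc]
    rw [k2, k3] at k1
    refine k1.trans ((CStarAlgebra.star_left_conjugate_le_norm_smul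
      (by rw [IsSelfAdjoint, star_mul, hg0sa])).trans (smul_le_smul_of_nonneg_right ?_ hYY0))
    have k4 : ‖1 - g‖ ≤ 2 := by
      have := norm_sub_le (1 : A) g
      have := (IsStarProjection.one A).norm_le
      have := he.le (b + 1)
      linarith
    calc ‖(1 - g) * (1 - g)‖ ≤ ‖1 - g‖ * ‖1 - g‖ := norm_mul_le _ _
      _ ≤ 2 * 2 := by gcongr
      _ = 4 := by norm_num
  have j3 : K * (g * g) * K ≤ star Y * Y := by
    have k1 : g * g ≤ 1 := by
      have := CStarAlgebra.star_mul_le_algebraMap_norm_sq (a := g)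
      rw [hgsa] at this
      refine this.trans ?_
      rw [Algebra.algebraMap_eq_smul_one]
      have h4 : ‖g‖ ^ 2 ≤ 1 := by have := norm_nonneg g; have := he.le (b + 1); nlinarith
      simpa using smul_le_smul_of_nonneg_right h4 (zero_le_one (α := A))
    have k2 := star_left_conjugate_le_conjugate k1 Y
    rw [mul_one] at k2
    convert k2 using 1
    rw [hY, star_mul, hKsa, hγsa]
    simp only [← mul_assoc]
    rw [mul_assoc K γ g, hγg, mul_assoc _ g γ, hgγ]
  have j4 : K ≤ (2 : ℝ) • (K * ((1 - g) * (1 - g)) * K) + (2 : ℝ) • (K * (g * g) * K) := by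
    have k1 := star_left_conjugate_nonneg (star_mul_self_nonneg (1 - (g + g))) K
    rw [hKsa, star_sub, star_one, star_add, hgsa] at k1
    rw [← sub_nonneg]
    convert k1 using 1
    conv_lhs => enter [2]; rw [← hKK]
    simp only [two_smul]
    noncomm_ring
  have hle2 : (β / (8 + 2 * β)) • K ≤ star Y * Y := by
    have k1 : β • K ≤ (8 + 2 * β) • (star Y * Y) := by
      calc β • K ≤ β • ((2 : ℝ) • (K * ((1 - g) * (1 - g)) * K) + (2 : ℝ) • (K * (g * g) * K)) :=
            smul_le_smul_of_nonneg_left j4 hβ0.le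
        _ = (2 : ℝ) • (β • (K * ((1 - g) * (1 - g)) * K)) + (2 * β) • (K * (g * g) * K) := by module
        _ ≤ (2 : ℝ) • ((4 : ℝ) • (star Y * Y)) + (2 * β) • (star Y * Y) :=
            add_le_add (smul_le_smul_of_nonneg_left j2 (by norm_num))
              (smul_le_smul_of_nonneg_left j3 (by positivity))
        _ = _ := by module
    have k2 := smul_le_smul_of_nonneg_left k1 (show 0 ≤ (8 + 2 * β)⁻¹ by positivity)
    rwa [smul_smul, smul_smul, inv_mul_cancel₀ (by positivity), one_smul, ← div_eq_inv_mul] at k2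
  obtain ⟨G', hG1', hG2', hG3'⟩ := exists_range_proj hKp (X := Y)
    (by rw [hY, mul_assoc, hKK]) (by positivity) hle2
  refine ⟨_, hG2', ?_, ?_, ?_⟩
  · rw [mul_assoc, hτ.comm, mul_assoc, hG1', hτK]
  · rw [hY, ← mul_assoc, ← mul_assoc, ← mul_assoc, he.mul' _ _ (Nat.lt_succ_self a)]
  · have hYf : Y * f = f := by rw [hY, mul_assoc, hKf, he.mul' _ _ (by omega)]
    conv_lhs => rw [← hYf]
    rw [← mul_assoc, hG3', hYf]

theorem HNN.exists_proj_seq (hτ : IsFT τ) {v : A} (h : HNN τ C v haarP) {e ρ : ℕ → A}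
    (he : Nest e) (heC : ∀ n, e n ∈ C) (he0 : ∀ n, e n ≠ 0) (het : TNull τ e) (hρ : PSeq ρ)
    (hρC : ∀ n, ρ n ∈ C) (hρ0 : ∀ n, ρ n ≠ 0) (hρt : TNull τ ρ) :
    ∃ (p : ℕ → A) (k : ℕ → ℕ), PSeq p ∧ StrictMono k ∧ k 0 = 0 ∧ (∀ n, τ (p n) = τ (ρ (k n))) ∧
      (∀ n, ∃ m, p n * e m = e m) ∧ ∀ n, ∃ N, e n * p N = p N := by
  have step : ∀ ka : ℕ × ℕ, ∃ ka' : ℕ × ℕ, ∃ p, ka.1 < ka'.1 ∧ ka.2 < ka'.2 ∧ IsStarProjection p ∧
      τ p = τ (ρ ka'.1) ∧ e ka.2 * p = p ∧ p * e ka'.2 = e ka'.2 := by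
    rintro ⟨k, a⟩
    have h1 : Tendsto (fun k => 4 * n2 τ (ρ k)) atTop (𝓝 0) := by simpa using hρt.const_mul 4
    have h2 : Tendsto (fun k => 4 * n2 τ (e k)) atTop (𝓝 0) := by simpa using het.const_mul 4
    obtain ⟨k', hk1, hk2⟩ := ((h1.eventually (gt_mem_nhds (pow_pos (hτ.n2_pos (he0 (a + 1))) 2))).and
      (eventually_gt_atTop k)).exists
    obtain ⟨b, hb1, hb2⟩ := ((h2.eventually (gt_mem_nhds (pow_pos (hτ.n2_pos (hρ0 k')) 2))).and
      (eventually_gt_atTop a)).exists
    obtain ⟨p, hp⟩ := h.exists_proj_between hτ he heC (hρ.proj k') (hρC k') hb2 hk1 hb1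
    exact ⟨(k', b + 2), p, hk2, by simp; omega, hp⟩
  choose F pp hF1 hF2 hpp hτp hep hpe using step
  set s : ℕ → ℕ × ℕ := fun n => F^[n] (0, 0) with hs
  have hs1 : ∀ n, s (n + 1) = F (s n) := fun n => Function.iterate_succ_apply' F n _
  set p : ℕ → A := fun n => Nat.casesOn n 1 fun m => pp (s m) with hp
  have hpe' : ∀ n, p n * e (s n).2 = e (s n).2 := by
    rintro (_ | n)
    · exact one_mul _
    · rw [hs1]; exact hpe _
  have hproj : ∀ n, IsStarProjection (p n) := by
    rintro (_ | n)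
    · exact .one A
    · exact hpp _
  have hsucc : ∀ n, p n * p (n + 1) = p (n + 1) := by
    intro n
    have h1 : e (s n).2 * p (n + 1) = p (n + 1) := hep _
    rw [← h1, ← mul_assoc, hpe']
  have hb : StrictMono fun n => (s n).2 := strictMono_nat_of_lt_succ fun n => by
    rw [hs1]; exact hF2 _
  refine ⟨p, fun n => (s n).1, ⟨hproj, rfl, fun n m hnm => ?_⟩,
    strictMono_nat_of_lt_succ fun n => by rw [hs1]; exact hF1 _, rfl, ?_, fun n => ⟨_, hpe' n⟩,
    fun n => ⟨n + 2, ?_⟩⟩
  · induction m, hnm using Nat.le_induction with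
    | base => exact (hproj n).isIdempotentElem.eq
    | succ m _ ih =>
      have h1 := congrArg star (hsucc m)
      rw [star_mul, (hproj m).isSelfAdjoint.star_eq, (hproj (m + 1)).isSelfAdjoint.star_eq] at h1
      rw [← h1, mul_assoc, ih]
  · rintro (_ | n)
    · change τ 1 = τ (ρ 0); rw [hρ.zero]
    · simp only []; rw [hs1]; exact hτp _
  · have h1 : e (s (n + 1)).2 * p (n + 2) = p (n + 2) := hep _
    rw [← h1, ← mul_assoc, he.mul' _ _ (lt_of_lt_of_le (Nat.lt_succ_self n) (hb.id_le (n + 1)))]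

omit [PartialOrder A] [StarOrderedRing A] in
lemma null_of_dominated {e p : ℕ → A} (he : Nest e) (hp : Nest p) (h : ∀ n, ∃ N, e n * p N = p N)
    {z : A} (hz : Null e e z) : Null p p z := by
  refine (null_iff hp hp z).2 fun ε hε => ?_
  obtain ⟨n, hn⟩ := (hz.norm.eventually (gt_mem_nhds hε)).exists
  obtain ⟨N, hN⟩ := h n
  have hN' : p N * e n = p N := by
    have := congrArg star hN
    rwa [star_mul, (he.sa _).star_eq, (hp.sa _).star_eq] at this
  refine ⟨N, N, lt_of_le_of_lt ?_ hn⟩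
  have : p N * z * p N = p N * (e n * z * e n) * p N := by
    conv_lhs => rw [← hN, ← mul_assoc]; enter [1, 1, 1]; rw [hN, ← hN']
    simp only [mul_assoc]
  rw [this]; exact hp.norm_conj_le hp _ _ _

theorem HNN.exists_mem_ideal (hτ : IsFT τ) {v : A} (h : HNN τ C v haarP) {ρ : ℕ → A}
    (hρ : PSeq ρ) (hρC : ∀ n, ρ n ∈ C) (hρt : TNull τ ρ) (I : TwoSidedIdeal A) {x : A}
    (hxI : x ∈ I) (hxC : x ∈ C) (hx0 : x ≠ 0) : ∃ k, ρ k ∈ I := by
  have h1 : Tendsto (fun k => 4 * ‖x‖ ^ 2 * n2 τ (ρ k)) atTop (𝓝 0) := by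
    simpa using hρt.const_mul (4 * ‖x‖ ^ 2)
  obtain ⟨k, hk⟩ := (h1.eventually (gt_mem_nhds (pow_pos (hτ.n2_pos hx0) 2))).exists
  have hr := conj_proj h.unit (hρ.proj k)
  obtain ⟨G, hG, -⟩ := exists_range_proj hr (X := x * (v * ρ k * star v))
    (by rw [mul_assoc, hr.isIdempotentElem.eq]) (by linarith)
    (h.lower_small hτ (hρ.proj k) (hρC k) hxC)
  have h2 : v * ρ k * star v ∈ I :=
    hG ▸ I.mul_mem_left _ _ (I.mul_mem_left _ _ (I.mul_mem_right _ _ hxI))
  refine ⟨k, ?_⟩
  have h3 := I.mul_mem_right _ v (I.mul_mem_left (star v) _ h2)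
  simp only [mul_assoc, Unitary.star_mul_self_of_mem h.unit, mul_one] at h3
  rwa [← mul_assoc, Unitary.star_mul_self_of_mem h.unit, one_mul] at h3

end Crest.Agent.R120
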