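import Crest.Agent.R120.Decomp

/-! Reduced words of an HNN extension, the spanning lemma and the trace property. -/

set_option autoImplicit false
set_option linter.unusedSectionVars false

namespace Crest.Agent.R120

open scoped ComplexOrder InnerProductSpace
open Filter Topology

variable {A : Type*} [CStarAlgebra A]

lemma star_sgnU (u : A) (ε : Bool) : star (sgnU u ε) = sgnU u (!ε) := by
  cases ε <;> simp [sgnU]

lemma sgnU_mul_not {u : A} (hu : u ∈ unitary A) (ε : Bool) : sgnU u ε * sgnU u (!ε) = 1 := by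
  cases ε
  · simpa [sgnU] using Unitary.star_mul_self_of_mem hu
  · simpa [sgnU] using Unitary.mul_star_self_of_mem hu

lemma sgnU_not_mul {u : A} (hu : u ∈ unitary A) (ε : Bool) : sgnU u (!ε) * sgnU u ε = 1 := by
  simpa using sgnU_mul_not hu (!ε)

lemma norm_sgnU_mul {u : A} (hu : u ∈ unitary A) (ε : Bool) (x : A) : ‖sgnU u ε * x‖ = ‖x‖ := by
  cases ε
  · exact CStarRing.norm_mem_unitary_mul x (Unitary.star_mem hu)
  · exact CStarRing.norm_mem_unitary_mul x hu

lemma subset_gen (S : Set A) : S ⊆ gen S := fun _ hx =>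
  StarSubalgebra.le_topologicalClosure _ (StarAlgebra.subset_adjoin ℂ S hx)

lemma isClosed_gen (S : Set A) : IsClosed (gen S : Set A) :=
  StarSubalgebra.isClosed_topologicalClosure _

lemma gen_le {S : Set A} {C : StarSubalgebra ℂ A} (hC : IsClosed (C : Set A)) (h : S ⊆ C) :
    gen S ≤ C :=
  StarSubalgebra.topologicalClosure_minimal (StarAlgebra.adjoin_le h) hC

lemma gen_mono {S T : Set A} (h : S ⊆ T) : gen S ≤ gen T :=
  gen_le (isClosed_gen T) (h.trans (subset_gen T))

/-- The closed subalgebra generated by `C` and `u`. -/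
noncomputable def ext (C : StarSubalgebra ℂ A) (u : A) : StarSubalgebra ℂ A :=
  gen ((C : Set A) ∪ {u})

lemma le_ext (C : StarSubalgebra ℂ A) (u : A) : C ≤ ext C u := fun _ hx =>
  subset_gen _ (Or.inl hx)

lemma mem_ext (C : StarSubalgebra ℂ A) (u : A) : u ∈ ext C u := subset_gen _ (Or.inr rfl)

lemma isClosed_ext (C : StarSubalgebra ℂ A) (u : A) : IsClosed (ext C u : Set A) := isClosed_gen _

lemma sgnU_mem {C : StarSubalgebra ℂ A} {u : A} (h : u ∈ C) (ε : Bool) : sgnU u ε ∈ C := by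
  cases ε
  · exact star_mem h
  · exact h

variable [PartialOrder A] [StarOrderedRing A]

/-- Reduced words: first sign, last sign, value. -/
inductive Red (τ : A →ₚ[ℂ] ℂ) (C : StarSubalgebra ℂ A) (u : A) (P : Bool → ℕ → A) :
    Bool → Bool → A → Prop
  | single (ε : Bool) : Red τ C u P ε ε (sgnU u ε)
  | cons {ε ε' ε'' : Bool} {x w : A} : x ∈ C → Red τ C u P ε' ε'' w →
      (ε ≠ ε' → Cen τ (P ε') x) → Red τ C u P ε ε'' (sgnU u ε * x * w)

/-- Freeness: reduced words have trace zero against `C`. -/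
def Free (τ : A →ₚ[ℂ] ℂ) (C : StarSubalgebra ℂ A) (u : A) (P : Bool → ℕ → A) : Prop :=
  ∀ ε ε' w, Red τ C u P ε ε' w → ∀ a ∈ C, ∀ b ∈ C, τ (a * w * b) = 0

/-- The algebraic part of the HNN data. -/
structure Pre (τ : A →ₚ[ℂ] ℂ) (C : StarSubalgebra ℂ A) (u : A) (P : Bool → ℕ → A) : Prop where
  closed : IsClosed (C : Set A)
  pseq : ∀ ε, PSeq (P ε)
  mem : ∀ ε n, P ε n ∈ C
  unit : u ∈ unitary A
  conj : ∀ n, u * P false n = P true n * u
  comm : ∀ a ∈ C, ∀ b ∈ C, τ (a * b) = τ (b * a)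
  dec : ∀ ε, ∀ x ∈ C, ∃ d ∈ Dsp (P ε), Cen τ (P ε) (x - d)

variable {τ : A →ₚ[ℂ] ℂ} {C : StarSubalgebra ℂ A} {u : A} {P : Bool → ℕ → A}

lemma Red.mono {C' : StarSubalgebra ℂ A} (hC : C ≤ C') {ε ε' : Bool} {w : A}
    (h : Red τ C u P ε ε' w) : Red τ C' u P ε ε' w := by
  induction h with
  | single ε => exact .single ε
  | cons hx _ hc ih => exact .cons (hC hx) ih hc

lemma Free.anti {C' : StarSubalgebra ℂ A} (hC : C ≤ C') (h : Free τ C' u P) : Free τ C u P :=
  fun ε ε' w hw a ha b hb => h ε ε' w (hw.mono hC) a (hC ha) b (hC hb)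

lemma Red.mem {C' : StarSubalgebra ℂ A} (hC : C ≤ C') (hu : u ∈ C') {ε ε' : Bool} {w : A}
    (h : Red τ C u P ε ε' w) : w ∈ C' := by
  induction h with
  | single ε => exact sgnU_mem hu ε
  | cons hx _ _ ih => exact mul_mem (mul_mem (sgnU_mem hu _) (hC hx)) ih

lemma Red.concat {ε₁ ε₂ ε₃ ε₄ : Bool} {w w' x : A} (h : Red τ C u P ε₁ ε₂ w)
    (h' : Red τ C u P ε₃ ε₄ w') (hx : x ∈ C) (hc : ε₂ ≠ ε₃ → Cen τ (P ε₃) x) :
    Red τ C u P ε₁ ε₄ (w * x * w') := by
  induction h with
  | single ε => exact .cons hx h' hc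
  | cons hy _ hcy ih =>
    have := Red.cons hy (ih hc) hcy
    simpa only [mul_assoc] using this

lemma Red.snoc_cases {σ σ' : Bool} {w : A} (h : Red τ C u P σ σ' w) :
    (σ = σ' ∧ w = sgnU u σ) ∨ ∃ σ'' w'' x, Red τ C u P σ σ'' w'' ∧ x ∈ C ∧
      (σ'' ≠ σ' → Cen τ (P σ') x) ∧ w = w'' * x * sgnU u σ' := by
  induction h with
  | single ε => exact Or.inl ⟨rfl, rfl⟩
  | @cons ε ε' ε'' x w hx _ hc ih =>
    right
    rcases ih with ⟨rfl, rfl⟩ | ⟨σ'', w'', y, hw'', hy, hcy, rfl⟩
    · exact ⟨ε, _, x, .single ε, hx, hc, rfl⟩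
    · exact ⟨σ'', _, y, .cons hx hw'' hc, hy, hcy, by simp only [mul_assoc]⟩

namespace Pre

lemma conj' (h : Pre τ C u P) (ε : Bool) (n : ℕ) :
    sgnU u ε * P (!ε) n = P ε n * sgnU u ε := by
  cases ε
  · have := congrArg star (h.conj n)
    simp only [star_mul, ((h.pseq _).proj n).isSelfAdjoint.star_eq] at this
    simpa [sgnU] using this.symm
  · simpa [sgnU] using h.conj n

lemma theta_mem (h : Pre τ C u P) (ε : Bool) {d : A} (hd : d ∈ Dsp (P (!ε))) :
    sgnU u ε * d * sgnU u (!ε) ∈ Dsp (P ε) := by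
  refine Dsp_map (ContinuousLinearMap.mulLeftRight ℂ A (sgnU u ε) (sgnU u (!ε))) (isClosed_Dsp _)
    (fun n => ?_) hd
  rw [ContinuousLinearMap.mulLeftRight_apply, h.conj', mul_assoc, sgnU_mul_not h.unit, mul_one]
  exact mem_Dsp _ n

lemma dsp_mem (h : Pre τ C u P) {ε : Bool} {d : A} (hd : d ∈ Dsp (P ε)) : d ∈ C :=
  mem_of_mem_Dsp h.closed (h.mem ε) hd

lemma cen_star (h : Pre τ C u P) {ε : Bool} {x : A} (hx : x ∈ C) (hc : Cen τ (P ε) x) :
    Cen τ (P ε) (star x) := fun n => by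
  have := congrArg star (hc n)
  rw [← map_star, star_mul, ((h.pseq ε).proj n).isSelfAdjoint.star_eq, star_zero,
    h.comm _ (star_mem hx) _ (h.mem ε n)] at this
  exact this

lemma red_star (h : Pre τ C u P) {ε ε' : Bool} {w : A} (hw : Red τ C u P ε ε' w) :
    Red τ C u P (!ε') (!ε) (star w) := by
  induction hw with
  | single ε => rw [star_sgnU]; exact .single _
  | @cons ε ε' ε'' x w hx _ hc ih =>
    rw [star_mul, star_mul, star_sgnU, ← mul_assoc]
    refine ih.concat (.single _) (star_mem hx) fun hne => ?_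
    have h1 : ε ≠ ε' := by rintro rfl; exact hne rfl
    have h2 : (!ε) = ε' := by cases ε <;> cases ε' <;> simp_all
    rw [h2]; exact h.cen_star hx (hc h1)

/-- An element of the amalgam passes through the first letter. -/
lemma dsp_mul_red (h : Pre τ C u P) {ε ε' : Bool} {w d : A} (hw : Red τ C u P ε ε' w)
    (hd : d ∈ Dsp (P ε)) : ∃ w' c, Red τ C u P ε ε' w' ∧ c ∈ C ∧ d * w = w' * c := by
  have hd' : sgnU u (!ε) * d * sgnU u ε ∈ Dsp (P (!ε)) := by
    simpa using h.theta_mem (!ε) (d := d) (by simpa using hd)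
  have e : d * sgnU u ε = sgnU u ε * (sgnU u (!ε) * d * sgnU u ε) := by
    rw [← mul_assoc, ← mul_assoc, sgnU_mul_not h.unit, one_mul]
  cases hw with
  | single => exact ⟨_, _, .single _, h.dsp_mem hd', e⟩
  | @cons _ ε₂ _ x w hx hw hc =>
    refine ⟨_, 1, .cons (mul_mem (h.dsp_mem hd') hx) hw fun hne => ?_, one_mem _, ?_⟩
    · have h2 : (!ε) = ε₂ := by cases ε <;> cases ε₂ <;> simp_all
      exact (hc hne).mul_left (h.pseq _) (h2 ▸ hd')
    · rw [← mul_assoc, ← mul_assoc, e]; simp only [mul_assoc, mul_one]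

end Pre

/-- Generators of the algebraic HNN extension. -/
def Wd (τ : A →ₚ[ℂ] ℂ) (C : StarSubalgebra ℂ A) (u : A) (P : Bool → ℕ → A) : Set A :=
  {z | z ∈ C ∨ ∃ ε ε' w a b, Red τ C u P ε ε' w ∧ a ∈ C ∧ b ∈ C ∧ z = a * w * b}

/-- The algebraic HNN extension as a linear span. -/
noncomputable def SS (τ : A →ₚ[ℂ] ℂ) (C : StarSubalgebra ℂ A) (u : A) (P : Bool → ℕ → A) : Submodule ℂ A :=
  Submodule.span ℂ (Wd τ C u P)

lemma mem_SS_of_mem {z : A} (hz : z ∈ C) : z ∈ SS τ C u P := Submodule.subset_span (Or.inl hz)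

lemma mem_SS_word {ε ε' : Bool} {w a b : A} (hw : Red τ C u P ε ε' w) (ha : a ∈ C) (hb : b ∈ C) :
    a * w * b ∈ SS τ C u P :=
  Submodule.subset_span (Or.inr ⟨ε, ε', w, a, b, hw, ha, hb, rfl⟩)

lemma SS_mul_left {S : Submodule ℂ A} {y : A} (h : ∀ z ∈ Wd τ C u P, y * z ∈ S) {z : A}
    (hz : z ∈ SS τ C u P) : y * z ∈ S :=
  (Submodule.span_le (p := S.comap (LinearMap.mulLeft ℂ y))).2 h hz

lemma mul_mem_SS {c z : A} (hc : c ∈ C) (hz : z ∈ SS τ C u P) : c * z ∈ SS τ C u P := by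
  refine SS_mul_left ?_ hz
  rintro _ (hz | ⟨ε, ε', w, a, b, hw, ha, hb, rfl⟩)
  · exact mem_SS_of_mem (mul_mem hc hz)
  · simpa only [mul_assoc] using mem_SS_word hw (mul_mem hc ha) hb

lemma Pre.sgnU_mul_mem_SS (h : Pre τ C u P) (ε : Bool) {z : A} (hz : z ∈ SS τ C u P) :
    sgnU u ε * z ∈ SS τ C u P := by
  refine SS_mul_left ?_ hz
  rintro z (hz | ⟨σ, σ', w, a, b, hw, ha, hb, rfl⟩)
  · simpa using mem_SS_word (Red.single (τ := τ) (u := u) (P := P) ε) (one_mem C) hz
  · by_cases hσ : ε = σ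
    · simpa only [mul_assoc, one_mul] using
        mem_SS_word (Red.cons ha hw fun hne => absurd hσ hne) (one_mem C) hb
    obtain rfl : σ = !ε := by cases ε <;> cases σ <;> simp_all
    obtain ⟨d, hd, hc⟩ := h.dec (!ε) a ha
    have e : sgnU u ε * (a * w * b) =
        1 * (sgnU u ε * (a - d) * w) * b + sgnU u ε * d * w * b := by noncomm_ring
    rw [e]
    refine Submodule.add_mem _ (mem_SS_word (Red.cons (sub_mem ha (h.dsp_mem hd)) hw fun _ => hc)
      (one_mem C) hb) ?_
    have hθ := h.dsp_mem (h.theta_mem ε hd)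
    generalize hε' : (!ε) = ε₁ at hw
    cases hw with
    | single => subst hε'; exact mem_SS_of_mem (mul_mem hθ hb)
    | cons hx hw _ =>
      subst hε'
      simpa only [mul_assoc] using mem_SS_word hw (mul_mem hθ hx) hb

lemma Pre.ext_subset_closure (h : Pre τ C u P) {y : A} (hy : y ∈ ext C u) :
    y ∈ closure (SS τ C u P : Set A) := by
  let T : StarSubalgebra ℂ A :=
    { carrier := {y | ∀ z ∈ (SS τ C u P).topologicalClosure,
        y * z ∈ (SS τ C u P).topologicalClosure ∧ star y * z ∈ (SS τ C u P).topologicalClosure}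
      mul_mem' := fun {a b} ha hb z hz => by
        rw [star_mul, mul_assoc, mul_assoc]
        exact ⟨(ha _ (hb z hz).1).1, (hb _ (ha z hz).2).2⟩
      add_mem' := fun {a b} ha hb z hz => by
        rw [star_add, add_mul, add_mul]
        exact ⟨add_mem (ha z hz).1 (hb z hz).1, add_mem (ha z hz).2 (hb z hz).2⟩
      algebraMap_mem' := fun c z hz => by
        rw [Algebra.algebraMap_eq_smul_one, star_smul, star_one, smul_mul_assoc, smul_mul_assoc,
          one_mul]
        exact ⟨Submodule.smul_mem _ _ hz, Submodule.smul_mem _ _ hz⟩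
      star_mem' := fun {a} ha z hz => by
        rw [star_star]; exact ⟨(ha z hz).2, (ha z hz).1⟩ }
  have hcl := Submodule.isClosed_topologicalClosure (SS τ C u P)
  have hT : IsClosed (T : Set A) := by
    have : (T : Set A) = ⋂ z ∈ (SS τ C u P).topologicalClosure,
        ((fun y => y * z) ⁻¹' (SS τ C u P).topologicalClosure ∩
          (fun y => star y * z) ⁻¹' (SS τ C u P).topologicalClosure) := by
      ext y; simp only [Set.mem_iInter]; rfl
    rw [this]
    exact isClosed_biInter fun z _ => (hcl.preimage (by fun_prop)).inter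
      (hcl.preimage (by fun_prop))
  have key : ∀ y : A, (∀ z ∈ SS τ C u P, y * z ∈ SS τ C u P) →
      ∀ z ∈ (SS τ C u P).topologicalClosure, y * z ∈ (SS τ C u P).topologicalClosure :=
    fun y hy z hz => map_mem_closure (f := fun z => y * z) (by fun_prop) hz hy
  have hle : ext C u ≤ T := by
    refine gen_le hT ?_
    rintro y (hy | rfl)
    · exact fun z hz => ⟨key _ (fun z hz => mul_mem_SS hy hz) z hz,
        key _ (fun z hz => mul_mem_SS (star_mem hy) hz) z hz⟩
    · exact fun z hz => ⟨key _ (fun z hz => h.sgnU_mul_mem_SS true hz) z hz,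
        key _ (fun z hz => h.sgnU_mul_mem_SS false hz) z hz⟩
  have := (hle hy 1 (Submodule.le_topologicalClosure _ (mem_SS_of_mem (one_mem C)))).1
  rwa [mul_one] at this

/-- Induction principle for the closed HNN extension. -/
lemma Pre.ext_induction (h : Pre τ C u P) {S : Submodule ℂ A} (hS : IsClosed (S : Set A))
    (hC : ∀ z ∈ C, z ∈ S)
    (hw : ∀ ε ε' w a b, Red τ C u P ε ε' w → a ∈ C → b ∈ C → a * w * b ∈ S) {y : A}
    (hy : y ∈ ext C u) : y ∈ S := by
  refine closure_minimal (s := SS τ C u P) (Submodule.span_le.2 ?_) hS (h.ext_subset_closure hy)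
  rintro _ (hz | ⟨ε, ε', w, a, b, h1, ha, hb, rfl⟩)
  · exact hC _ hz
  · exact hw _ _ _ _ _ h1 ha hb

/-- The submodule on which `τ` commutes with a given element. -/
noncomputable def commSub (τ : A →ₚ[ℂ] ℂ) (g : A) : Submodule ℂ A where
  carrier := {z | τ (g * z) = τ (z * g)}
  add_mem' := fun {a b} ha hb => by
    simp only [Set.mem_ofPred_eq] at *; rw [mul_add, add_mul, map_add, map_add, ha, hb]
  zero_mem' := by simp
  smul_mem' := fun c a ha => by
    simp only [Set.mem_ofPred_eq] at *; rw [mul_smul_comm, smul_mul_assoc, map_smul, map_smul, ha]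

lemma isClosed_commSub (g : A) : IsClosed (commSub τ g : Set A) :=
  isClosed_eq ((tr_continuous τ).comp (by fun_prop)) ((tr_continuous τ).comp (by fun_prop))

lemma Pre.tr_sgnU_comm (h : Pre τ C u P) (hf : Free τ C u P)
    (htr : ∀ n, τ (P true n) = τ (P false n)) (ε : Bool) {z : A} (hz : z ∈ ext C u) :
    τ (sgnU u ε * z) = τ (z * sgnU u ε) := by
  refine h.ext_induction (S := commSub τ (sgnU u ε)) (isClosed_commSub _) (fun c hc => ?_) ?_ hz
  · have h1 := hf _ _ _ (.single ε) 1 (one_mem C) c hc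
    have h2 := hf _ _ _ (.single ε) c hc 1 (one_mem C)
    rw [one_mul] at h1; rw [mul_one] at h2
    exact h1.trans h2.symm
  intro σ σ' w a b hw ha hb
  change τ (sgnU u ε * (a * w * b)) = τ (a * w * b * sgnU u ε)
  obtain ⟨da, hda, hca⟩ := h.dec (!ε) a ha
  obtain ⟨db, hdb, hcb⟩ := h.dec ε b hb
  have hθa := h.theta_mem ε hda
  have hθb : sgnU u (!ε) * db * sgnU u ε ∈ Dsp (P (!ε)) := by
    simpa using h.theta_mem (!ε) (d := db) (by simpa using hdb)
  have haC := sub_mem ha (h.dsp_mem hda)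
  have hbC := sub_mem hb (h.dsp_mem hdb)
  have eL : sgnU u ε * (a * w * b) =
      1 * (sgnU u ε * (a - da) * w) * b + sgnU u ε * da * w * b := by noncomm_ring
  have eR : a * w * b * sgnU u ε =
      a * (w * (b - db) * sgnU u ε) * 1 + a * w * db * sgnU u ε := by noncomm_ring
  by_cases hs : σ = (!ε) ∧ σ' = (!ε) ∧ w = sgnU u (!ε)
  · obtain ⟨rfl, rfl, rfl⟩ := hs
    rw [eL, eR, map_add, map_add, hf _ _ _ (.cons haC hw fun _ => hca) 1 (one_mem C) b hb,
      hf _ _ _ (hw.concat (.single ε) hbC fun _ => hcb) a ha 1 (one_mem C), zero_add, zero_add]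
    have e1 : sgnU u ε * da * sgnU u (!ε) * b = (sgnU u ε * da * sgnU u (!ε)) * (b - db) +
        sgnU u ε * (da * (sgnU u (!ε) * db * sgnU u ε)) * sgnU u (!ε) := by
      simp only [mul_assoc, sgnU_mul_not h.unit, mul_one, mul_sub]; abel
    have e2 : a * sgnU u (!ε) * db * sgnU u ε = (a - da) * (sgnU u (!ε) * db * sgnU u ε) +
        da * (sgnU u (!ε) * db * sgnU u ε) := by noncomm_ring
    rw [e1, e2, map_add, map_add, hcb.tr_mul hθa, h.comm _ haC _ (h.dsp_mem hθb), hca.tr_mul hθb]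
    congr 1
    refine Dsp_eq ((trL τ).comp (ContinuousLinearMap.mulLeftRight ℂ A (sgnU u ε) (sgnU u (!ε))))
      (trL τ) (fun n => ?_) ((h.pseq _).mul_mem_Dsp hda hθb)
    simp only [ContinuousLinearMap.comp_apply, ContinuousLinearMap.mulLeftRight_apply, trL_apply]
    rw [h.conj', mul_assoc, sgnU_mul_not h.unit, mul_one]
    cases ε
    · exact (htr n).symm
    · exact htr n
  have hL : τ (sgnU u ε * (a * w * b)) = 0 := by
    by_cases hσ : ε = σ
    · simpa only [mul_assoc, one_mul] using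
        hf _ _ _ (Red.cons ha hw fun hne => absurd hσ hne) 1 (one_mem C) b hb
    obtain rfl : σ = !ε := by cases ε <;> cases σ <;> simp_all
    rw [eL, map_add, hf _ _ _ (.cons haC hw fun _ => hca) 1 (one_mem C) b hb, zero_add]
    generalize hε' : (!ε) = ε₁ at hw
    cases hw with
    | single => subst hε'; exact absurd ⟨rfl, rfl, rfl⟩ hs
    | cons hx hw _ =>
      subst hε'
      simpa only [mul_assoc] using hf _ _ _ hw _ (mul_mem (h.dsp_mem hθa) hx) b hb
  have hR : τ (a * w * b * sgnU u ε) = 0 := by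
    by_cases hσ : σ' = ε
    · simpa only [mul_assoc, mul_one] using
        hf _ _ _ (hw.concat (.single ε) hb fun hne => absurd hσ hne) a ha 1 (one_mem C)
    obtain rfl : σ' = !ε := by cases ε <;> cases σ' <;> simp_all
    rw [eR, map_add, hf _ _ _ (hw.concat (.single ε) hbC fun _ => hcb) a ha 1 (one_mem C),
      zero_add]
    rcases hw.snoc_cases with ⟨rfl, rfl⟩ | ⟨σ'', w'', x, hw'', hx, -, rfl⟩
    · exact absurd ⟨rfl, rfl, rfl⟩ hs
    · simpa only [mul_assoc] using hf _ _ _ hw'' a ha _ (mul_mem hx (h.dsp_mem hθb))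
  rw [hL, hR]

/-- The trace property on the HNN extension. -/
theorem Pre.tr_comm (h : Pre τ C u P) (hf : Free τ C u P)
    (htr : ∀ n, τ (P true n) = τ (P false n)) {y z : A} (hy : y ∈ ext C u) (hz : z ∈ ext C u) :
    τ (y * z) = τ (z * y) := by
  let T : StarSubalgebra ℂ A :=
    { carrier := {y | y ∈ ext C u ∧ ∀ z ∈ ext C u,
        τ (y * z) = τ (z * y) ∧ τ (star y * z) = τ (z * star y)}
      mul_mem' := fun {a b} ha hb => ⟨mul_mem ha.1 hb.1, fun z hz => by
        constructor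
        · rw [mul_assoc, (ha.2 _ (mul_mem hb.1 hz)).1, mul_assoc, (hb.2 _ (mul_mem hz ha.1)).1,
            mul_assoc]
        · rw [star_mul, mul_assoc, (hb.2 _ (mul_mem (star_mem ha.1) hz)).2, mul_assoc,
            (ha.2 _ (mul_mem hz (star_mem hb.1))).2, mul_assoc]⟩
      add_mem' := fun {a b} ha hb => ⟨add_mem ha.1 hb.1, fun z hz => by
        simp only [star_add, add_mul, mul_add, map_add, ha.2 z hz, hb.2 z hz, and_self]⟩
      algebraMap_mem' := fun c => ⟨algebraMap_mem _ c, fun z hz => by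
        simp [Algebra.algebraMap_eq_smul_one]⟩
      star_mem' := fun {a} ha => ⟨star_mem ha.1, fun z hz => by
        rw [star_star]; exact ⟨(ha.2 z hz).2, (ha.2 z hz).1⟩⟩ }
  have hT : IsClosed (T : Set A) := by
    have : (T : Set A) = (ext C u : Set A) ∩ ⋂ z ∈ ext C u,
        ({y | τ (y * z) = τ (z * y)} ∩ {y | τ (star y * z) = τ (z * star y)}) := by
      ext y; simp only [Set.mem_inter_iff, Set.mem_iInter]; rfl
    rw [this]
    exact (isClosed_ext C u).inter (isClosed_biInter fun z _ =>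
      (isClosed_eq ((tr_continuous τ).comp (by fun_prop))
        ((tr_continuous τ).comp (by fun_prop))).inter
      (isClosed_eq ((tr_continuous τ).comp (by fun_prop)) ((tr_continuous τ).comp (by fun_prop))))
  have hC : ∀ c ∈ C, ∀ z ∈ ext C u, τ (c * z) = τ (z * c) := by
    intro c hc z hz
    refine h.ext_induction (S := commSub τ c) (isClosed_commSub _) (fun z hz => h.comm c hc z hz)
      (fun ε ε' w a b hw ha hb => ?_) hz
    change τ (c * (a * w * b)) = τ (a * w * b * c)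
    have h1 := hf _ _ _ hw _ (mul_mem hc ha) b hb
    have h2 := hf _ _ _ hw a ha _ (mul_mem hb hc)
    simp only [mul_assoc] at h1 h2 ⊢
    rw [h1, h2]
  have hle : ext C u ≤ T := by
    refine gen_le hT ?_
    rintro y (hy | rfl)
    · exact ⟨le_ext C u hy, fun z hz => ⟨hC y hy z hz, hC _ (star_mem hy) z hz⟩⟩
    · exact ⟨mem_ext C y, fun z hz => ⟨h.tr_sgnU_comm hf htr true hz,
        h.tr_sgnU_comm hf htr false hz⟩⟩
  exact ((hle hy).2 z hz).1

end Crest.Agent.R120
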