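import Crest.Agent.R120.Defs

/-!
# Row 120: irreducible representations (Schur lemma, Kadison transitivity)
-/

set_option autoImplicit false

namespace Crest.Agent.R120

open scoped ComplexOrder InnerProductSpace
open Filter Topology Crest.OpAlg

variable {A : Type*} [CStarAlgebra A]
  {H : Type*} [NormedAddCommGroup H] [InnerProductSpace ℂ H] [CompleteSpace H]
  {H₁ : Type*} [NormedAddCommGroup H₁] [InnerProductSpace ℂ H₁] [CompleteSpace H₁]
  {H₂ : Type*} [NormedAddCommGroup H₂] [InnerProductSpace ℂ H₂] [CompleteSpace H₂]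

theorem rep_mul_apply (π : A →⋆ₙₐ[ℂ] (H →L[ℂ] H)) (a b : A) (v : H) :
    π (a * b) v = π a (π b v) := by
  rw [map_mul]; rfl

theorem rep_inner_star (π : A →⋆ₙₐ[ℂ] (H →L[ℂ] H)) (a : A) (v w : H) :
    ⟪v, π (star a) w⟫_ℂ = ⟪π a v, w⟫_ℂ := by
  rw [map_star, ContinuousLinearMap.star_eq_adjoint, ContinuousLinearMap.adjoint_inner_right]

theorem rep_norm_apply_le (π : A →⋆ₙₐ[ℂ] (H →L[ℂ] H)) (a : A) (v : H) :
    ‖π a v‖ ≤ ‖a‖ * ‖v‖ :=
  ((π a).le_opNorm v).trans
    (mul_le_mul_of_nonneg_right (NonUnitalStarAlgHom.norm_apply_le π a) (norm_nonneg _))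

theorem irred_map_one (π : A →⋆ₙₐ[ℂ] (H →L[ℂ] H)) (h : IsIrreducibleRep π) : π 1 = 1 := by
  have hmem : ∀ (a : A) (v : H), π a v ∈ LinearMap.ker ((π 1 - 1 : H →L[ℂ] H) : H →ₗ[ℂ] H) := by
    intro a v
    simp [← rep_mul_apply]
  rcases h.2 (LinearMap.ker ((π 1 - 1 : H →L[ℂ] H) : H →ₗ[ℂ] H))
    (ContinuousLinearMap.isClosed_ker _) (fun a v _ => hmem a v) with hb | ht
  · exfalso
    apply h.1
    ext a v
    have := hmem a v
    rw [hb] at this
    simpa using this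
  · ext v
    have : v ∈ LinearMap.ker ((π 1 - 1 : H →L[ℂ] H) : H →ₗ[ℂ] H) := by rw [ht]; trivial
    simpa [sub_eq_zero] using this

theorem irred_exists_unit (π : A →⋆ₙₐ[ℂ] (H →L[ℂ] H)) (h : IsIrreducibleRep π) :
    ∃ ξ : H, ‖ξ‖ = 1 := by
  have : ∃ v : H, v ≠ 0 := by
    by_contra hc
    push Not at hc
    apply h.1
    ext a v
    simp [hc (π a v)]
  obtain ⟨v, hv⟩ := this
  refine ⟨((‖v‖⁻¹ : ℝ) : ℂ) • v, ?_⟩
  rw [norm_smul, Complex.norm_real, norm_inv, norm_norm, inv_mul_cancel₀ (norm_ne_zero_iff.2 hv)]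

/-- Schur's lemma for a selfadjoint operator. -/
theorem rep_schur_sa (π : A →⋆ₙₐ[ℂ] (H →L[ℂ] H)) (h : IsIrreducibleRep π) (T : H →L[ℂ] H)
    (hT : IsSelfAdjoint T) (hc : ∀ a, Commute T (π a)) : ∃ r : ℝ, T = algebraMap ℝ _ r := by
  have key : ∀ s ∈ spectrum ℝ T, ∀ t ∈ spectrum ℝ T, ¬ s < t := by
    intro s hs t ht hst
    set m : ℝ := (s + t) / 2 with hm
    let f : ℝ → ℝ := fun x => max (m - x) 0
    let g : ℝ → ℝ := fun x => max (x - m) 0
    have hf : Continuous f := by fun_prop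
    have hg : Continuous g := by fun_prop
    have hgf : cfc g T * cfc f T = 0 := by
      rw [← cfc_mul g f T]
      have : (fun x => g x * f x) = fun _ => (0 : ℝ) := by
        funext x
        simp only [f, g]
        rcases le_total x m with h1 | h1
        · rw [max_eq_right (by linarith : x - m ≤ 0), zero_mul]
        · rw [max_eq_right (by linarith : m - x ≤ 0), mul_zero]
      rw [this]
      simp
    have hzero : ∀ (k : ℝ → ℝ), Continuous k → cfc k T = 0 → ∀ x ∈ spectrum ℝ T, k x = 0 := by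
      intro k hk h0 x hx
      have := norm_apply_le_norm_cfc k T hx
      rw [h0, norm_zero] at this
      exact norm_le_zero_iff.1 this
    rcases h.2 (LinearMap.ker ((cfc g T : H →L[ℂ] H) : H →ₗ[ℂ] H))
      (ContinuousLinearMap.isClosed_ker _) (fun a v hv => by
        have h1 : cfc g T * π a = π a * cfc g T := ((hc a).cfc_real g).eq
        have h2 : cfc g T v = 0 := by simpa using hv
        have h3 : cfc g T (π a v) = π a (cfc g T v) := by
          have := congrArg (fun S : H →L[ℂ] H => S v) h1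
          simpa using this
        simp [h3, h2]) with hb | ht'
    · have : cfc f T = 0 := by
        ext v
        have h1 : cfc f T v ∈ LinearMap.ker ((cfc g T : H →L[ℂ] H) : H →ₗ[ℂ] H) := by
          have := congrArg (fun S : H →L[ℂ] H => S v) hgf
          simpa using this
        rw [hb] at h1
        simpa using h1
      have h2 := hzero f hf this s hs
      simp only [f] at h2
      have : m - s ≤ 0 := by rw [← h2]; exact le_max_left _ _
      linarith
    · have : cfc g T = 0 := by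
        ext v
        have h1 : v ∈ LinearMap.ker ((cfc g T : H →L[ℂ] H) : H →ₗ[ℂ] H) := by rw [ht']; trivial
        simpa using h1
      have h2 := hzero g hg this t ht
      simp only [g] at h2
      have : t - m ≤ 0 := by rw [← h2]; exact le_max_left _ _
      linarith
  by_cases hne : (spectrum ℝ T).Nonempty
  · obtain ⟨r, hr⟩ := hne
    refine ⟨r, CFC.eq_algebraMap_of_spectrum_subset_singleton T r ?_⟩
    intro x hx
    rcases lt_trichotomy x r with h1 | h1 | h1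
    · exact absurd h1 (key x hx r hr)
    · exact h1
    · exact absurd h1 (key r hr x hx)
  · refine ⟨0, CFC.eq_algebraMap_of_spectrum_subset_singleton T 0 ?_⟩
    intro x hx
    exact absurd ⟨x, hx⟩ hne

/-- Schur's lemma. -/
theorem rep_schur (π : A →⋆ₙₐ[ℂ] (H →L[ℂ] H)) (h : IsIrreducibleRep π) (T : H →L[ℂ] H)
    (hc : ∀ a, Commute T (π a)) : ∃ c : ℂ, ∀ v, T v = c • v := by
  have hc' : ∀ a, Commute (star T) (π a) := by
    intro a
    have := (hc (star a)).star_star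
    rw [map_star, star_star] at this
    exact this
  obtain ⟨r, hr⟩ := rep_schur_sa π h (T + star T) (IsSelfAdjoint.add_star_self T)
    (fun a => (hc a).add_left (hc' a))
  have hsa : IsSelfAdjoint (Complex.I • (T - star T)) := by
    rw [IsSelfAdjoint, star_smul, star_sub, star_star]
    simp [smul_sub]
    abel
  obtain ⟨s, hs⟩ := rep_schur_sa π h (Complex.I • (T - star T)) hsa
    (fun a => ((hc a).sub_left (hc' a)).smul_left _)
  refine ⟨((r : ℂ) - Complex.I * s) / 2, fun v => ?_⟩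
  have h1 : T v + (star T) v = (r : ℂ) • v := by
    have := congrArg (fun S : H →L[ℂ] H => S v) hr
    simpa [Algebra.algebraMap_eq_smul_one] using this
  have h2 : Complex.I • (T v - (star T) v) = (s : ℂ) • v := by
    have := congrArg (fun S : H →L[ℂ] H => S v) hs
    simpa [Algebra.algebraMap_eq_smul_one] using this
  have h3 : T v - (star T) v = (-(Complex.I * s)) • v := by
    have := congrArg (fun w => (-Complex.I) • w) h2
    simp only [smul_smul, neg_mul, Complex.I_mul_I, neg_neg, one_smul] at this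
    exact this
  have h4 : (2 : ℂ) • T v = ((r : ℂ) - Complex.I * s) • v := by
    rw [sub_eq_add_neg, add_smul, ← h1, ← h3, two_smul]; abel
  rw [div_eq_inv_mul, mul_smul, ← h4, smul_smul]
  norm_num

section Approx

variable {ι : Type*} [Fintype ι]

/-- Finite Hilbert sum of copies of `H`. -/
abbrev RepE (ι : Type*) (H : Type*) := PiLp 2 (fun _ : ι => H)

/-- Diagonal action on a finite Hilbert sum. -/
noncomputable def repDiag (ι : Type*) [Fintype ι] (S : H →L[ℂ] H) :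
    PiLp 2 (fun _ : ι => H) →L[ℂ] PiLp 2 (fun _ : ι => H) :=
  ((PiLp.continuousLinearEquiv 2 ℂ (fun _ : ι => H)).symm : (ι → H) →L[ℂ] _) ∘L
    (ContinuousLinearMap.pi fun i => S ∘L (ContinuousLinearMap.proj i)) ∘L
    (PiLp.continuousLinearEquiv 2 ℂ (fun _ : ι => H) : _ →L[ℂ] (ι → H))

omit [CompleteSpace H] in
@[simp] theorem repDiag_apply (S : H →L[ℂ] H) (v : PiLp 2 (fun _ : ι => H)) (i : ι) :
    repDiag ι S v i = S (v i) := rfl

/-- Approximate `n`-transitivity (bicommutant theorem for irreducible representations). -/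
theorem rep_approx (π : A →⋆ₙₐ[ℂ] (H →L[ℂ] H)) (h : IsIrreducibleRep π) (T : H →L[ℂ] H)
    (x : ι → H) : (fun i => T (x i)) ∈ closure (Set.range fun a : A => fun i => π a (x i)) := by
  classical
  let X : (RepE ι H) := WithLp.toLp 2 x
  let L : A →ₗ[ℂ] (RepE ι H) :=
    { toFun := fun a => repDiag ι (π a) X
      map_add' := fun a b => by ext i; simp
      map_smul' := fun c a => by ext i; simp }
  let K : Submodule ℂ (RepE ι H) := (LinearMap.range L).topologicalClosure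
  have hinv : ∀ (a : A) (v : (RepE ι H)), v ∈ K → repDiag ι (π a) v ∈ K := by
    intro a v hv
    have hv' : v ∈ closure (LinearMap.range L : Set (RepE ι H)) := hv
    show repDiag ι (π a) v ∈ closure (LinearMap.range L : Set (RepE ι H))
    refine map_mem_closure (repDiag ι (π a)).continuous hv' ?_
    rintro _ ⟨b, rfl⟩
    refine ⟨a * b, ?_⟩
    ext i
    simp [L]
  have hadj : ∀ (a : A) (v w : (RepE ι H)), ⟪v, repDiag ι (π a) w⟫_ℂ = ⟪repDiag ι (π (star a)) v, w⟫_ℂ := by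
    intro a v w
    simp only [PiLp.inner_apply, repDiag_apply]
    refine Finset.sum_congr rfl fun i _ => ?_
    rw [← rep_inner_star, star_star]
  have hcomm : ∀ (a : A) (v : (RepE ι H)),
      K.starProjection (repDiag ι (π a) v) = repDiag ι (π a) (K.starProjection v) := by
    intro a v
    refine Submodule.eq_starProjection_of_mem_orthogonal (hinv a _ (K.starProjection_apply_mem v)) ?_
    rw [← map_sub, Submodule.mem_orthogonal]
    intro w hw
    rw [hadj]
    exact Submodule.inner_right_of_mem_orthogonal (hinv _ w hw)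
      (K.sub_starProjection_mem_orthogonal v)
  let sing : ι → (H →L[ℂ] (RepE ι H)) := fun j =>
    ((PiLp.continuousLinearEquiv 2 ℂ (fun _ : ι => H)).symm : (ι → H) →L[ℂ] _) ∘L
      ContinuousLinearMap.single ℂ (fun _ : ι => H) j
  have hsing : ∀ j (u : H) i, sing j u i = (Pi.single j u : ι → H) i := fun _ _ _ => rfl
  let c : ι → ι → (H →L[ℂ] H) := fun i j =>
    (PiLp.proj 2 (fun _ : ι => H) i : (RepE ι H) →L[ℂ] H) ∘L K.starProjection ∘L sing j
  have hc : ∀ i j u, c i j u = K.starProjection (sing j u) i := fun _ _ _ => rfl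
  have hcc : ∀ i j a, Commute (c i j) (π a) := by
    intro i j a
    ext u
    have h1 : sing j (π a u) = repDiag ι (π a) (sing j u) := by
      ext k
      rw [repDiag_apply, hsing, hsing]
      by_cases hk : k = j
      · subst hk; simp
      · simp [hk]
    simp only [ContinuousLinearMap.mul_apply]
    rw [hc, hc, h1, hcomm, repDiag_apply]
  choose s hs using fun i j => rep_schur π h (c i j) (hcc i j)
  have hP : ∀ (v : (RepE ι H)) i, K.starProjection v i = ∑ j, s i j • v j := by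
    intro v i
    have hv : v = ∑ j, sing j (v j) := by
      ext k
      rw [WithLp.ofLp_sum, Finset.sum_apply]
      simp only [hsing]
      simp [Pi.single_apply]
    conv_lhs => rw [hv]
    rw [map_sum, WithLp.ofLp_sum, Finset.sum_apply]
    refine Finset.sum_congr rfl fun j _ => ?_
    rw [← hs, hc]
  have hX : X ∈ K := by
    apply Submodule.le_topologicalClosure
    refine ⟨1, ?_⟩
    ext i
    simp [L, irred_map_one π h]
  have hTX : repDiag ι T X ∈ K := by
    rw [← Submodule.starProjection_eq_self_iff]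
    ext i
    have h1 := hP X i
    rw [Submodule.starProjection_eq_self_iff.2 hX] at h1
    rw [hP, repDiag_apply, h1, map_sum]
    simp
  have hcl : repDiag ι T X ∈ closure (LinearMap.range L : Set (RepE ι H)) := hTX
  have := map_mem_closure (f := fun v : (RepE ι H) => (fun i => v i : ι → H)) (by fun_prop) hcl
    (t := Set.range fun a : A => fun i => π a (x i)) (by
      rintro _ ⟨a, rfl⟩
      exact ⟨a, rfl⟩)
  exact this

/-- Approximate transitivity with selfadjoint elements. -/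
theorem rep_approx_sa (π : A →⋆ₙₐ[ℂ] (H →L[ℂ] H)) (h : IsIrreducibleRep π) (T : H →L[ℂ] H)
    (hT : IsSelfAdjoint T) (x : ι → H) (δ : ℝ) (hδ : 0 < δ) :
    ∃ a : A, IsSelfAdjoint a ∧ ∀ i, ‖π a (x i) - T (x i)‖ < δ := by
  classical
  let X : (RepE ι H) := WithLp.toLp 2 x
  let S : Set (RepE ι H) := {v | ∃ a : A, IsSelfAdjoint a ∧ v = repDiag ι (π a) X}
  have hsmul : ∀ (r : ℝ) (a : A), repDiag ι (π ((r : ℂ) • a)) X = r • repDiag ι (π a) X := by
    intro r a
    ext i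
    rw [repDiag_apply, map_smul]
    simp
  have hsa : ∀ (r : ℝ) (a : A), IsSelfAdjoint a → IsSelfAdjoint ((r : ℂ) • a) := by
    intro r a ha
    rw [IsSelfAdjoint, star_smul, ha.star_eq]
    simp
  have hconv : Convex ℝ S := by
    rintro _ ⟨a, ha, rfl⟩ _ ⟨b, hb, rfl⟩ r t _ _ _
    refine ⟨(r : ℂ) • a + (t : ℂ) • b, (hsa r a ha).add (hsa t b hb), ?_⟩
    rw [← hsmul, ← hsmul]
    ext i
    simp
  have hmem : repDiag ι T X ∈ closure S := by
    by_contra hn
    obtain ⟨f, u, hf, hu⟩ :=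
      RCLike.geometric_hahn_banach_closed_point (𝕜 := ℂ) hconv.closure isClosed_closure hn
    let y : (RepE ι H) := (InnerProductSpace.toDual ℂ (RepE ι H)).symm f
    have hfy : ∀ v : (RepE ι H), f v = ⟪y, v⟫_ℂ := fun v => by simp [y]
    have hu0 : 0 < u := by
      have := hf 0 (subset_closure ⟨0, IsSelfAdjoint.zero _, by ext i; simp⟩)
      simpa using this
    have hzero : ∀ a : A, IsSelfAdjoint a → (f (repDiag ι (π a) X)).re = 0 := by
      intro a ha
      by_contra hne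
      have := hf _ (subset_closure ⟨_, hsa (u / (f (repDiag ι (π a) X)).re) a ha, rfl⟩)
      rw [hsmul, ContinuousLinearMap.map_smul_of_tower] at this
      simp only [Complex.real_smul, RCLike.re_to_complex, Complex.re_ofReal_mul] at this
      rw [div_mul_cancel₀ _ hne] at this
      exact lt_irrefl _ this
    have hcl := rep_approx π h T (Sum.elim x (fun i => y i) : ι ⊕ ι → H)
    let Z : Set (ι ⊕ ι → H) :=
      {v | (∑ i, ⟪y i, v (Sum.inl i)⟫_ℂ + ∑ i, ⟪v (Sum.inr i), x i⟫_ℂ).re = 0}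
    have hZ : IsClosed Z := isClosed_eq (by fun_prop) continuous_const
    have hsub : (Set.range fun a : A => fun i => π a ((Sum.elim x (fun i => y i) : ι ⊕ ι → H) i))
        ⊆ Z := by
      rintro _ ⟨b, rfl⟩
      have := hzero (b + star b) (IsSelfAdjoint.add_star_self b)
      rw [hfy] at this
      simp only [PiLp.inner_apply, repDiag_apply, map_add, ContinuousLinearMap.add_apply,
        inner_add_right, Finset.sum_add_distrib, rep_inner_star] at this
      simpa [Z, X] using this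
    have hT0 := hZ.closure_subset_iff.2 hsub hcl
    simp only [Z, Set.mem_setOf_eq, Sum.elim_inl, Sum.elim_inr] at hT0
    have h2 : ∀ i, ⟪T (y i), x i⟫_ℂ = ⟪y i, T (x i)⟫_ℂ := fun i =>
      hT.isSymmetric (y i) (x i)
    simp only [h2, Complex.add_re] at hT0
    rw [hfy] at hu
    simp only [PiLp.inner_apply, repDiag_apply, RCLike.re_to_complex] at hu
    have h3 : (∑ i, ⟪y i, T (X i)⟫_ℂ).re = (∑ i, ⟪y i, T (x i)⟫_ℂ).re := rfl
    linarith
  obtain ⟨_, ⟨a, ha, rfl⟩, hd⟩ := Metric.mem_closure_iff.1 hmem δ hδ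
  refine ⟨a, ha, fun i => ?_⟩
  rw [dist_comm, dist_eq_norm] at hd
  exact lt_of_le_of_lt (PiLp.norm_apply_le (repDiag ι (π a) X - repDiag ι T X) i) hd

end Approx

/-- Norm-controlled approximate transitivity, real inner product case. -/
theorem rep_approx_ball_real (π : A →⋆ₙₐ[ℂ] (H →L[ℂ] H)) (h : IsIrreducibleRep π) (ξ η : H)
    (hξ : ‖ξ‖ = 1) (hη : ‖η‖ = 1) (hre : ⟪η, ξ⟫_ℂ = ⟪ξ, η⟫_ℂ) (δ : ℝ) (hδ : 0 < δ) :
    ∃ c : A, ‖c‖ ≤ 1 ∧ ‖π c ξ - η‖ < δ := by
  let P : H →L[ℂ] H := (ℂ ∙ (ξ - η)).starProjection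
  have hP : IsSelfAdjoint P := isSelfAdjoint_starProjection _
  let T : H →L[ℂ] H := 1 - (P + P)
  have hT : IsSelfAdjoint T := (IsSelfAdjoint.one _).sub (hP.add hP)
  have hPd : P (ξ - η) = ξ - η :=
    Submodule.starProjection_eq_self_iff.2 (Submodule.mem_span_singleton_self _)
  have hPu : P (ξ + η) = 0 := by
    rw [Submodule.starProjection_apply_eq_zero_iff, Submodule.mem_orthogonal_singleton_iff_inner_right]
    rw [inner_sub_left, inner_add_right, inner_add_right, hre, inner_self_eq_norm_sq_to_K,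
      inner_self_eq_norm_sq_to_K, hξ, hη]
    ring
  have hPξ : P ξ + P ξ = ξ - η := by
    have : ξ + ξ = (ξ + η) + (ξ - η) := by abel
    rw [← map_add, this, map_add, hPu, hPd, zero_add]
  have hPη : P η + P η = η - ξ := by
    have : η + η = (ξ + η) - (ξ - η) := by abel
    rw [← map_add, this, map_sub, hPu, hPd]; abel
  have hTξ : T ξ = η := by
    simp only [T, ContinuousLinearMap.sub_apply, ContinuousLinearMap.add_apply,
      ContinuousLinearMap.one_apply, hPξ]; abel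
  have hTη : T η = ξ := by
    simp only [T, ContinuousLinearMap.sub_apply, ContinuousLinearMap.add_apply,
      ContinuousLinearMap.one_apply, hPη]; abel
  obtain ⟨a, ha, hx⟩ := rep_approx_sa π h T hT (fun b : Bool => if b then ξ else η) (δ / 2)
    (by positivity)
  have h1 : ‖π a ξ - η‖ < δ / 2 := by simpa [hTξ] using hx true
  have h2 : ‖π a η - ξ‖ < δ / 2 := by simpa [hTη] using hx false
  have hpos : ∀ t : ℝ, (1 + t ^ 2) ≠ 0 := fun t => by positivity
  let f₁ : ℝ → ℝ := fun t => 1 / (1 + t ^ 2)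
  let f₂ : ℝ → ℝ := fun t => t / (1 + t ^ 2)
  have hf₁ : Continuous f₁ := by
    unfold f₁; exact continuous_const.div (by fun_prop) hpos
  have hf₂ : Continuous f₂ := by
    unfold f₂; exact continuous_id.div (by fun_prop) hpos
  have hn₁ : ‖cfc f₁ a‖ ≤ 1 := by
    refine norm_cfc_le zero_le_one fun t _ => ?_
    simp only [f₁, Real.norm_eq_abs]
    rw [abs_of_nonneg (by positivity), div_le_one (by positivity)]
    nlinarith [sq_nonneg t]
  have hn₂ : ‖cfc f₂ a‖ ≤ 1 / 2 := by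
    refine norm_cfc_le (by norm_num) fun t _ => ?_
    simp only [f₂, Real.norm_eq_abs]
    rw [abs_div, abs_of_nonneg (by positivity : (0 : ℝ) ≤ 1 + t ^ 2),
      div_le_iff₀ (by positivity)]
    have := sq_nonneg (|t| - 1)
    have h3 : |t| ^ 2 = t ^ 2 := sq_abs t
    nlinarith
  have e₁ : cfc f₁ a * a = cfc f₂ a := by
    conv_lhs => rw [← cfc_id' ℝ a]
    rw [cfc_id' ℝ a]
    have : cfc f₁ a * a = cfc f₁ a * cfc (fun t : ℝ => t) a := by rw [cfc_id' ℝ a]
    rw [this, ← cfc_mul f₁ _ a]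
    congr 1
    funext t
    simp only [f₁, f₂]
    ring
  have e₂ : cfc f₁ a + cfc f₂ a * a = 1 := by
    have : cfc f₂ a * a = cfc f₂ a * cfc (fun t : ℝ => t) a := by rw [cfc_id' ℝ a]
    rw [this, ← cfc_mul f₂ _ a, ← cfc_add a f₁ _]
    have : (fun t => f₁ t + f₂ t * t) = fun _ => (1 : ℝ) := by
      funext t
      simp only [f₁, f₂]
      field_simp
    rw [this, cfc_const_one ℝ a]
  refine ⟨cfc f₂ a + cfc f₂ a, (norm_add_le _ _).trans (by linarith), ?_⟩
  have hid : π (cfc f₂ a + cfc f₂ a) ξ - η =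
      π (cfc f₁ a) (π a ξ - η) - π (cfc f₂ a) (π a η - ξ) := by
    have h3 : η = π (cfc f₁ a) η + π (cfc f₂ a) (π a η) := by
      rw [← rep_mul_apply, ← ContinuousLinearMap.add_apply, ← map_add, e₂, irred_map_one π h]
      rfl
    rw [map_sub, map_sub, ← rep_mul_apply π (cfc f₁ a) a, e₁, map_add,
      ContinuousLinearMap.add_apply]
    conv_lhs => rw [h3]
    abel
  rw [hid]
  have h4 := rep_norm_apply_le π (cfc f₁ a) (π a ξ - η)
  have h5 := rep_norm_apply_le π (cfc f₂ a) (π a η - ξ)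
  have h6 := norm_sub_le (π (cfc f₁ a) (π a ξ - η)) (π (cfc f₂ a) (π a η - ξ))
  have h7 : ‖cfc f₁ a‖ * ‖π a ξ - η‖ ≤ ‖π a ξ - η‖ :=
    mul_le_of_le_one_left (norm_nonneg _) hn₁
  have h8 : ‖cfc f₂ a‖ * ‖π a η - ξ‖ ≤ ‖π a η - ξ‖ :=
    mul_le_of_le_one_left (norm_nonneg _) (by linarith)
  linarith

/-- Norm-controlled approximate transitivity. -/
theorem rep_approx_ball (π : A →⋆ₙₐ[ℂ] (H →L[ℂ] H)) (h : IsIrreducibleRep π) (ξ η : H)
    (hξ : ‖ξ‖ = 1) : ∃ c : A, ‖c‖ ≤ ‖η‖ ∧ ‖η - π c ξ‖ ≤ 1 / 2 * ‖η‖ := by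
  by_cases hη : η = 0
  · exact ⟨0, by simp, by simp [hη]⟩
  have hpos : 0 < ‖η‖ := norm_pos_iff.2 hη
  obtain ⟨θ, hθ, hθ'⟩ := Complex.exists_norm_eq_mul_self ⟪ξ, η⟫_ℂ
  have hθ0 : θ ≠ 0 := by rintro rfl; simp at hθ
  let w : ℂ := θ / (‖η‖ : ℂ)
  have hw0 : w ≠ 0 := div_ne_zero hθ0 (by exact_mod_cast hpos.ne')
  have hwn : ‖w‖ = ‖η‖⁻¹ := by simp [w, hθ]
  have hη' : ‖w • η‖ = 1 := by rw [norm_smul, hwn, inv_mul_cancel₀ hpos.ne']
  have hreal : ⟪ξ, w • η⟫_ℂ = ((‖⟪ξ, η⟫_ℂ‖ / ‖η‖ : ℝ) : ℂ) := by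
    rw [inner_smul_right]
    push_cast
    rw [hθ']
    simp only [w]
    ring
  have hre : ⟪w • η, ξ⟫_ℂ = ⟪ξ, w • η⟫_ℂ := by
    rw [← inner_conj_symm, hreal, Complex.conj_ofReal]
  obtain ⟨c, hc, hd⟩ := rep_approx_ball_real π h ξ (w • η) hξ hη' hre (1 / 2) (by norm_num)
  refine ⟨w⁻¹ • c, ?_, ?_⟩
  · rw [norm_smul, norm_inv, hwn, inv_inv]
    exact mul_le_of_le_one_right hpos.le hc
  · have : η - π (w⁻¹ • c) ξ = w⁻¹ • (-(π c ξ - w • η)) := by
      rw [map_smul, neg_sub, smul_sub, smul_smul, inv_mul_cancel₀ hw0, one_smul]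
      rfl
    rw [this, norm_smul, norm_neg, norm_inv, hwn, inv_inv, mul_comm]
    exact mul_le_mul_of_nonneg_right hd.le hpos.le

theorem irred_transitive (π : A →⋆ₙₐ[ℂ] (H →L[ℂ] H)) (h : IsIrreducibleRep π) (ξ η : H)
    (hξ : ‖ξ‖ = 1) : ∃ a : A, ‖a‖ ≤ 2 * ‖η‖ ∧ π a ξ = η := by
  choose g hg hg' using fun ζ => rep_approx_ball π h ξ ζ hξ
  let k : H → H := fun ζ => ζ - π (g ζ) ξ
  have hk : ∀ n, ‖k^[n] η‖ ≤ (1 / 2) ^ n * ‖η‖ := by
    intro n
    induction n with
    | zero => simp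
    | succ n ih =>
      rw [Function.iterate_succ_apply']
      calc ‖k (k^[n] η)‖ ≤ 1 / 2 * ‖k^[n] η‖ := hg' _
        _ ≤ 1 / 2 * ((1 / 2) ^ n * ‖η‖) := by gcongr
        _ = (1 / 2) ^ (n + 1) * ‖η‖ := by ring
  let u : ℕ → A := fun n => g (k^[n] η)
  have hu : ∀ n, ‖u n‖ ≤ (1 / 2) ^ n * ‖η‖ := fun n => (hg _).trans (hk n)
  have hgeo : HasSum (fun n : ℕ => (1 / 2 : ℝ) ^ n * ‖η‖) (2 * ‖η‖) :=
    hasSum_geometric_two.mul_right _
  have hsn : Summable fun n => ‖u n‖ :=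
    Summable.of_nonneg_of_le (fun n => norm_nonneg _) hu hgeo.summable
  have hsu : Summable u := hsn.of_norm
  refine ⟨∑' n, u n, tsum_of_norm_bounded hgeo hu, ?_⟩
  let F : A →L[ℂ] H := LinearMap.mkContinuous
    { toFun := fun a => π a ξ
      map_add' := fun a b => by simp
      map_smul' := fun c a => by simp } 1 (fun a => by
        simpa [hξ] using rep_norm_apply_le π a ξ)
  have hF : ∀ a, F a = π a ξ := fun _ => rfl
  have h1 : Tendsto (fun n => F (∑ i ∈ Finset.range n, u i)) atTop (𝓝 (F (∑' n, u n))) :=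
    (F.continuous.tendsto _).comp hsu.hasSum.tendsto_sum_nat
  have h2 : ∀ n, F (∑ i ∈ Finset.range n, u i) = η - k^[n] η := by
    intro n
    induction n with
    | zero => simp
    | succ n ih =>
      rw [Finset.sum_range_succ, map_add, ih, Function.iterate_succ_apply', hF]
      simp only [k, u]
      abel
  have h3 : Tendsto (fun n => k^[n] η) atTop (𝓝 0) := by
    rw [tendsto_zero_iff_norm_tendsto_zero]
    refine squeeze_zero (fun n => norm_nonneg _) hk ?_
    exact hgeo.summable.tendsto_atTop_zero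
  have h4 : Tendsto (fun n => η - k^[n] η) atTop (𝓝 (η - 0)) := tendsto_const_nhds.sub h3
  simp only [h2] at h1
  rw [← hF, tendsto_nhds_unique h1 h4, sub_zero]

theorem rep_approx_perp (π : A →⋆ₙₐ[ℂ] (H →L[ℂ] H)) (h : IsIrreducibleRep π) (ξ ζ : H)
    (hξ : ‖ξ‖ = 1) (hζ : ⟪ζ, ξ⟫_ℂ = 0) (δ : ℝ) (hδ : 0 < δ) :
    ∃ a : A, IsSelfAdjoint a ∧ ‖π a ξ - ζ‖ < δ := by
  let R : H →L[ℂ] H := InnerProductSpace.rankOne ℂ ζ ξ
  obtain ⟨a, ha, hx⟩ := rep_approx_sa π h (R + star R) (IsSelfAdjoint.add_star_self R)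
    (fun _ : Unit => ξ) δ hδ
  refine ⟨a, ha, ?_⟩
  have := hx ()
  simpa [R, ContinuousLinearMap.star_eq_adjoint, hζ, inner_self_eq_norm_sq_to_K, hξ] using this

theorem irred_ker (π : A →⋆ₙₐ[ℂ] (H →L[ℂ] H)) (h : IsIrreducibleRep π) (ξ : H) (hξ : ‖ξ‖ = 1)
    (x : A) (ε : ℝ) (hε : 0 < ε) :
    ∃ l₁ l₂ : A, π l₁ ξ = 0 ∧ π l₂ ξ = 0 ∧
      ‖x - ⟪ξ, π x ξ⟫_ℂ • (1 : A) - l₁ - star l₂‖ < ε := by
  set x₀ : A := x - ⟪ξ, π x ξ⟫_ℂ • (1 : A) with hx₀
  set η : H := π x₀ ξ with hη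
  have hperp : ⟪ξ, η⟫_ℂ = 0 := by
    rw [hη, hx₀, map_sub, map_smul, irred_map_one π h]
    simp [inner_sub_right, inner_smul_right, inner_self_eq_norm_sq_to_K, hξ]
  have hperp' : ⟪η, ξ⟫_ℂ = 0 := by rw [← inner_conj_symm, hperp, map_zero]
  set δ : ℝ := ε / 13 with hδ
  have hδ0 : 0 < δ := by positivity
  obtain ⟨a₁, ha₁, h₁⟩ := rep_approx_perp π h ξ ((1 / 2 : ℂ) • η) hξ
    (by rw [inner_smul_left, hperp', mul_zero]) δ hδ0
  obtain ⟨a₂, ha₂, h₂⟩ := rep_approx_perp π h ξ ((Complex.I / 2 : ℂ) • η) hξ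
    (by rw [inner_smul_left, hperp', mul_zero]) δ hδ0
  set b : A := a₁ + Complex.I • a₂ with hb
  have hbs : star b = a₁ - Complex.I • a₂ := by
    rw [hb, star_add, star_smul, ha₁.star_eq, ha₂.star_eq]
    simp [sub_eq_add_neg]
  have hII : Complex.I * (Complex.I / 2) = -(1 / 2) := by
    rw [← mul_div_assoc, Complex.I_mul_I]; ring
  have hb1 : ‖π b ξ‖ < 2 * δ := by
    have : π b ξ = (π a₁ ξ - (1 / 2 : ℂ) • η) + Complex.I • (π a₂ ξ - (Complex.I / 2 : ℂ) • η) := by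
      rw [hb, map_add, map_smul, smul_sub, smul_smul, hII, neg_smul]
      simp only [ContinuousLinearMap.add_apply, ContinuousLinearMap.smul_apply]
      abel
    rw [this]
    refine (norm_add_le _ _).trans_lt ?_
    rw [norm_smul, Complex.norm_I, one_mul]
    linarith
  have hb2 : ‖η - π (star b) ξ‖ < 2 * δ := by
    have : η - π (star b) ξ =
        Complex.I • (π a₂ ξ - (Complex.I / 2 : ℂ) • η) - (π a₁ ξ - (1 / 2 : ℂ) • η) := by
      rw [hbs, map_sub, map_smul, smul_sub, smul_smul, hII, neg_smul]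
      simp only [ContinuousLinearMap.sub_apply, ContinuousLinearMap.smul_apply]
      have : η = (1 / 2 : ℂ) • η + (1 / 2 : ℂ) • η := by rw [← add_smul]; norm_num
      conv_lhs => rw [this]
      abel
    rw [this]
    refine (norm_sub_le _ _).trans_lt ?_
    rw [norm_smul, Complex.norm_I, one_mul]
    linarith
  obtain ⟨z₁, hz₁, hz₁'⟩ := irred_transitive π h ξ (π b ξ) hξ
  obtain ⟨z₂, hz₂, hz₂'⟩ := irred_transitive π h ξ (π (x₀ - star (b - z₁)) ξ) hξ
  refine ⟨x₀ - star (b - z₁) - z₂, b - z₁, ?_, ?_, ?_⟩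
  · rw [map_sub, ContinuousLinearMap.sub_apply, hz₂', sub_self]
  · rw [map_sub, ContinuousLinearMap.sub_apply, hz₁', sub_self]
  · have e : x₀ - (x₀ - star (b - z₁) - z₂) - star (b - z₁) = z₂ := by abel
    rw [e]
    have h3 : π (x₀ - star (b - z₁)) ξ = (η - π (star b) ξ) + π (star z₁) ξ := by
      rw [star_sub, map_sub π x₀, map_sub π (star b)]
      simp only [ContinuousLinearMap.sub_apply]
      rw [← hη]; abel
    have h4 : ‖π (star z₁) ξ‖ ≤ ‖z₁‖ := by
      simpa [hξ] using rep_norm_apply_le π (star z₁) ξ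
    have h5 := norm_add_le (η - π (star b) ξ) (π (star z₁) ξ)
    rw [h3] at hz₂
    linarith

theorem equiv_of_vectorState (π₁ : A →⋆ₙₐ[ℂ] (H₁ →L[ℂ] H₁)) (π₂ : A →⋆ₙₐ[ℂ] (H₂ →L[ℂ] H₂))
    (h₁ : IsIrreducibleRep π₁) (h₂ : IsIrreducibleRep π₂) (ξ₁ : H₁) (ξ₂ : H₂)
    (hξ₁ : ‖ξ₁‖ = 1) (hξ₂ : ‖ξ₂‖ = 1) (h : ∀ x : A, ⟪ξ₁, π₁ x ξ₁⟫_ℂ = ⟪ξ₂, π₂ x ξ₂⟫_ℂ) :
    AreUnitarilyEquivalent π₁ π₂ := by
  let f₁ : A →ₗ[ℂ] H₁ :=
    { toFun := fun a => π₁ a ξ₁
      map_add' := fun a b => by simp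
      map_smul' := fun c a => by simp }
  let f₂ : A →ₗ[ℂ] H₂ :=
    { toFun := fun a => π₂ a ξ₂
      map_add' := fun a b => by simp
      map_smul' := fun c a => by simp }
  have hs₁ : Function.Surjective f₁ := fun v => by
    obtain ⟨a, _, ha⟩ := irred_transitive π₁ h₁ ξ₁ v hξ₁
    exact ⟨a, ha⟩
  have hs₂ : Function.Surjective f₂ := fun v => by
    obtain ⟨a, _, ha⟩ := irred_transitive π₂ h₂ ξ₂ v hξ₂
    exact ⟨a, ha⟩
  have hn : ∀ a, ‖f₂ a‖ = ‖f₁ a‖ := by
    intro a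
    have := h (star a * a)
    rw [rep_mul_apply, rep_mul_apply, rep_inner_star, rep_inner_star, inner_self_eq_norm_sq_to_K,
      inner_self_eq_norm_sq_to_K] at this
    have h2 : ‖π₁ a ξ₁‖ ^ 2 = ‖π₂ a ξ₂‖ ^ 2 := by exact_mod_cast this
    exact ((sq_eq_sq₀ (norm_nonneg _) (norm_nonneg _)).1 h2).symm
  obtain ⟨s, hs⟩ := f₁.exists_rightInverse_of_surjective (LinearMap.range_eq_top.2 hs₁)
  have hs' : ∀ v, f₁ (s v) = v := fun v => LinearMap.congr_fun hs v
  let U₀ : H₁ →ₗᵢ[ℂ] H₂ :=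
    { toLinearMap := f₂ ∘ₗ s
      norm_map' := fun v => by
        simp only [LinearMap.comp_apply]
        rw [hn, hs'] }
  have hU : ∀ a, U₀ (f₁ a) = f₂ a := by
    intro a
    have : ‖f₂ (s (f₁ a) - a)‖ = 0 := by rw [hn, map_sub, hs', sub_self, norm_zero]
    rw [norm_eq_zero, map_sub, sub_eq_zero] at this
    exact this
  have hUs : Function.Surjective U₀ := fun w => by
    obtain ⟨a, rfl⟩ := hs₂ w
    exact ⟨f₁ a, hU a⟩
  refine ⟨LinearIsometryEquiv.ofSurjective U₀ hUs, fun a v => ?_⟩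
  obtain ⟨b, rfl⟩ := hs₁ v
  have e₁ : π₁ a (f₁ b) = f₁ (a * b) := (rep_mul_apply π₁ a b ξ₁).symm
  have e₂ : π₂ a (f₂ b) = f₂ (a * b) := (rep_mul_apply π₂ a b ξ₂).symm
  rw [LinearIsometryEquiv.coe_ofSurjective, e₁, hU, hU, e₂]

theorem exists_fixed_unit (Q : ℕ → (H →L[ℂ] H)) (hQ : ∀ n, IsStarProjection (Q n))
    (hn : ∀ n m, n ≤ m → Q m * Q n = Q m) (ζ : H) (c : ℝ) (hc : 0 < c)
    (hζ : ∀ n, c ≤ ‖Q n ζ‖) : ∃ η : H, ‖η‖ = 1 ∧ ∀ n, Q n η = η := by
  have hn' : ∀ n m, n ≤ m → Q n * Q m = Q m := by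
    intro n m hnm
    have := congrArg star (hn n m hnm)
    rwa [star_mul, (hQ n).isSelfAdjoint.star_eq, (hQ m).isSelfAdjoint.star_eq] at this
  have hsym : ∀ n v w, ⟪Q n v, w⟫_ℂ = ⟪v, Q n w⟫_ℂ := fun n v w =>
    (hQ n).isSelfAdjoint.isSymmetric v w
  have hpy : ∀ n m, n ≤ m → ‖Q n ζ - Q m ζ‖ ^ 2 = ‖Q n ζ‖ ^ 2 - ‖Q m ζ‖ ^ 2 := by
    intro n m hnm
    have h1 : ⟪Q m ζ, Q n ζ - Q m ζ⟫_ℂ = 0 := by
      rw [hsym, map_sub, ← ContinuousLinearMap.mul_apply, ← ContinuousLinearMap.mul_apply,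
        hn n m hnm, (hQ m).isIdempotentElem.eq, sub_self, inner_zero_right]
    have h2 := norm_add_sq_eq_norm_sq_add_norm_sq_of_inner_eq_zero (𝕜 := ℂ) _ _ h1
    rw [add_sub_cancel] at h2
    nlinarith
  have hanti : Antitone fun n => ‖Q n ζ‖ ^ 2 := by
    intro n m hnm
    have := hpy n m hnm
    have h2 := sq_nonneg ‖Q n ζ - Q m ζ‖
    simp only
    linarith
  have hbdd : BddBelow (Set.range fun n => ‖Q n ζ‖ ^ 2) := ⟨0, by
    rintro _ ⟨n, rfl⟩; positivity⟩
  have hlim := tendsto_atTop_ciInf hanti hbdd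
  have hcau : CauchySeq fun n => Q n ζ := by
    rw [Metric.cauchySeq_iff']
    intro ε hε
    obtain ⟨N, hN⟩ := Metric.cauchySeq_iff'.1 hlim.cauchySeq (ε ^ 2) (by positivity)
    refine ⟨N, fun n hnN => ?_⟩
    have h1 := hN n hnN
    rw [Real.dist_eq, abs_sub_comm, ← hpy N n hnN, abs_of_nonneg (sq_nonneg _)] at h1
    rw [dist_comm, dist_eq_norm]
    exact lt_of_pow_lt_pow_left₀ 2 hε.le h1
  obtain ⟨η₀, hη₀⟩ := cauchySeq_tendsto_of_complete hcau
  have hnorm : c ≤ ‖η₀‖ := ge_of_tendsto' hη₀.norm hζ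
  have hpos : 0 < ‖η₀‖ := hc.trans_le hnorm
  have hfix : ∀ n, Q n η₀ = η₀ := by
    intro n
    have h1 : Tendsto (fun m => Q n (Q m ζ)) atTop (𝓝 (Q n η₀)) :=
      ((Q n).continuous.tendsto _).comp hη₀
    have h2 : Tendsto (fun m => Q n (Q m ζ)) atTop (𝓝 η₀) := by
      refine hη₀.congr' ?_
      filter_upwards [eventually_ge_atTop n] with m hm
      rw [← ContinuousLinearMap.mul_apply, hn' n m hm]
    exact tendsto_nhds_unique h1 h2
  refine ⟨((‖η₀‖⁻¹ : ℝ) : ℂ) • η₀, ?_, fun n => by rw [map_smul, hfix]⟩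
  rw [norm_smul, Complex.norm_real, norm_inv, norm_norm, inv_mul_cancel₀ hpos.ne']

end Crest.Agent.R120
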