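import Crest.Agent.R120.Steps
import Crest.Agent.R120.Rep

/-! Excision of a pure state on a countably generated closed subalgebra. -/

set_option autoImplicit false
set_option linter.unusedSectionVars false

namespace Crest.Agent.R120

open scoped ComplexOrder InnerProductSpace
open Filter Topology Set

variable {A : Type*} [CStarAlgebra A] [PartialOrder A] [StarOrderedRing A]

lemma exists_nest {C : StarSubalgebra ℂ A} (hC : IsClosed (C : Set A)) {L : Ideal A}
    (hL : IsClosed (L : Set A)) (l : ℕ → A) (hlC : ∀ i, l i ∈ C) (hlL : ∀ i, l i ∈ L) :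
    ∃ e : ℕ → A, Nest e ∧ (∀ n, e n ∈ C) ∧ (∀ n, 1 - e n ∈ L) ∧
      ∀ i, Tendsto (fun n => ‖l i * e n‖) atTop (𝓝 0) := by
  let r : ℕ → ℝ := fun i => (2⁻¹ : ℝ) ^ i / (1 + ‖l i‖ ^ 2)
  have hr : ∀ i, 0 < r i := fun i => by positivity
  let m : ℕ → A := fun i => r i • (star (l i) * l i)
  have hm0 : ∀ i, 0 ≤ m i := fun i => smul_nonneg (hr i).le (star_mul_self_nonneg _)
  have hs : Summable m := by
    refine Summable.of_norm_bounded (g := fun i => (2⁻¹ : ℝ) ^ i)
      (summable_geometric_two.congr fun j => by simp) fun i => ?_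
    rw [norm_smul, CStarRing.norm_star_mul_self, Real.norm_of_nonneg (hr i).le, div_mul_eq_mul_div,
      div_le_iff₀ (by positivity)]
    gcongr
    nlinarith
  set h := ∑' i, m i with hh
  have hh0 : 0 ≤ h := tsum_nonneg hm0
  have hmh : ∀ i, m i ≤ h := fun i => hs.le_tsum i fun j _ => hm0 j
  have hhC : h ∈ C := hC.mem_of_tendsto hs.hasSum (Eventually.of_forall fun F =>
    sum_mem fun i _ => by
      change r i • _ ∈ C
      rw [← Complex.coe_smul]
      exact SMulMemClass.smul_mem _ (mul_mem (star_mem (hlC i)) (hlC i)))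
  have hhL : h ∈ L := hL.mem_of_tendsto hs.hasSum (Eventually.of_forall fun F =>
    sum_mem fun i _ => by
      change r i • _ ∈ L
      rw [← smul_mul_assoc]
      exact L.mul_mem_left _ (hlL i))
  have hsa : IsSelfAdjoint h := .of_nonneg hh0
  let f : ℕ → ℝ → ℝ := fun n t => max 0 (min 1 (2 - 2 ^ (n + 1) * t))
  have hfc : ∀ n, Continuous (f n) := fun n => by fun_prop
  have hf0 : ∀ n t, 0 ≤ f n t := fun n t => le_max_left _ _
  have hf1 : ∀ n t, f n t ≤ 1 := fun n t => max_le zero_le_one (min_le_left _ _)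
  have hfa : ∀ n t, 2 ^ (n + 1) * t ≤ 1 → f n t = 1 := fun n t ht => by
    simp only [f]; rw [min_eq_left (by linarith), max_eq_right zero_le_one]
  have hfb : ∀ n t, 1 ≤ 2 ^ n * t → f n t = 0 := fun n t ht => by
    simp only [f]
    refine max_eq_left ((min_le_right _ _).trans ?_)
    rw [pow_succ]; linarith
  refine ⟨fun n => cfc (f n) h, ⟨fun n => cfc_predicate _ _, fun n => ?_, fun n k hnk => ?_⟩,
    fun n => cfc_mem (s := C) (hs := hC) _ hhC, fun n => ?_, fun i => ?_⟩
  · exact norm_cfc_le zero_le_one fun t _ => by rw [Real.norm_of_nonneg (hf0 n t)]; exact hf1 n t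
  · rw [← cfc_mul _ _ h]
    refine cfc_congr fun t ht => ?_
    have ht0 : 0 ≤ t := spectrum_nonneg_of_nonneg hh0 ht
    by_cases h1 : 1 ≤ 2 ^ k * t
    · simp only [hfb k t h1, zero_mul]
    · have h2 : (2 : ℝ) ^ (n + 1) ≤ 2 ^ k := pow_le_pow_right₀ one_le_two hnk
      simp only [hfa n t (by nlinarith), mul_one]
  · let g : ℝ → ℝ := fun t => (1 - f n t) / max t (2 ^ (n + 1))⁻¹
    have hg : Continuous g := by
      refine Continuous.div (by fun_prop) (by fun_prop) fun t => ne_of_gt ?_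
      exact lt_max_of_lt_right (by positivity)
    have e : 1 - cfc (f n) h = cfc g h * h := by
      conv_rhs => enter [2]; rw [← cfc_id' ℝ h]
      rw [← cfc_mul _ _ h, ← cfc_one ℝ h, ← cfc_sub _ _ h]
      refine cfc_congr fun t _ => ?_
      have hp : (0 : ℝ) < 2 ^ (n + 1) := by positivity
      simp only [g, Pi.one_apply]
      rcases le_total t (2 ^ (n + 1))⁻¹ with h1 | h1
      · rw [hfa n t (by rwa [← le_div_iff₀' hp, one_div])]; simp
      · rw [max_eq_left h1, div_mul_cancel₀ _ (ne_of_gt (lt_of_lt_of_le (by positivity) h1))]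
    rw [e]
    exact L.mul_mem_left _ hhL
  · have h1 : ∀ n, ‖l i * cfc (f n) h‖ ^ 2 ≤ (r i)⁻¹ * 2⁻¹ ^ n := fun n => by
      have hesa : IsSelfAdjoint (cfc (f n) h) := cfc_predicate _ _
      have h2 : ‖cfc (f n) h * h * cfc (f n) h‖ ≤ 2⁻¹ ^ n := by
        conv_lhs => enter [1, 1, 2]; rw [← cfc_id' ℝ h]
        rw [← cfc_mul _ _ h, ← cfc_mul _ _ h]
        refine norm_cfc_le (by positivity) fun t ht => ?_
        have ht0 : 0 ≤ t := spectrum_nonneg_of_nonneg hh0 ht
        by_cases h1 : 1 ≤ 2 ^ n * t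
        · simp only [hfb n t h1, zero_mul, norm_zero]; positivity
        · have h3 : t ≤ 2⁻¹ ^ n := by
            rw [inv_pow, ← one_div, le_div_iff₀' (by positivity)]; linarith
          have h4 := hf0 n t
          have h5 := hf1 n t
          rw [Real.norm_of_nonneg (by positivity)]
          calc f n t * t * f n t ≤ 1 * t * 1 := by gcongr
            _ ≤ _ := by linarith
      have h3 : r i • (star (l i * cfc (f n) h) * (l i * cfc (f n) h)) ≤
          cfc (f n) h * h * cfc (f n) h := by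
        have := hesa.conjugate_le_conjugate (hmh i)
        simpa only [m, star_mul, hesa.star_eq, mul_smul_comm, smul_mul_assoc, mul_assoc] using this
      have h4 := CStarAlgebra.norm_le_norm_of_nonneg_of_le
        (smul_nonneg (hr i).le (star_mul_self_nonneg _)) h3
      rw [norm_smul, CStarRing.norm_star_mul_self, Real.norm_of_nonneg (hr i).le, ← sq] at h4
      rw [← div_eq_inv_mul, le_div_iff₀' (hr i)]
      exact h4.trans h2
    have h2 : Tendsto (fun n : ℕ => Real.sqrt ((r i)⁻¹ * 2⁻¹ ^ n)) atTop (𝓝 0) := by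
      simpa using ((tendsto_pow_atTop_nhds_zero_of_lt_one (r := (2⁻¹ : ℝ)) (by norm_num)
        (by norm_num)).const_mul (r i)⁻¹).sqrt
    exact squeeze_zero (fun n => norm_nonneg _) (fun n => Real.le_sqrt_of_sq_le (h1 n)) h2

variable {u : Gen → unitary A}

lemma exists_countable_BB (htop : BB u univ = ⊤) {Λ : Set A} (hΛ : Λ.Countable) :
    ∃ T : Set Idx, T.Countable ∧ Λ ⊆ BB u T := by
  have h1 : ∀ x : A, ∃ T : Set Idx, T.Countable ∧ x ∈ BB u T := fun x => by
    have := mem_closure_finite u ∅ univ (x := x) (by rw [empty_union, htop]; trivial)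
    obtain ⟨y, hy, hlim⟩ := mem_closure_iff_seq_limit.1 this
    choose F hF using fun j => mem_iUnion.1 (hy j)
    refine ⟨⋃ j, ↑(F j).1, countable_iUnion fun j => Finset.countable_toSet _,
      (isClosed_BB u _).mem_of_tendsto hlim (Eventually.of_forall fun j => ?_)⟩
    exact BB_mono u (by rw [empty_union]; exact subset_iUnion (fun j => ((F j).1 : Set Idx)) j)
      (hF j)
  choose T hT hT' using h1
  exact ⟨⋃ x ∈ Λ, T x, hΛ.biUnion fun x _ => hT x, fun x hx =>
    BB_mono u (subset_biUnion_of_mem hx) (hT' x)⟩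

lemma isSeparable_BB {T : Set Idx} (hT : T.Countable) :
    TopologicalSpace.IsSeparable (BB u T : Set A) := by
  obtain ⟨c, hc⟩ := Idx.exists_range_superset hT
  refine TopologicalSpace.IsSeparable.mono ?_ (BB_mono u hc)
  rw [BB_range]
  refine TopologicalSpace.IsSeparable.closure ?_
  have := (countable_range (word fun i => u (Sum.map id c i))).isSeparable.span (R := ℂ)
  rwa [← Finsupp.range_linearCombination] at this

/-- Sums of a scalar, an element of `Λ` and an adjoint of an element of `Λ`. -/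
def ZZ (Λ : Set A) : Set A := {z | ∃ c : ℂ, ∃ a ∈ Λ, ∃ b ∈ Λ, z = c • 1 + a + star b}

lemma ZZ_mono {Λ Λ' : Set A} (h : Λ ⊆ Λ') : ZZ Λ ⊆ ZZ Λ' :=
  fun _ ⟨c, a, ha, b, hb, e⟩ => ⟨c, a, h ha, b, h hb, e⟩

lemma exists_countable_ZZ {L : Set A} (hL : ∀ x, x ∈ closure (ZZ L)) {X : Set A}
    (hX : TopologicalSpace.IsSeparable X) :
    ∃ Λ ⊆ L, Λ.Countable ∧ X ⊆ closure (ZZ Λ) := by
  have h1 : ∀ x, ∃ Λ ⊆ L, Λ.Countable ∧ x ∈ closure (ZZ Λ) := fun x => by
    obtain ⟨y, hy, hlim⟩ := mem_closure_iff_seq_limit.1 (hL x)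
    choose c a ha b hb e using hy
    exact ⟨range a ∪ range b, union_subset (range_subset_iff.2 ha) (range_subset_iff.2 hb),
      (countable_range a).union (countable_range b), mem_closure_of_tendsto hlim
      (Eventually.of_forall fun j => ⟨c j, a j, Or.inl ⟨j, rfl⟩, b j, Or.inr ⟨j, rfl⟩, e j⟩)⟩
  choose Λ h1 h2 h3 using h1
  obtain ⟨D, hD, hXD⟩ := hX
  exact ⟨⋃ d ∈ D, Λ d, iUnion₂_subset fun d _ => h1 d, hD.biUnion fun d _ => h2 d,
    hXD.trans (closure_minimal (fun d hd => closure_mono (ZZ_mono (subset_biUnion_of_mem hd)) (h3 d))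
      isClosed_closure)⟩

lemma exists_reflect (htop : BB u univ = ⊤) {L : Set A} (hL : ∀ x, x ∈ closure (ZZ L))
    {Λ₀ : Set A} (h0 : Λ₀.Countable) (h0L : Λ₀ ⊆ L) :
    ∃ S : Set Idx, S.Countable ∧ Idx.Closed S ∧ ∃ Λ ⊆ L, Λ.Countable ∧ Λ₀ ⊆ Λ ∧ Λ ⊆ BB u S ∧
      (BB u S : Set A) ⊆ closure (ZZ Λ) := by
  have step : ∀ T : {T : Set Idx // T.Countable}, ∃ T' : {T : Set Idx // T.Countable},
      T.1 ⊆ T'.1 ∧ Idx.Closed T'.1 ∧ ∃ Λ ⊆ L, Λ.Countable ∧ Λ₀ ⊆ Λ ∧ Λ ⊆ BB u T'.1 ∧
        (BB u T.1 : Set A) ⊆ closure (ZZ Λ) := by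
    rintro ⟨T, hT⟩
    obtain ⟨Λ, h1, h2, h3⟩ := exists_countable_ZZ hL (isSeparable_BB (u := u) hT)
    obtain ⟨T₁, h4, h5⟩ := exists_countable_BB htop (h2.union h0)
    obtain ⟨T₂, h6, h7, h8⟩ := Idx.exists_closed_countable (hT.union h4)
    exact ⟨⟨T₂, h7⟩, subset_union_left.trans h6, h8, Λ ∪ Λ₀, union_subset h1 h0L, h2.union h0,
      subset_union_right, h5.trans (BB_mono u (subset_union_right.trans h6)),
      h3.trans (closure_mono (ZZ_mono subset_union_left))⟩
  choose F h1 h2 Λ h3 h4 h5 h6 h7 using step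
  let T : ℕ → {T : Set Idx // T.Countable} := fun n => F^[n] ⟨∅, countable_empty⟩
  have hT : ∀ n, T (n + 1) = F (T n) := fun n => Function.iterate_succ_apply' F n _
  have hmono : Monotone fun n => (T n).1 := monotone_nat_of_le_succ fun n => by
    rw [hT]; exact h1 _
  refine ⟨⋃ n, (T n).1, countable_iUnion fun n => (T n).2, fun γ hγ δ hδ => ?_, ⋃ n, Λ (T n),
    iUnion_subset fun n => h3 _, countable_iUnion fun n => h4 _,
    subset_iUnion_of_subset 0 (h5 _), iUnion_subset fun n => (h6 _).trans (BB_mono u ?_),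
    fun x hx => ?_⟩
  · obtain ⟨n, hn⟩ := mem_iUnion.1 hγ
    refine mem_iUnion.2 ⟨n + 1, ?_⟩
    rw [hT]; exact h2 _ γ (h1 _ hn) hδ
  · rw [← hT]; exact subset_iUnion (fun n => (T n).1) _
  · refine closure_minimal ?_ isClosed_closure (mem_closure_finite u ∅ (⋃ n, (T n).1)
      (by rwa [empty_union]))
    refine iUnion_subset fun G => ?_
    obtain ⟨n, hn⟩ : ∃ n, (G.1 : Set Idx) ⊆ (T n).1 :=
      hmono.directed_le.exists_mem_subset_of_finset_subset_biUnion G.2
    exact Subset.trans (BB_mono u (by rwa [empty_union]))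
      ((h7 (T n)).trans (closure_mono (ZZ_mono (subset_iUnion (fun n => Λ (T n)) n))))

end Crest.Agent.R120
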