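import Crest.Agent.R120.Est
import Crest.Agent.R120.Link

/-! Peaks extend uniquely to reduced HNN extensions. -/

set_option autoImplicit false
set_option linter.unusedSectionVars false

namespace Crest.Agent.R120

open scoped ComplexOrder InnerProductSpace
open Filter Topology

variable {A : Type*} [CStarAlgebra A] [PartialOrder A] [StarOrderedRing A]

/-- The sequence tends to zero in `L²`. -/
def TNull (τ : A →ₚ[ℂ] ℂ) (e : ℕ → A) : Prop := Tendsto (fun n => n2 τ (e n)) atTop (𝓝 0)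

variable {τ : A →ₚ[ℂ] ℂ} {C : StarSubalgebra ℂ A} {u : A} {P : Bool → ℕ → A}

lemma Data.tnull (h : Data τ C P) (ε : Bool) : TNull τ (P ε) :=
  n2_tendsto_of_tr (h.pseq ε) (h.lim ε)

lemma eventually_small (hτ : IsFT τ) {Q f : ℕ → A} (hQ : PSeq Q) (hf : Nest f) (hf0 : TNull τ f)
    {a : A} (ha : Null f Q a) {η : ℝ} (hη : 0 < η) :
    ∀ᶠ n in atTop, ∀ j, n2 τ (f n * a * qq Q j) ≤ η * n2 τ (qq Q j) := by
  obtain ⟨m, hm⟩ := (ha.norm.eventually (gt_mem_nhds hη)).exists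
  have h1 : ∀ j, ∀ᶠ n in atTop, n2 τ (f n * a * qq Q j) ≤ η * n2 τ (qq Q j) := by
    intro j
    by_cases h0 : qq Q j = 0
    · simp [h0, n2_zero]
    · have h2 : Tendsto (fun n => n2 τ (f n) * ‖a * qq Q j‖) atTop (𝓝 0) := by
        simpa using hf0.mul_const ‖a * qq Q j‖
      filter_upwards [h2.eventually (gt_mem_nhds (mul_pos hη (hτ.n2_pos h0)))] with n hn
      rw [mul_assoc]
      exact (hτ.n2_mul_le' _ _).trans hn.le
  have h2 : ∀ᶠ n in atTop, ∀ j ∈ Finset.range m, n2 τ (f n * a * qq Q j) ≤ η * n2 τ (qq Q j) :=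
    (Finset.eventually_all _).2 fun j _ => h1 j
  filter_upwards [h2, eventually_ge_atTop m] with n hn hnm j
  rcases lt_or_ge j m with hj | hj
  · exact hn j (Finset.mem_range.2 hj)
  · rw [← hQ.mul_qq hj, ← mul_assoc]
    refine (n2_mul_le τ _ _).trans ?_
    rw [hQ.mul_qq hj]
    exact mul_le_mul_of_nonneg_right ((hf.norm_le₂ hQ.toNest hnm le_rfl a).trans hm.le)
      (n2_nonneg _ _)

theorem HNN.null_word (hτ : IsFT τ) (h : HNN τ C u P) {f g : ℕ → A} (hf : Nest f) (hg : Nest g)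
    (hf0 : TNull τ f) (hg0 : TNull τ g) (hfC : ∀ n, f n ∈ C) (hgC : ∀ n, g n ∈ C)
    {ε ε' : Bool} {w a b : A} (hw : Red τ C u P ε ε' w) (ha : a ∈ C) (hb : b ∈ C)
    (hfa : Null f (P ε) a) (hgb : Null (P (!ε')) g b) : Null f g (a * w * b) := by
  refine (null_iff hf hg _).2 fun δ hδ => ?_
  obtain ⟨η, hη, hη1⟩ : ∃ η : ℝ, 0 < η ∧ ‖w‖ * (η * ‖b‖ + η * ‖a‖) < δ := by
    have hc : ContinuousAt (fun η : ℝ => ‖w‖ * (η * ‖b‖ + η * ‖a‖)) 0 := by fun_prop
    have : ∀ᶠ η in 𝓝 (0 : ℝ), ‖w‖ * (η * ‖b‖ + η * ‖a‖) < δ :=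
      hc.eventually (gt_mem_nhds (by simpa using hδ))
    obtain ⟨t, ht1, ht2⟩ := (this.filter_mono nhdsWithin_le_nhds |>.and
      (self_mem_nhdsWithin (s := Set.Ioi (0 : ℝ)))).exists
    exact ⟨t, ht2, ht1⟩
  have h1 := eventually_small hτ (h.data.pseq ε) hf hf0 hfa hη
  have h2 := eventually_small hτ (h.data.pseq (!ε')) hg hg0
    (hgb.star (h.data.pseq _).toNest hg) hη
  obtain ⟨n, hn1, hn2⟩ := (h1.and h2).exists
  refine ⟨n, n, ?_⟩
  have h3 := h.norm_word_le hτ hw (mul_mem (hfC n) ha) (mul_mem hb (hgC n)) hη.le hη.le hn1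
    (by simpa only [star_mul, (hg.sa n).star_eq] using hn2)
  have e : f n * (a * w * b) * g n = f n * a * w * (b * g n) := by simp only [mul_assoc]
  rw [e]
  refine lt_of_le_of_lt (h3.trans ?_) hη1
  have := hg.norm_mul_le' n b
  have := hf.norm_mul_le n a
  gcongr

lemma Pre.null_sgnU_mul (h : Pre τ C u P) {g : ℕ → A} {ε : Bool} {z : A}
    (hz : Null (P (!ε)) g z) : Null (P ε) g (sgnU u ε * z) := by
  have := Tendsto.const_mul (sgnU u ε) hz
  rw [mul_zero] at this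
  refine this.congr fun n => ?_
  rw [← mul_assoc, ← mul_assoc, h.conj']; simp only [mul_assoc]

lemma Data.null_of_cen (hτ : IsFT τ) (h : Data τ C P) {ε : Bool} {x : A} (hx : x ∈ C)
    (hc : Cen τ (P ε) x) : Null (P ε) (P ε) x := by
  by_cases h0 : ∃ n, P ε n = 0
  · obtain ⟨n, hn⟩ := h0
    exact Null.of_left_zero (h.pseq ε).toNest hn x
  push Not at h0
  obtain ⟨c, hcx⟩ := h.peak ε x hx
  have h1 : ∀ n, ‖c‖ ≤ ‖P ε n * (x - c • 1) * P ε n‖ := by
    intro n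
    have hp := (h.pseq ε).proj n
    have h2 := hτ.norm_tr_proj_mul_le hp (P ε n * (x - c • 1) * P ε n)
    have e : τ (P ε n * (P ε n * (x - c • 1) * P ε n)) = -(c * τ (P ε n)) := by
      rw [← mul_assoc, ← mul_assoc, hp.isIdempotentElem.eq, hτ.comm, ← mul_assoc,
        hp.isIdempotentElem.eq, mul_sub, map_sub, hc, mul_smul_comm, mul_one, map_smul, zero_sub,
        smul_eq_mul]
    rw [e, norm_neg, norm_mul] at h2
    exact le_of_mul_le_mul_right h2 (norm_pos_iff.2 (hτ.tr_proj_ne_zero hp (h0 n)))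
  have h2 : ‖c‖ ≤ 0 := ge_of_tendsto' hcx.norm h1
  rw [norm_le_zero_iff] at h2
  simpa [h2] using hcx

lemma HNN.left_reduce (hτ : IsFT τ) (h : HNN τ C u P) {g : ℕ → A} {b : A} {ε' σ : Bool}
    (H1 : ∀ σ' ε a w, a ∈ C → Red τ C u P ε ε' w → Null (P σ') (P ε) a → Null (P σ') g (a * w * b))
    (H2 : ε' = σ → Null (P (!σ)) g b) {ε : Bool} {a w : A} (ha : a ∈ C)
    (hw : Red τ C u P ε ε' w) : Null (P σ) g (a * w * b) := by
  by_cases hσ : σ = ε
  swap
  · exact H1 _ _ _ _ ha hw (h.data.orth' hσ a ha)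
  subst hσ
  obtain ⟨c, hc⟩ := h.data.peak σ a ha
  have e : a * w * b = (a - c • 1) * w * b + c • (w * b) := by
    simp only [sub_mul, smul_mul_assoc, one_mul]; abel
  rw [e]
  refine (H1 _ _ _ _ (sub_mem ha (SMulMemClass.smul_mem c (one_mem C))) hw hc).add
    (Null.smul c ?_)
  cases hw with
  | single => exact (h.pre hτ).null_sgnU_mul (H2 rfl)
  | @cons _ ε₂ _ x w hx hw hcx =>
    rw [mul_assoc, mul_assoc]
    refine (h.pre hτ).null_sgnU_mul ?_
    rw [← mul_assoc]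
    refine H1 _ _ _ _ hx hw ?_
    by_cases h2 : σ = ε₂
    · exact h.data.orth' (by cases σ <;> simp [← h2]) x hx
    · have h3 : (!σ) = ε₂ := by cases σ <;> cases ε₂ <;> simp_all
      rw [h3]; exact h.data.null_of_cen hτ hx (hcx h2)

lemma HNN.null_word_left (hτ : IsFT τ) (h : HNN τ C u P) {g : ℕ → A} (hg : Nest g)
    (hg0 : TNull τ g) (hgC : ∀ n, g n ∈ C) {ε ε' : Bool} {w a b : A} (hw : Red τ C u P ε ε' w)
    (ha : a ∈ C) (hb : b ∈ C) (hgb : Null (P (!ε')) g b) (σ : Bool) :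
    Null (P σ) g (a * w * b) :=
  h.left_reduce hτ (fun σ' _ _ _ ha hw hn => h.null_word hτ (h.data.pseq σ').toNest hg
    (h.data.tnull σ') hg0 (h.data.mem σ') hgC hw ha hb hn hgb) (fun h1 => h1 ▸ hgb) ha hw

lemma HNN.null_word_right (hτ : IsFT τ) (h : HNN τ C u P) {f : ℕ → A} (hf : Nest f)
    (hf0 : TNull τ f) (hfC : ∀ n, f n ∈ C) {ε ε' : Bool} {w a b : A} (hw : Red τ C u P ε ε' w)
    (ha : a ∈ C) (hb : b ∈ C) (hfa : Null f (P ε) a) (σ : Bool) :
    Null f (P σ) (a * w * b) := by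
  have h1 := h.null_word_left hτ hf hf0 hfC ((h.pre hτ).red_star hw) (star_mem hb) (star_mem ha)
    (by simpa using hfa.star hf (h.data.pseq ε).toNest) σ
  simpa only [star_mul, star_star, mul_assoc] using h1.star (h.data.pseq σ).toNest hf

theorem HNN.peak_P (hτ : IsFT τ) (h : HNN τ C u P) (σ : Bool) : Peak (P σ) (ext C u) := by
  intro y hy
  refine (h.pre hτ).ext_induction (S := peakSub (P σ)) (isClosed_peakAt (h.data.pseq σ).toNest)
    (h.data.peak σ) (fun ε ε' w a b hw ha hb => Null.peakAt ?_) hy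
  exact h.left_reduce hτ (fun σ' _ _ _ ha hw hn => h.null_word_right hτ (h.data.pseq σ').toNest
    (h.data.tnull σ') (h.data.mem σ') hw ha hb hn σ)
    (fun _ => h.data.orth' (by cases σ <;> simp) b hb) ha hw

/-- Unique extension of peaks. -/
theorem HNN.peak_ext (hτ : IsFT τ) (h : HNN τ C u P) {e : ℕ → A} (he : Nest e) (he0 : TNull τ e)
    (heC : ∀ n, e n ∈ C) (hp : Peak e C) : Peak e (ext C u) := by
  intro y hy
  by_cases hl : ∃ σ, ∃ x ∈ C, ¬ Null e (P σ) x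
  · obtain ⟨σ, x, hx, hn⟩ := hl
    exact peakAt_of_link he (h.data.pseq σ) (le_ext C u) heC (h.data.mem σ) hp (h.peak_P hτ σ)
      hx hn hy
  push Not at hl
  refine (h.pre hτ).ext_induction (S := peakSub e) (isClosed_peakAt he) hp
    (fun ε ε' w a b hw ha hb => Null.peakAt ?_) hy
  refine h.null_word hτ he he he0 he0 heC heC hw ha hb (hl _ a ha) ?_
  simpa using (hl (!ε') _ (star_mem hb)).star he (h.data.pseq _).toNest

theorem HNN.orth_ext (hτ : IsFT τ) (h : HNN τ C u P) {f g : ℕ → A} (hf : Nest f) (hg : Nest g)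
    (hf0 : TNull τ f) (hg0 : TNull τ g) (hfC : ∀ n, f n ∈ C) (hgC : ∀ n, g n ∈ C)
    (hfP : ∀ ε, Orth f (P ε) C) (hgP : ∀ ε, Orth (P ε) g C) (hfg : Orth f g C) :
    Orth f g (ext C u) := fun _ hy =>
  (h.pre hτ).ext_induction (S := nullSub f g) (isClosed_null hf hg) hfg
    (fun _ _ _ a b hw ha hb =>
      h.null_word hτ hf hg hf0 hg0 hfC hgC hw ha hb (hfP _ a ha) (hgP _ b hb)) hy

theorem HNN.orth_ext_P (hτ : IsFT τ) (h : HNN τ C u P) {f : ℕ → A} (hf : Nest f)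
    (hf0 : TNull τ f) (hfC : ∀ n, f n ∈ C) (hfP : ∀ ε, Orth f (P ε) C) (σ : Bool) :
    Orth f (P σ) (ext C u) := fun _ hy =>
  (h.pre hτ).ext_induction (S := nullSub f (P σ)) (isClosed_null hf (h.data.pseq σ).toNest)
    (hfP σ) (fun _ _ _ a _ hw ha hb => h.null_word_right hτ hf hf0 hfC hw ha hb (hfP _ a ha) σ) hy

end Crest.Agent.R120
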