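import Crest.Agent.R120.Sys
import Crest.Agent.R120.UEP
import Crest.Agent.R120.FreeLem

/-! Peaks extend from closed index sets to the whole algebra. -/

set_option autoImplicit false
set_option linter.unusedSectionVars false

namespace Crest.Agent.R120

open scoped ComplexOrder InnerProductSpace
open Filter Topology Set

variable {A : Type*} [CStarAlgebra A] [PartialOrder A] [StarOrderedRing A]

/-- All indices are good, with chosen gluing data. -/
structure Good (u : Gen → unitary A) (τ : A →ₚ[ℂ] ℂ) (PP : Idx → Bool → ℕ → A) : Prop where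
  ft : IsFT τ
  base : Base u τ
  hnn : ∀ α, HNN τ (BB u (Iio α)) (u (.inr α)) (PP α)
  alt : ∀ α, Valid u τ α (PP α) ∨ ((∀ P', ¬ Valid u τ α P') ∧ PP α = finP (defR u α))

variable {u : Gen → unitary A} {τ : A →ₚ[ℂ] ℂ} {PP : Idx → Bool → ℕ → A}

lemma Peak.anti {e : ℕ → A} {C C' : StarSubalgebra ℂ A} (h : Peak e C') (hC : C ≤ C') : Peak e C :=
  fun x hx => h x (hC hx)

lemma Orth.anti {e f : ℕ → A} {C C' : StarSubalgebra ℂ A} (h : Orth e f C') (hC : C ≤ C') :
    Orth e f C := fun x hx => h x (hC hx)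

lemma Orth.symm {e f : ℕ → A} {C : StarSubalgebra ℂ A} (h : Orth e f C) (he : Nest e)
    (hf : Nest f) : Orth f e C := fun x hx => by simpa using (h _ (star_mem hx)).star he hf

lemma peak_chain (hτ : IsFT τ) (T₀ T₁ : Set Idx)
    (h : ∀ γ ∈ T₁, γ ∉ T₀ → HNN τ (BB u (T₀ ∪ (T₁ ∩ Iio γ))) (u (.inr γ)) (PP γ)) {e : ℕ → A}
    (he : Nest e) (he0 : TNull τ e) (heC : ∀ n, e n ∈ BB u T₀) (hp : Peak e (BB u T₀)) :
    Peak e (BB u (T₀ ∪ T₁)) := by
  refine chain_induction (fun T => Peak e (BB u T)) T₀ T₁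
    (fun T T' _ hT h => h.anti (BB_mono u hT)) (fun T hT x hx => ?_) hp fun γ h1 h0 hQ => ?_
  · refine closure_minimal ?_ (isClosed_peakAt he) (mem_closure_finite u T₀ T hx)
    exact iUnion_subset fun F y hy => hT F.1 F.2 y hy
  · rw [BB_insert]
    exact (h γ h1 h0).peak_ext hτ he he0 (fun n => BB_mono u subset_union_left (heC n)) hQ

lemma PSeq.star_mem_Dsp {P : ℕ → A} (h : PSeq P) {d : A} (hd : d ∈ Dsp P) : star d ∈ Dsp P := by
  let S : Submodule ℂ A :=
    { carrier := {x | star x ∈ Dsp P}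
      add_mem' := fun {a b} ha hb => by
        change star (a + b) ∈ Dsp P
        rw [star_add]; exact add_mem ha hb
      zero_mem' := by change star 0 ∈ Dsp P; rw [star_zero]; exact zero_mem _
      smul_mem' := fun c a ha => by
        change star (c • a) ∈ Dsp P
        rw [star_smul]; exact Submodule.smul_mem _ _ ha }
  refine Dsp_le (S := S) ((isClosed_Dsp P).preimage continuous_star) (fun n => ?_) hd
  change star (P n) ∈ Dsp P
  rw [(h.proj n).isSelfAdjoint.star_eq]; exact mem_Dsp P n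

lemma Base.peak_empty (h : Base u τ) : Peak (rho u) (BB u ∅) := by
  have h1 : (1 : A) ∈ Dsp (rho u) := h.pseq.zero ▸ mem_Dsp _ 0
  let D : StarSubalgebra ℂ A :=
    { carrier := Dsp (rho u)
      mul_mem' := h.pseq.mul_mem_Dsp
      add_mem' := add_mem
      algebraMap_mem' := fun c => by
        rw [Algebra.algebraMap_eq_smul_one]; exact Submodule.smul_mem _ _ h1
      star_mem' := h.pseq.star_mem_Dsp }
  have h2 : BB u ∅ ≤ D := by
    refine BB_le u (isClosed_Dsp _) ?_
    rintro _ (⟨k, rfl⟩ | ⟨_, h, -⟩)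
    · have : (u (.inl k) : A) = 1 - (2 : ℂ) • rho u k := by simp [rho, smul_smul]
      rw [this]
      exact Submodule.sub_mem (Dsp (rho u)) h1 (Submodule.smul_mem _ _ (mem_Dsp _ k))
    · exact absurd h (notMem_empty _)
  intro x hx
  refine Dsp_le (S := peakSub (rho u)) (isClosed_peakAt h.pseq.toNest) (fun k => ⟨1, ?_⟩) (h2 hx)
  refine tendsto_const_nhds.congr' ?_
  filter_upwards [eventually_ge_atTop k] with n hn
  rw [one_smul, mul_sub, h.pseq.nest k n hn, mul_one, sub_self, zero_mul]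

namespace Good

lemma mem_ch (h : Good u τ PP) (γ : Idx) (ε : Bool) (n : ℕ) : PP γ ε n ∈ BB u (Idx.ch γ) := by
  rcases h.alt γ with ⟨c, y, k, rfl, -, h1, h2, -⟩ | ⟨-, h1⟩
  · cases ε
    · exact (isClosed_BB u _).mem_of_tendsto (h1 n) (Eventually.of_forall fun j => ev_mem_BB u c _)
    · rw [h2]; exact rho_mem_BB u _ _
  · rw [h1]; exact (h.base.data_def _ γ).mem ε n

lemma peak_of_Iio (h : Good u τ PP) {T₀ : Set Idx} (hT : IsLowerSet T₀) {e : ℕ → A}
    (he : Nest e) (he0 : TNull τ e) (heC : ∀ n, e n ∈ BB u T₀) (hp : Peak e (BB u T₀)) :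
    Peak e (BB u univ) := by
  have := peak_chain h.ft T₀ univ (PP := PP) (fun γ _ h0 => ?_) he he0 heC hp
  · rwa [union_univ] at this
  · rw [univ_inter, union_eq_right.2 fun β hβ => ?_]
    · exact h.hnn γ
    · by_contra h1
      exact h0 (hT (not_lt.1 h1) hβ)

lemma peak_rho (h : Good u τ PP) : Peak (rho u) (BB u univ) :=
  h.peak_of_Iio isLowerSet_empty h.base.pseq.toNest h.base.tnull (rho_mem_BB u _)
    h.base.peak_empty

lemma peak_PP (h : Good u τ PP) (β : Idx) (ε : Bool) : Peak (PP β ε) (BB u univ) :=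
  h.peak_of_Iio (isLowerSet_Iio β) ((h.hnn β).data.pseq ε).toNest ((h.hnn β).data.tnull ε)
    ((h.hnn β).data.mem ε) ((h.hnn β).data.peak ε)

lemma cases (h : Good u τ PP) (γ : Idx) : (∀ ε, PP γ ε 2 = 0) ∨
    ∃ k : ℕ → ℕ, StrictMono k ∧ PP γ true = fun n => rho u (k n) := by
  rcases h.alt γ with ⟨c, y, k, rfl, hk, -, h2, -⟩ | ⟨-, h1⟩
  · exact Or.inr ⟨k, hk, funext h2⟩
  · exact Or.inl fun ε => by rw [h1, finP_two]

lemma hnn_of (h : Good u τ PP) {β : Idx} {T : Set Idx} (hT : Iio β ⊆ T)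
    (h1 : Free τ (BB u T) (u (.inr β)) (PP β)) (h2 : Orth (PP β true) (PP β false) (BB u T)) :
    HNN τ (BB u T) (u (.inr β)) (PP β) :=
  have hd := (h.hnn β).data
  ⟨isClosed_BB _ _, ⟨hd.pseq, fun ε n => BB_mono u hT (hd.mem ε n), hd.tr_eq, hd.lim,
    fun ε => (h.peak_PP β ε).anti (BB_mono u (subset_univ _)), h2⟩, (h.hnn β).unit, (h.hnn β).conj,
    h1⟩

theorem hnn_closed (h : Good u τ PP) {S : Set Idx} (hS : Idx.Closed S) {β : Idx} (hβ : β ∉ S) :
    HNN τ (BB u (Iio β ∪ S)) (u (.inr β)) (PP β) := by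
  have hd := (h.hnn β).data
  have hN := fun ε => (hd.pseq ε).toNest
  have hρ := h.base.pseq.toNest
  have := chain_induction (fun T => Free τ (BB u T) (u (.inr β)) (PP β) ∧
    Orth (PP β true) (PP β false) (BB u T)) (Iio β) S
    (fun T T' _ hT h => ⟨h.1.anti (BB_mono u hT), h.2.anti (BB_mono u hT)⟩) (fun T hT => ?_)
    ⟨(h.hnn β).free, hd.orth⟩ fun γ hγ hγ0 hQ => ?_
  · exact h.hnn_of subset_union_left this.1 this.2
  · classical
    have ho : Orth (PP β true) (PP β false) (BB u (Iio β ∪ T)) := fun x hx => by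
      refine closure_minimal ?_ (isClosed_null (hN _) (hN _)) (mem_closure_finite u _ T hx)
      exact iUnion_subset fun F y hy => (hT F.1 F.2).2 y hy
    refine ⟨free_of_directed h.ft (C' := BB u (Iio β ∪ T))
      ⟨hd.pseq, fun ε n => BB_mono u subset_union_left (hd.mem ε n), hd.tr_eq, hd.lim,
        fun ε => (h.peak_PP β ε).anti (BB_mono u (subset_univ _)), ho⟩
      (fun F : {F : Finset Idx // ↑F ⊆ T} => BB u (Iio β ∪ F.1)) ?_ (fun F => isClosed_BB _ _)
      (fun F => BB_mono u (union_subset_union_right _ F.2))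
      (fun F ε n => BB_mono u subset_union_left (hd.mem ε n))
      (fun x hx => mem_closure_finite u _ T hx) fun F => (hT F.1 F.2).1, ho⟩
    rintro ⟨F, hF⟩ ⟨F', hF'⟩
    exact ⟨⟨F ∪ F', by simp [hF, hF']⟩, BB_mono u (union_subset_union_right _ (by simp)),
      BB_mono u (union_subset_union_right _ (by simp))⟩
  set T := Iio β ∪ (S ∩ Iio γ) with hT
  have hβγ : β < γ := lt_of_le_of_ne (not_lt.1 hγ0) (by rintro rfl; exact hβ hγ)
  have hTγ : T ∪ {β} ⊆ Iio γ := by
    rintro δ ((hδ | hδ) | rfl)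
    · exact lt_trans hδ hβγ
    · exact hδ.2
    · exact hβγ
  have hu : HNN τ (BB u T) (u (.inr β)) (PP β) := h.hnn_of subset_union_left hQ.1 hQ.2
  have hm : ∀ ε n, PP γ ε n ∈ BB u T := fun ε n => BB_mono u
    (fun δ hδ => Or.inr ⟨hS γ hγ hδ, Idx.lt_of_mem_ch hδ⟩) (h.mem_ch γ ε n)
  have hv : HNN τ (BB u (T ∪ {β})) (u (.inr γ)) (PP γ) :=
    (h.hnn γ).anti (isClosed_BB _ _) (BB_mono u hTγ) fun ε n => BB_mono u subset_union_left (hm ε n)
  have hv' : HNN τ (BB u T) (u (.inr γ)) (PP γ) :=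
    hv.anti (isClosed_BB _ _) (BB_mono u subset_union_left) hm
  have hNγ := fun ε => (hv.data.pseq ε).toNest
  rw [BB_insert]
  refine ⟨free_comm h.ft hu (BB_insert u T β ▸ hv) hm, ?_⟩
  rcases h.cases β with h0 | ⟨k, hk, hk'⟩
  · exact fun x _ => Null.of_left_zero (hN _) (h0 _) x
  rcases h.cases γ with h0 | ⟨l, hl, hl'⟩
  · exact hv'.orth_ext h.ft (hN _) (hN _) (hd.tnull _) (hd.tnull _) (hu.data.mem _) (hu.data.mem _)
      (fun ε x _ => Null.of_right_zero (hNγ ε) (h0 ε) x)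
      (fun ε x _ => Null.of_left_zero (hNγ ε) (h0 ε) x) hQ.2
  have key : ∀ {g : ℕ → A} {x : A}, Nest g → (Null (PP β true) g x ↔ Null (PP γ true) g x) :=
    fun hg => by rw [hk', hl', null_comp_left hρ hg hk, null_comp_left hρ hg hl]
  have h1 := hv'.orth_ext_P h.ft (hN false) (hd.tnull _) (hu.data.mem _) (fun ε => ?_) true
  · exact fun x hx => (key (hN _)).2 (h1.symm (hN _) (hNγ _) x hx)
  cases ε
  · intro x hx
    have h2 := (hu.pre h.ft).null_sgnU_mul (ε := false) ((key (hNγ false)).2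
      (hv.data.orth _ (mul_mem (u_mem_BB u (inr_mem_gens.2 (Or.inr rfl)))
        (BB_mono u subset_union_left hx))))
    have e : sgnU (u (.inr β) : A) false * (u (.inr β) * x) = x := by
      rw [← mul_assoc]
      change star (u (.inr β) : A) * _ * _ = _
      rw [Unitary.coe_star_mul_self, one_mul]
    rwa [e] at h2
  · exact Orth.symm (fun x hx => (key (hN _)).1 (hQ.2 x hx)) (hNγ _) (hN _)

theorem peak_of_closed (h : Good u τ PP) {S : Set Idx} (hS : Idx.Closed S) {e : ℕ → A}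
    (he : Nest e) (he0 : TNull τ e) (heC : ∀ n, e n ∈ BB u S) (hp : Peak e (BB u S)) :
    Peak e (BB u univ) := by
  have := peak_chain h.ft S univ (PP := PP) (fun γ _ h0 => ?_) he he0 heC hp
  · rwa [union_univ] at this
  · rw [univ_inter, union_comm]
    exact h.hnn_closed hS h0

end Good

end Crest.Agent.R120
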