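import Crest.Agent.R120.Sys
import Crest.Agent.R120.GroupGNS
import Crest.Agent.R120.Fock

/-! The base stage and the successor stage of the construction. -/

set_option autoImplicit false
set_option linter.unusedSectionVars false

namespace Crest.Agent.R120

open scoped ComplexOrder InnerProductSpace BoundedContinuousFunction
open Filter Topology Set

theorem exists_model_lift {G : Type} {B : Type*} [CStarAlgebra B] [PartialOrder B]
    [StarOrderedRing B] (φ : B →ₚ[ℂ] ℂ) (h1 : φ 1 = 1) (v : G → unitary B)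
    (hc : ∀ g h, φ (word v g * word v h) = φ (word v h * word v g)) :
    ∃ (M : Model G) (Ψ : gen (range fun i => (v i : B)) →⋆ₐ[ℂ] M.A),
      (∀ i h, Ψ ⟨v i, h⟩ = M.u i) ∧ ∀ x, M.τ (Ψ x) = φ x := by
  obtain ⟨M, hM⟩ := exists_model (fun g => φ (word v g)) (by simp [lift_word_one, h1])
    (fun g h => by simpa [lift_word_mul] using hc g h) (char_star φ v) (char_pos φ v)
  obtain ⟨Ψ, h1, h2⟩ := exists_lift φ M.τ M.ft.faithful v M.u fun g => (hM g).symm
  exact ⟨M, Ψ, h1, h2⟩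

theorem exists_base : ∃ M : Model Gen, Base M.u M.τ ∧ ∀ α, M.u (.inr α) = 1 := by
  let B := ℕ →ᵇ ℂ
  let _ : PartialOrder B := CStarAlgebra.spectralOrder B
  have _ : StarOrderedRing B := CStarAlgebra.spectralOrderedRing B
  have hs : ∀ f : B, Summable fun j => (2⁻¹ : ℂ) ^ (j + 1) * f j := fun f => by
    refine Summable.of_norm_bounded (g := fun j => (2⁻¹ : ℝ) ^ j * ‖f‖)
      ((summable_geometric_two.mul_right ‖f‖).congr fun j => by simp) fun j => ?_
    rw [norm_mul, norm_pow, norm_inv, Complex.norm_ofNat]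
    exact mul_le_mul (pow_le_pow_of_le_one (by norm_num) (by norm_num) (Nat.le_succ j))
      (f.norm_coe_le_norm j) (norm_nonneg _) (by positivity)
  let t : B →ₗ[ℂ] ℂ :=
    { toFun := fun f => ∑' j, (2⁻¹ : ℂ) ^ (j + 1) * f j
      map_add' := fun f g => by
        rw [← (hs f).tsum_add (hs g)]
        exact tsum_congr fun j => by rw [← mul_add]; rfl
      map_smul' := fun c f => by
        rw [RingHom.id_apply, smul_eq_mul, ← tsum_mul_left]
        exact tsum_congr fun j => by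
          change _ * (c * f j) = _
          ring }
  let φ : B →ₚ[ℂ] ℂ := PositiveLinearMap.mk₀ t fun x hx => by
    obtain ⟨y, rfl⟩ := CStarAlgebra.nonneg_iff_eq_star_mul_self.1 hx
    refine tsum_nonneg fun j => mul_nonneg (by positivity) ?_
    exact star_mul_self_nonneg (y j)
  have hφ : ∀ f : B, φ f = ∑' j, (2⁻¹ : ℂ) ^ (j + 1) * f j := fun _ => rfl
  let s : ℕ → B := fun k => BoundedContinuousFunction.ofNormedAddCommGroupDiscrete
    (fun j => if k ≤ j then -1 else 1) 1 fun j => by split_ifs <;> simp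
  have hs' : ∀ k j, s k j = if k ≤ j then -1 else 1 := fun _ _ => rfl
  have hsu : ∀ k, s k ∈ unitary B := fun k => by
    rw [Unitary.mem_iff]
    constructor <;> ext j
    · change star (s k j) * s k j = 1
      rw [hs']; split_ifs <;> simp
    · change s k j * star (s k j) = 1
      rw [hs']; split_ifs <;> simp
  let v : Gen → unitary B := Sum.elim (fun k => ⟨s k, hsu k⟩) fun _ => 1
  have hρ : ∀ k j, rho v k j = if k ≤ j then 1 else 0 := fun k j => by
    change (2⁻¹ : ℂ) * (1 - s k j) = _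
    rw [hs']; split_ifs <;> norm_num
  have hφρ : ∀ k, φ (rho v k) = 2⁻¹ ^ k := fun k => by
    have h1 := congrArg (fun r : ℝ => ((2⁻¹ * r : ℝ) : ℂ)) (tsum_geometric_inv_two_ge k)
    simp only [← tsum_mul_left, Complex.ofReal_tsum] at h1
    rw [hφ]
    refine (tsum_congr fun j => ?_).trans (h1.trans ?_)
    · rw [hρ]; split_ifs <;> simp [pow_succ']
    · simp
  have hφ1 : φ 1 = 1 := by
    have : rho v 0 = 1 := by ext j; simp [hρ]
    simpa [this] using hφρ 0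
  obtain ⟨M, Ψ, h1, h2⟩ := exists_model_lift φ hφ1 v fun g h => by rw [mul_comm]
  have hm : ∀ i, (v i : B) ∈ gen (range fun i => (v i : B)) := fun i => subset_gen _ ⟨i, rfl⟩
  let r : ℕ → gen (range fun i => (v i : B)) := fun k => (2⁻¹ : ℂ) • (1 - ⟨_, hm (.inl k)⟩)
  have hr : ∀ k, (r k : B) = rho v k := fun _ => rfl
  have hr' : ∀ k, rho M.u k = Ψ (r k) := fun k => by simp [r, rho, h1]
  refine ⟨M, ⟨⟨fun k => ?_, ?_, fun n m hnm => ?_⟩, fun k => by rw [hr', h2, hr, hφρ]⟩,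
    fun α => Subtype.ext ?_⟩
  · rw [hr']
    refine IsStarProjection.map ⟨Subtype.ext ?_, Subtype.ext ?_⟩ Ψ
    · ext j
      change rho v k j * rho v k j = rho v k j
      rw [hρ]; split_ifs <;> simp
    · ext j
      change star (rho v k j) = rho v k j
      rw [hρ]; split_ifs <;> simp
  · rw [hr', ← map_one Ψ]
    congr 1
    ext j
    change rho v 0 j = 1
    simp [hρ]
  · rw [hr', hr', ← map_mul]
    congr 1
    ext j
    change rho v m j * rho v n j = rho v m j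
    rw [hρ, hρ]; split_ifs <;> simp; omega
  · rw [← h1 _ (hm _)]
    exact map_one Ψ

theorem exists_hnn {G : Type} (M : Model G) {P : Bool → ℕ → M.A} (hd : Data M.τ ⊤ P) (i₀ : G)
    (h0 : M.u i₀ = 1) : ∃ (M' : Model G) (Φ : M.A →⋆ₐ[ℂ] M'.A), (∀ x, M'.τ (Φ x) = M.τ x) ∧
      (∀ i, i ≠ i₀ → Φ (M.u i) = M'.u i) ∧
      (∀ n, M'.u i₀ * Φ (P false n) = Φ (P true n) * M'.u i₀) ∧
      Free M'.τ Φ.range (M'.u i₀) fun ε n => Φ (P ε n) := by
  classical
  obtain ⟨H, _, _, _, lam, Ω, U, V, W, h1, h2, h3, h4, h5, h6, h7, h8⟩ := exists_fock M.τ M.ft P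
    (fun ε => (hd.pseq ε).proj) (fun ε => (hd.pseq ε).zero) (fun ε => (hd.pseq ε).nest) hd.tr_eq
    hd.lim
  let t : (H →L[ℂ] H) →L[ℂ] ℂ := (innerSL ℂ Ω).comp (ContinuousLinearMap.apply ℂ H Ω)
  let φ : (H →L[ℂ] H) →ₚ[ℂ] ℂ := PositiveLinearMap.mk₀ t.toLinearMap fun x hx => by
    obtain ⟨y, rfl⟩ := CStarAlgebra.nonneg_iff_eq_star_mul_self.1 hx
    change 0 ≤ ⟪Ω, star y (y Ω)⟫_ℂ
    rw [ContinuousLinearMap.star_eq_adjoint, ContinuousLinearMap.adjoint_inner_right,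
      inner_self_eq_norm_sq_to_K]
    positivity
  have hφ : ∀ x, φ x = ⟪Ω, x Ω⟫_ℂ := fun _ => rfl
  have hφl : ∀ a, φ (lam a) = M.τ a := h1
  have hi := injective_of_tr M.ft hφl
  have hiso := NonUnitalStarAlgHom.isometry lam hi
  have hcl : IsClosed (lam.range : Set (H →L[ℂ] H)) := hiso.isClosedEmbedding.isClosed_range
  have hcen : ∀ ε a, Cen φ (fun n => lam (P ε n)) (lam a) ↔ Cen M.τ (P ε) a := fun ε a =>
    forall_congr' fun n => by rw [← map_mul, hφl]
  have hpre : Pre φ lam.range U fun ε n => lam (P ε n) := by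
    refine ⟨hcl, fun ε => (pseq_map hi _).2 (hd.pseq ε), fun ε n => ⟨_, rfl⟩, h2, h3, ?_, ?_⟩
    · rintro _ ⟨a, rfl⟩ _ ⟨b, rfl⟩
      change φ (lam a * lam b) = φ (lam b * lam a)
      rw [← map_mul, ← map_mul, hφl, hφl, M.ft.comm]
    · rintro ε _ ⟨a, rfl⟩
      obtain ⟨d, hd1, hd2, -⟩ := hd.dec M.ft ε (x := a) trivial
      refine ⟨lam d, Dsp_map ⟨lam.toAlgHom.toLinearMap, hiso.continuous⟩ (isClosed_Dsp _)
        (fun n => mem_Dsp (fun n => lam (P ε n)) n) hd1, ?_⟩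
      change Cen φ _ (lam a - lam d)
      rw [← map_sub]; exact (hcen _ _).2 hd2
  have hfree : Free φ lam.range U fun ε n => lam (P ε n) := by
    have key : ∀ ε ε' w, Red φ lam.range U (fun ε n => lam (P ε n)) ε ε' w →
        ∀ ζ ∈ W (!ε'), w ζ ∈ V ε := by
      intro ε ε' w hw
      induction hw with
      | single ε => exact h4 ε
      | @cons ε ε' ε'' x w hx _ hc ih =>
        intro ζ hζ
        obtain ⟨a, rfl⟩ := hx
        refine h4 ε _ ?_
        by_cases hε : ε = ε'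
        · subst hε; exact h6 ε a _ (ih ζ hζ)
        · obtain rfl : ε' = !ε := by cases ε <;> cases ε' <;> simp_all
          exact h7 _ a ((hcen _ _).1 (hc hε)) _ (ih ζ hζ)
    rintro ε ε' w hw _ ⟨a, rfl⟩ _ ⟨b, rfl⟩
    exact h8 ε a _ (key _ _ _ hw _ (h5 _ b))
  let v : G → unitary (H →L[ℂ] H) := fun i => if i = i₀ then ⟨U, h2⟩ else
    ⟨lam (M.u i), Unitary.map_mem lam (M.u i).2⟩
  have hv0 : (v i₀ : H →L[ℂ] H) = U := by simp [v]
  have hv1 : ∀ i, i ≠ i₀ → (v i : H →L[ℂ] H) = lam (M.u i) := fun i hi => by simp [v, hi]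
  have hle : gen (range fun i => (v i : H →L[ℂ] H)) ≤ ext lam.range U := by
    refine gen_le (isClosed_ext _ _) ?_
    rintro _ ⟨i, rfl⟩
    by_cases hi : i = i₀
    · simp only [hi, hv0]; exact mem_ext _ _
    · simp only [hv1 i hi]; exact le_ext _ _ ⟨_, rfl⟩
  have hm : ∀ i, (v i : H →L[ℂ] H) ∈ gen (range fun i => (v i : H →L[ℂ] H)) := fun i =>
    subset_gen _ ⟨i, rfl⟩
  have hlam : ∀ a, lam a ∈ gen (range fun i => (v i : H →L[ℂ] H)) := fun a => by
    have : a ∈ gen (range fun i => (M.u i : M.A)) := M.gen_eq ▸ trivial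
    refine gen_le (C := (gen (range fun i => (v i : H →L[ℂ] H))).comap lam)
      ((isClosed_gen _).preimage hiso.continuous) ?_ this
    rintro _ ⟨i, rfl⟩
    change lam (M.u i) ∈ gen _
    by_cases hi : i = i₀
    · rw [hi, h0, OneMemClass.coe_one, map_one]; exact one_mem _
    · rw [← hv1 i hi]; exact hm i
  obtain ⟨M', Ψ, hΨ1, hΨ2⟩ := exists_model_lift φ (by rw [← map_one lam, hφl, M.ft.one]) v
    fun g h => hpre.tr_comm hfree (fun n => by simp only [hφl, hd.tr_eq])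
      (hle (lift_word_mem v g)) (hle (lift_word_mem v h))
  have hU : U ∈ gen (range fun i => (v i : H →L[ℂ] H)) := hv0 ▸ hm i₀
  have hΨU : Ψ ⟨U, hU⟩ = M'.u i₀ := by rw [← hΨ1 i₀ (hm i₀)]; congr 2; exact hv0.symm
  let Φ : M.A →⋆ₐ[ℂ] M'.A := Ψ.comp (lam.codRestrict _ hlam)
  have hΦ : ∀ a, Φ a = Ψ ⟨lam a, hlam a⟩ := fun _ => rfl
  refine ⟨M', Φ, fun x => by rw [hΦ, hΨ2, hφl], fun i hi => ?_, fun n => ?_, ?_⟩
  · rw [hΦ, ← hΨ1 i (hm i)]; congr 2; exact (hv1 i hi).symm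
  · rw [hΦ, hΦ, ← hΨU, ← map_mul, ← map_mul]
    congr 1
    exact Subtype.ext (h3 n)
  · refine hfree.transfer (fun x x' => ∃ h, Ψ ⟨x, h⟩ = x') ?_ ?_ (fun ε => ?_)
      (fun ε n => ⟨hlam _, rfl⟩) ?_
    · rintro a _ b _ ⟨ha, rfl⟩ ⟨hb, rfl⟩
      exact ⟨mul_mem ha hb, map_mul Ψ ⟨a, ha⟩ ⟨b, hb⟩⟩
    · rintro a _ ⟨ha, rfl⟩
      exact (hΨ2 ⟨a, ha⟩).symm
    · cases ε
      · have e1 : sgnU U false = star U := rfl
        have e2 : sgnU (M'.u i₀ : M'.A) false = star (M'.u i₀ : M'.A) := rfl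
        rw [e1, e2, ← hΨU, ← map_star]
        exact ⟨star_mem hU, rfl⟩
      · exact ⟨hU, hΨU⟩
    · rintro _ ⟨a, rfl⟩
      exact ⟨lam a, ⟨a, rfl⟩, hlam a, rfl⟩

end Crest.Agent.R120
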