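import Crest.Agent.R120.Proj
import Crest.Agent.R120.Index
import Crest.Agent.R120.Lift

/-! Systems of unitaries indexed by `ℕ ⊕ Idx`, goodness of an index, and transfer along
trace preserving embeddings. -/

set_option autoImplicit false
set_option linter.unusedSectionVars false

namespace Crest.Agent.R120

open scoped ComplexOrder InnerProductSpace
open Filter Topology Set

/-- Generators: symmetries for the root projections, and the gluing unitaries. -/
abbrev Gen : Type := ℕ ⊕ Idx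

/-- The generators attached to a set of indices. -/
def gens (T : Set Idx) : Set Gen := range Sum.inl ∪ Sum.inr '' T

lemma inl_mem_gens (T : Set Idx) (k : ℕ) : Sum.inl k ∈ gens T := Or.inl ⟨k, rfl⟩

lemma inr_mem_gens {T : Set Idx} {α : Idx} : Sum.inr α ∈ gens T ↔ α ∈ T := by simp [gens]

lemma gens_mono {T T' : Set Idx} (h : T ⊆ T') : gens T ⊆ gens T' :=
  union_subset_union_right _ (image_mono h)

section

variable {A : Type*} [CStarAlgebra A] (u : Gen → unitary A)

/-- The root projections. -/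
noncomputable def rho (k : ℕ) : A := (2⁻¹ : ℂ) • (1 - (u (.inl k) : A))

/-- The closed subalgebra attached to a set of indices. -/
noncomputable def BB (T : Set Idx) : StarSubalgebra ℂ A := gen ((fun i => (u i : A)) '' gens T)

/-- Evaluation of a formal combination of words. -/
noncomputable def ev (c : ℕ → Idx) (y : FreeGroup (ℕ ⊕ ℕ) →₀ ℂ) : A :=
  Finsupp.linearCombination ℂ (word fun i => u (Sum.map id c i)) y

/-- Default finite gluing data. -/
noncomputable def defR : Idx → Bool → A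
  | .leaf j => fun ε => if ε then rho u j - rho u (j + 1) else rho u (j + 1)
  | .node _ _ => fun _ => 0

lemma isClosed_BB (T : Set Idx) : IsClosed (BB u T : Set A) := isClosed_gen _

lemma BB_mono {T T' : Set Idx} (h : T ⊆ T') : BB u T ≤ BB u T' :=
  gen_mono (image_mono (gens_mono h))

lemma u_mem_BB {T : Set Idx} {i : Gen} (h : i ∈ gens T) : (u i : A) ∈ BB u T :=
  subset_gen _ ⟨i, h, rfl⟩

lemma rho_mem_BB (T : Set Idx) (k : ℕ) : rho u k ∈ BB u T :=
  SMulMemClass.smul_mem _ (sub_mem (one_mem _) (u_mem_BB u (inl_mem_gens T k)))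

lemma BB_le {T : Set Idx} {C : StarSubalgebra ℂ A} (hC : IsClosed (C : Set A))
    (h : ∀ i ∈ gens T, (u i : A) ∈ C) : BB u T ≤ C :=
  gen_le hC (by rintro _ ⟨i, hi, rfl⟩; exact h i hi)

lemma BB_insert (T : Set Idx) (γ : Idx) : BB u (T ∪ {γ}) = ext (BB u T) (u (.inr γ)) := by
  refine le_antisymm (BB_le u (isClosed_ext _ _) ?_) (gen_le (isClosed_BB u _) ?_)
  · rintro _ (⟨k, rfl⟩ | ⟨α, hα | rfl, rfl⟩)
    · exact le_ext _ _ (u_mem_BB u (inl_mem_gens T k))
    · exact le_ext _ _ (u_mem_BB u (inr_mem_gens.2 hα))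
    · exact mem_ext _ _
  · rintro x (hx | rfl)
    · exact BB_mono u subset_union_left hx
    · exact u_mem_BB u (inr_mem_gens.2 (Or.inr rfl))

lemma BB_range (c : ℕ → Idx) : (BB u (range c) : Set A) = closure (range (ev u c)) := by
  have h1 : (fun i => (u i : A)) '' gens (range c) =
      range fun i : ℕ ⊕ ℕ => (u (Sum.map id c i) : A) := by
    ext x; constructor
    · rintro ⟨_, ⟨k, rfl⟩ | ⟨_, ⟨j, rfl⟩, rfl⟩, rfl⟩
      · exact ⟨.inl k, rfl⟩
      · exact ⟨.inr j, rfl⟩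
    · rintro ⟨k | j, rfl⟩
      · exact ⟨_, inl_mem_gens _ k, rfl⟩
      · exact ⟨_, inr_mem_gens.2 ⟨j, rfl⟩, rfl⟩
  rw [BB, h1, gen_range_eq_closure_span, ← Finsupp.range_linearCombination]
  rfl

lemma ev_mem_BB (c : ℕ → Idx) (y : FreeGroup (ℕ ⊕ ℕ) →₀ ℂ) : ev u c y ∈ BB u (range c) := by
  change _ ∈ (BB u (range c) : Set A)
  rw [BB_range]; exact subset_closure ⟨y, rfl⟩

lemma defR_mem (T : Set Idx) (α : Idx) (ε : Bool) : defR u α ε ∈ BB u T := by
  cases α with
  | leaf j =>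
    cases ε
    · exact rho_mem_BB u T _
    · exact sub_mem (rho_mem_BB u T _) (rho_mem_BB u T _)
  | node c x => exact zero_mem _

/-- Every element of `BB (T₀ ∪ T)` is approximated from finite parts of `T`. -/
lemma mem_closure_finite (T₀ T : Set Idx) {x : A} (hx : x ∈ BB u (T₀ ∪ T)) :
    x ∈ closure (⋃ F : {F : Finset Idx // ↑F ⊆ T}, (BB u (T₀ ∪ F.1) : Set A)) := by
  classical
  have hdir : Directed (· ≤ ·) fun F : {F : Finset Idx // ↑F ⊆ T} => BB u (T₀ ∪ F.1) := by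
    rintro ⟨F, hF⟩ ⟨F', hF'⟩
    exact ⟨⟨F ∪ F', by simp [hF, hF']⟩, BB_mono u (union_subset_union_right _ (by simp)),
      BB_mono u (union_subset_union_right _ (by simp))⟩
  have : Nonempty {F : Finset Idx // ↑F ⊆ T} := ⟨⟨∅, by simp⟩⟩
  rw [← StarSubalgebra.coe_iSup_of_directed hdir]
  refine BB_le u (C := StarSubalgebra.topologicalClosure _)
    (StarSubalgebra.isClosed_topologicalClosure _) ?_ hx
  intro i hi
  refine StarSubalgebra.le_topologicalClosure _ ?_
  rcases hi with ⟨k, rfl⟩ | ⟨α, hα | hα, rfl⟩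
  · exact le_iSup (fun F : {F : Finset Idx // ↑F ⊆ T} => BB u (T₀ ∪ F.1)) ⟨∅, by simp⟩
      (u_mem_BB u (inl_mem_gens _ k))
  · exact le_iSup (fun F : {F : Finset Idx // ↑F ⊆ T} => BB u (T₀ ∪ F.1)) ⟨∅, by simp⟩
      (u_mem_BB u (inr_mem_gens.2 (Or.inl hα)))
  · exact le_iSup (fun F : {F : Finset Idx // ↑F ⊆ T} => BB u (T₀ ∪ F.1)) ⟨{α}, by simpa⟩
      (u_mem_BB u (inr_mem_gens.2 (Or.inr (by simp))))

variable [PartialOrder A] [StarOrderedRing A] (τ : A →ₚ[ℂ] ℂ)

/-- The root projections decrease and have traces `2⁻¹ ^ k`. -/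
structure Base : Prop where
  pseq : PSeq (rho u)
  tr : ∀ k, τ (rho u k) = 2⁻¹ ^ k

/-- The code at `α` describes admissible gluing data `P`. -/
def Valid (α : Idx) (P : Bool → ℕ → A) : Prop :=
  ∃ c y k, α = .node c (y, k) ∧ StrictMono k ∧
    (∀ n, Tendsto (fun j => ev u c (y n j)) atTop (𝓝 (P false n))) ∧
    (∀ n, P true n = rho u (k n)) ∧ Data τ (BB u (Iio α)) P

/-- The unitary at `α` is the required HNN generator. -/
def GoodAt (α : Idx) : Prop :=
  ∃ P, HNN τ (BB u (Iio α)) (u (.inr α)) P ∧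
    (Valid u τ α P ∨ ((∀ P', ¬ Valid u τ α P') ∧ P = finP (defR u α)))

variable {u τ}

lemma Base.tr_lim (h : Base u τ) : Tendsto (fun k => τ (rho u k)) atTop (𝓝 0) := by
  simp only [h.tr]
  exact tendsto_pow_atTop_nhds_zero_of_norm_lt_one (by norm_num)

lemma Base.tnull (h : Base u τ) : TNull τ (rho u) := n2_tendsto_of_tr h.pseq h.tr_lim

lemma Base.ne_zero (h : Base u τ) (k : ℕ) : rho u k ≠ 0 := fun h0 => by
  have := h.tr k
  rw [h0, map_zero] at this
  exact absurd this.symm (by positivity)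

lemma Base.data_def (h : Base u τ) (T : Set Idx) (α : Idx) : Data τ (BB u T) (finP (defR u α)) := by
  refine finP_data (fun ε => ?_) (defR_mem u T α) ?_
  · cases α with
    | leaf j =>
      cases ε
      · exact h.pseq.proj _
      · exact h.pseq.qq_proj j
    | node c x => exact .zero A
  · cases α with
    | leaf j =>
      change τ (rho u j - rho u (j + 1)) = τ (rho u (j + 1))
      rw [map_sub, h.tr, h.tr]; ring
    | node c x => rfl

end

section Transfer

variable {A A' : Type*} [CStarAlgebra A] [CStarAlgebra A'] [PartialOrder A] [StarOrderedRing A]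
  [PartialOrder A'] [StarOrderedRing A'] {τ : A →ₚ[ℂ] ℂ} {τ' : A' →ₚ[ℂ] ℂ}

/-- Freeness is transported along any multiplicative, trace preserving relation. -/
lemma Free.transfer {C : StarSubalgebra ℂ A} {C' : StarSubalgebra ℂ A'} {v : A} {v' : A'}
    {P : Bool → ℕ → A} {P' : Bool → ℕ → A'} (R : A → A' → Prop)
    (hmul : ∀ a a' b b', R a a' → R b b' → R (a * b) (a' * b'))
    (htr : ∀ a a', R a a' → τ a = τ' a') (hU : ∀ ε, R (sgnU v ε) (sgnU v' ε))
    (hP : ∀ ε n, R (P ε n) (P' ε n)) (hC : ∀ x' ∈ C', ∃ x ∈ C, R x x')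
    (h : Free τ C v P) : Free τ' C' v' P' := by
  have key : ∀ ε ε' w', Red τ' C' v' P' ε ε' w' → ∃ w, Red τ C v P ε ε' w ∧ R w w' := by
    intro ε ε' w' hw'
    induction hw' with
    | single ε => exact ⟨_, .single ε, hU ε⟩
    | cons hx _ hc ih =>
      obtain ⟨w, hw, hR⟩ := ih
      obtain ⟨x, hxC, hxR⟩ := hC _ hx
      exact ⟨_, .cons hxC hw fun hne n => (htr _ _ (hmul _ _ _ _ (hP _ n) hxR)).trans (hc hne n),
        hmul _ _ _ _ (hmul _ _ _ _ (hU _) hxR) hR⟩
  intro ε ε' w' hw' a' ha' b' hb'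
  obtain ⟨w, hw, hR⟩ := key _ _ _ hw'
  obtain ⟨a, ha, haR⟩ := hC _ ha'
  obtain ⟨b, hb, hbR⟩ := hC _ hb'
  rw [← htr _ _ (hmul _ _ _ _ (hmul _ _ _ _ haR hR) hbR)]
  exact h _ _ _ hw a ha b hb

variable {Φ : A →⋆ₐ[ℂ] A'}

lemma injective_of_tr (hτ : IsFT τ) (hΦ : ∀ x, τ' (Φ x) = τ x) : Function.Injective Φ := by
  refine (injective_iff_map_eq_zero Φ).2 fun a ha => hτ.faithful a ?_
  rw [← hΦ, map_mul, ha, mul_zero, map_zero]

lemma null_map (hi : Function.Injective Φ) (e f : ℕ → A) (x : A) :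
    Null (fun n => Φ (e n)) (fun n => Φ (f n)) (Φ x) ↔ Null e f x := by
  unfold Null
  rw [tendsto_zero_iff_norm_tendsto_zero, tendsto_zero_iff_norm_tendsto_zero (f := fun n => e n * x * f n)]
  simp only [← map_mul, NonUnitalStarAlgHom.norm_map Φ hi]

lemma pseq_map (hi : Function.Injective Φ) (P : ℕ → A) : PSeq (fun n => Φ (P n)) ↔ PSeq P := by
  constructor
  · refine fun h => ⟨fun n => ⟨hi ?_, hi ?_⟩, hi (by simpa using h.zero), fun n m hnm => hi ?_⟩
    · rw [map_mul]; exact (h.proj n).isIdempotentElem.eq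
    · rw [map_star]; exact (h.proj n).isSelfAdjoint.star_eq
    · rw [map_mul]; exact h.nest n m hnm
  · exact fun h => ⟨fun n => (h.proj n).map Φ, by simp [h.zero],
      fun n m hnm => by rw [← map_mul, h.nest n m hnm]⟩

lemma data_map (hi : Function.Injective Φ) (hΦ : ∀ x, τ' (Φ x) = τ x) {C : StarSubalgebra ℂ A}
    {C' : StarSubalgebra ℂ A'} (hC : (C' : Set A') = Φ '' C) (P : Bool → ℕ → A) :
    Data τ' C' (fun ε n => Φ (P ε n)) ↔ Data τ C P := by
  have h1 : ∀ x, Φ x ∈ C' ↔ x ∈ C := fun x => by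
    change Φ x ∈ (C' : Set A') ↔ _
    rw [hC, hi.mem_set_image]; rfl
  have h2 : ∀ x' ∈ C', ∃ x ∈ C, Φ x = x' := fun x' hx' => by
    change x' ∈ (C' : Set A') at hx'
    rwa [hC] at hx'
  have h3 : ∀ e : ℕ → A, ∀ x, PeakAt (fun n => Φ (e n)) (Φ x) ↔ PeakAt e x := fun e x =>
    exists_congr fun c => by rw [← null_map hi e e]; simp
  constructor
  · exact fun h => ⟨fun ε => (pseq_map hi _).1 (h.pseq ε), fun ε n => (h1 _).1 (h.mem ε n),
      fun n => by simpa only [hΦ] using h.tr_eq n, fun ε => by simpa only [hΦ] using h.lim ε,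
      fun ε x hx => (h3 _ _).1 (h.peak ε _ ((h1 _).2 hx)),
      fun x hx => (null_map hi _ _ _).1 (h.orth _ ((h1 _).2 hx))⟩
  · refine fun h => ⟨fun ε => (pseq_map hi _).2 (h.pseq ε), fun ε n => (h1 _).2 (h.mem ε n),
      fun n => by simpa only [hΦ] using h.tr_eq n, fun ε => by simpa only [hΦ] using h.lim ε,
      fun ε x' hx' => ?_, fun x' hx' => ?_⟩
    · obtain ⟨x, hx, rfl⟩ := h2 x' hx'
      exact (h3 _ _).2 (h.peak ε x hx)
    · obtain ⟨x, hx, rfl⟩ := h2 x' hx'
      exact (null_map hi _ _ _).2 (h.orth x hx)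

variable {u : Gen → unitary A} {u' : Gen → unitary A'}

lemma rho_map (h : ∀ k, Φ (u (.inl k)) = u' (.inl k)) (k : ℕ) : Φ (rho u k) = rho u' k := by
  simp [rho, h]

lemma base_map (hi : Function.Injective Φ) (hΦ : ∀ x, τ' (Φ x) = τ x)
    (h : ∀ k, Φ (u (.inl k)) = u' (.inl k)) (hb : Base u τ) : Base u' τ' := by
  refine ⟨?_, fun k => by rw [← rho_map h, hΦ, hb.tr]⟩
  have := (pseq_map hi _).2 hb.pseq
  simpa only [rho_map h] using this

lemma BB_map (hi : Function.Injective Φ) {T : Set Idx} (h : ∀ i ∈ gens T, Φ (u i) = u' i) :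
    (BB u' T : Set A') = Φ '' BB u T := by
  have hiso := NonUnitalStarAlgHom.isometry Φ hi
  apply Subset.antisymm
  · refine BB_le u' (C := (BB u T).map Φ)
      (hiso.isClosedEmbedding.isClosedMap _ (isClosed_BB u T)) fun i hi => ?_
    exact ⟨u i, u_mem_BB u hi, h i hi⟩
  · rintro _ ⟨x, hx, rfl⟩
    refine BB_le u (C := (BB u' T).comap Φ) ((isClosed_BB u' T).preimage hiso.continuous)
      (fun i hi => ?_) hx
    change Φ (u i) ∈ BB u' T
    rw [h i hi]; exact u_mem_BB u' hi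

lemma ev_map {c : ℕ → Idx} (h : ∀ i ∈ gens (range c), Φ (u i) = u' i)
    (y : FreeGroup (ℕ ⊕ ℕ) →₀ ℂ) : Φ (ev u c y) = ev u' c y := by
  have h1 : ∀ g, Φ (word (fun i => u (Sum.map id c i)) g) =
      word (fun i => u' (Sum.map id c i)) g := by
    refine lift_word_map Φ _ _ ?_
    rintro (k | j)
    · exact h _ (inl_mem_gens _ k)
    · exact h _ (inr_mem_gens.2 ⟨j, rfl⟩)
  simp only [ev, Finsupp.linearCombination_apply, Finsupp.sum, map_sum, map_smul, h1]

lemma defR_map (h : ∀ k, Φ (u (.inl k)) = u' (.inl k)) (α : Idx) :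
    (fun ε n => Φ (finP (defR u α) ε n)) = finP (defR u' α) := by
  ext ε n
  unfold finP
  split_ifs
  · exact map_one Φ
  · cases α with
    | leaf j => cases ε <;> simp [defR, rho_map h]
    | node c x => exact map_zero Φ
  · exact map_zero Φ

lemma valid_map (hi : Function.Injective Φ) (hΦ : ∀ x, τ' (Φ x) = τ x) {α : Idx}
    (h : ∀ i ∈ gens (Iio α), Φ (u i) = u' i) (P : Bool → ℕ → A) :
    Valid u' τ' α (fun ε n => Φ (P ε n)) ↔ Valid u τ α P := by
  have hiso := NonUnitalStarAlgHom.isometry Φ hi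
  refine exists₃_congr fun c y k => and_congr_right fun hα => and_congr_right fun _ => ?_
  have hc : ∀ i ∈ gens (range c), Φ (u i) = u' i := fun i hi => h i (gens_mono (by
    rintro _ ⟨j, rfl⟩; rw [hα]; exact Idx.lt_node c _ j) hi)
  rw [data_map hi hΦ (BB_map hi h)]
  refine and_congr (forall_congr' fun n => ?_) (and_congr_left' (forall_congr' fun n => ?_))
  · simp only [← ev_map hc]
    exact hiso.isEmbedding.tendsto_nhds_iff.symm
  · rw [← rho_map (fun k => h _ (inl_mem_gens _ k)), hi.eq_iff]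

lemma not_valid_map (hi : Function.Injective Φ) (hΦ : ∀ x, τ' (Φ x) = τ x) {α : Idx}
    (h : ∀ i ∈ gens (Iio α), Φ (u i) = u' i) (hn : ∀ P, ¬ Valid u τ α P) (P' : Bool → ℕ → A') :
    ¬ Valid u' τ' α P' := by
  intro hv
  have h1 : ∀ ε n, ∃ x, Φ x = P' ε n := fun ε n => by
    obtain ⟨_, _, _, _, _, _, _, hd⟩ := hv
    have : P' ε n ∈ (BB u' (Iio α) : Set A') := hd.mem ε n
    rw [BB_map hi h] at this
    obtain ⟨x, -, hx⟩ := this
    exact ⟨x, hx⟩
  choose P hP using h1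
  refine hn P ((valid_map hi hΦ h P).1 ?_)
  simpa only [hP] using hv

lemma goodAt_of_hnn (hi : Function.Injective Φ) (hΦ : ∀ x, τ' (Φ x) = τ x) {α : Idx}
    (h : ∀ i ∈ gens (Iio α), Φ (u i) = u' i) {P : Bool → ℕ → A}
    (hP : Valid u τ α P ∨ ((∀ P', ¬ Valid u τ α P') ∧ P = finP (defR u α)))
    (hH : HNN τ' (BB u' (Iio α)) (u' (.inr α)) fun ε n => Φ (P ε n)) : GoodAt u' τ' α := by
  refine ⟨_, hH, hP.imp (valid_map hi hΦ h P).2 fun ⟨h1, h2⟩ => ⟨not_valid_map hi hΦ h h1, ?_⟩⟩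
  rw [h2, defR_map fun k => h _ (inl_mem_gens _ k)]

lemma goodAt_map (hi : Function.Injective Φ) (hΦ : ∀ x, τ' (Φ x) = τ x) {α : Idx}
    (h : ∀ i ∈ gens (Iic α), Φ (u i) = u' i) (hg : GoodAt u τ α) : GoodAt u' τ' α := by
  obtain ⟨P, hH, hP⟩ := hg
  have h' : ∀ i ∈ gens (Iio α), Φ (u i) = u' i := fun i hi => h i (gens_mono Iio_subset_Iic_self hi)
  have hα : Φ (u (.inr α)) = u' (.inr α) := h _ (inr_mem_gens.2 (mem_Iic.2 le_rfl))
  refine goodAt_of_hnn hi hΦ h' hP ⟨isClosed_BB _ _, (data_map hi hΦ (BB_map hi h') P).2 hH.data,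
    (u' _).2, fun n => by rw [← hα, ← map_mul, hH.conj, map_mul], ?_⟩
  refine hH.free.transfer (fun a a' => Φ a = a') (by rintro a _ b _ rfl rfl; exact map_mul Φ a b)
    (by rintro a _ rfl; exact (hΦ a).symm) (fun ε => ?_) (fun _ _ => rfl) fun x' hx' => ?_
  · cases ε <;> simp [sgnU, ← hα, map_star]
  · change x' ∈ (BB u' (Iio α) : Set A') at hx'
    rwa [BB_map hi h'] at hx'

end Transfer

end Crest.Agent.R120
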